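import Vale.Agent.P088.R2.H558.Spec

/-!
# P088, stage 3: divergence form operators and an arbitrary weight, calculus

`Ld f = ∑ ∂_i (a_ij ∂_j f)`, `Gm f g = ∑ a_ij ∂_i f ∂_j g`, `Qd W f = e^W Ld (e^{-W} f)`.
-/

open MeasureTheory Set Filter
open scoped ContDiff Matrix Topology

noncomputable section

set_option linter.unusedSectionVars false

namespace Vale.Agent.P088.R2.H269

open Vale.Agent.P088.LR Vale.Agent.P088.HY

variable {E : Type} [NormedAddCommGroup E] [NormedSpace ℝ E]

/-- Test functions in `U`. -/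
structure Tt (U : Set E) (f : E → ℝ) : Prop where
  s : ContDiff ℝ ∞ f
  c : HasCompactSupport f
  t : tsupport f ⊆ U

lemma cut_ev {κ f : E → ℝ} {z : E} (h : κ =ᶠ[𝓝 z] fun _ => 1) :
    (fun z => κ z * f z) =ᶠ[𝓝 z] f := by
  filter_upwards [h] with w hw
  rw [hw, one_mul]

/-- smooth functions -/
abbrev S (f : E → ℝ) : Prop := ContDiff ℝ ∞ f

variable {J : Type} [Fintype J]

/-- `∑ a_ij ∂_i f ∂_j g` -/
def Gm (e : J → E) (a : J → J → E → ℝ) (f g : E → ℝ) (z : E) : ℝ :=
  ∑ i, ∑ j, a i j z * (db e i f z * db e j g z)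

/-- `∑ ∂_i (a_ij ∂_j f)` -/
def Ld (e : J → E) (a : J → J → E → ℝ) (f : E → ℝ) (z : E) : ℝ :=
  ∑ i, ∑ j, db e i (fun w => a i j w * db e j f w) z

/-- `e^W Ld (e^{-W} f)` -/
def Qd (e : J → E) (a : J → J → E → ℝ) (W f : E → ℝ) (z : E) : ℝ :=
  Ld e a f z - 2 * Gm e a W f z + (Gm e a W W z - Ld e a W z) * f z

variable {e : J → E} {a : J → J → E → ℝ} {f g h W : E → ℝ}

lemma S.db (hf : S f) (i : J) : S (db e i f) :=
  (hf.fderiv_right (by simp)).clm_apply contDiff_const

lemma S.df (hf : S f) (z : E) : DifferentiableAt ℝ f z := hf.differentiable (by simp) z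

lemma S.sum {ι : Type*} {t : Finset ι} {g : ι → E → ℝ} (hg : ∀ a ∈ t, S (g a)) :
    S (fun z => ∑ a ∈ t, g a z) := ContDiff.sum hg

lemma S.Gm (ha : ∀ i j, S (a i j)) (hf : S f) (hg : S g) : S (Gm e a f g) :=
  S.sum fun i _ => S.sum fun j _ => (ha i j).mul ((hf.db i).mul (hg.db j))

lemma S.Ld (ha : ∀ i j, S (a i j)) (hf : S f) : S (Ld e a f) :=
  S.sum fun i _ => S.sum fun j _ => S.db ((ha i j).mul (hf.db j)) i

lemma S.Qd (ha : ∀ i j, S (a i j)) (hW : S W) (hf : S f) : S (Qd e a W f) :=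
  ((S.Ld ha hf).sub (contDiff_const.mul (S.Gm ha hW hf))).add
    (((S.Gm ha hW hW).sub (S.Ld ha hW)).mul hf)

/-! ## The derivative -/

lemma db_mul (hf : S f) (hg : S g) (i : J) (z : E) :
    db e i (fun w => f w * g w) z = db e i f z * g z + f z * db e i g z := by
  unfold HY.db
  have := ((hf.df z).hasFDerivAt.mul (hg.df z).hasFDerivAt).fderiv
  have h2 : fderiv ℝ (fun w => f w * g w) z = f z • fderiv ℝ g z + g z • fderiv ℝ f z := this
  rw [h2]
  simp
  ring

lemma db_add (hf : S f) (hg : S g) (i : J) (z : E) :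
    db e i (fun w => f w + g w) z = db e i f z + db e i g z := by
  unfold HY.db
  have h2 : fderiv ℝ (fun w => f w + g w) z = fderiv ℝ f z + fderiv ℝ g z :=
    fderiv_add (hf.df z) (hg.df z)
  rw [h2]
  simp

lemma db_const (c : ℝ) (i : J) (z : E) : db e i (fun _ => c) z = 0 := by
  unfold HY.db
  simp

lemma db_smul (c : ℝ) (hf : S f) (i : J) (z : E) :
    db e i (fun w => c * f w) z = c * db e i f z := by
  rw [db_mul contDiff_const hf, db_const]
  ring

lemma db_neg (i : J) (z : E) : db e i (fun w => -f w) z = -db e i f z := by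
  unfold HY.db
  have h2 : fderiv ℝ (fun w => -f w) z = -fderiv ℝ f z := fderiv_neg
  rw [h2]
  simp

lemma db_exp (hf : S f) (i : J) (z : E) :
    db e i (fun w => Real.exp (f w)) z = Real.exp (f z) * db e i f z := by
  unfold HY.db
  have h2 : fderiv ℝ (fun w => Real.exp (f w)) z = Real.exp (f z) • fderiv ℝ f z :=
    ((hf.df z).hasFDerivAt.exp).fderiv
  rw [h2]
  simp

lemma db_congr {z₀ : E} (hfg : f =ᶠ[𝓝 z₀] g) (i : J) : db e i f =ᶠ[𝓝 z₀] db e i g := by
  have := hfg.fderiv (𝕜 := ℝ)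
  filter_upwards [this] with z hz
  unfold HY.db
  rw [hz]

/-! ## The bilinear form -/

lemma Gm_comm (hs : ∀ i j z, a i j z = a j i z) (f g : E → ℝ) (z : E) :
    Gm e a f g z = Gm e a g f z := by
  unfold H269.Gm
  rw [Finset.sum_comm]
  refine Finset.sum_congr rfl fun i _ => Finset.sum_congr rfl fun j _ => ?_
  rw [hs j i]
  ring

lemma Gm_mul_left (hf : S f) (hg : S g) (h : E → ℝ) (z : E) :
    Gm e a (fun w => f w * g w) h z = f z * Gm e a g h z + g z * Gm e a f h z := by
  unfold H269.Gm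
  simp only [Finset.mul_sum, ← Finset.sum_add_distrib]
  refine Finset.sum_congr rfl fun i _ => Finset.sum_congr rfl fun j _ => ?_
  rw [db_mul hf hg]
  ring

lemma Gm_mul_right (hf : S f) (hg : S g) (h : E → ℝ) (z : E) :
    Gm e a h (fun w => f w * g w) z = f z * Gm e a h g z + g z * Gm e a h f z := by
  unfold H269.Gm
  simp only [Finset.mul_sum, ← Finset.sum_add_distrib]
  refine Finset.sum_congr rfl fun i _ => Finset.sum_congr rfl fun j _ => ?_
  rw [db_mul hf hg]
  ring

lemma Gm_add_right (hf : S f) (hg : S g) (h : E → ℝ) (z : E) :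
    Gm e a h (fun w => f w + g w) z = Gm e a h f z + Gm e a h g z := by
  unfold H269.Gm
  simp only [← Finset.sum_add_distrib]
  refine Finset.sum_congr rfl fun i _ => Finset.sum_congr rfl fun j _ => ?_
  rw [db_add hf hg]
  ring

lemma Gm_neg_left (f h : E → ℝ) (z : E) :
    Gm e a (fun w => -f w) h z = -Gm e a f h z := by
  unfold H269.Gm
  simp only [← Finset.sum_neg_distrib]
  refine Finset.sum_congr rfl fun i _ => Finset.sum_congr rfl fun j _ => ?_
  rw [db_neg]
  ring

lemma Gm_neg_right (f h : E → ℝ) (z : E) :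
    Gm e a h (fun w => -f w) z = -Gm e a h f z := by
  unfold H269.Gm
  simp only [← Finset.sum_neg_distrib]
  refine Finset.sum_congr rfl fun i _ => Finset.sum_congr rfl fun j _ => ?_
  rw [db_neg]
  ring

lemma Gm_exp_left (hf : S f) (h : E → ℝ) (z : E) :
    Gm e a (fun w => Real.exp (f w)) h z = Real.exp (f z) * Gm e a f h z := by
  unfold H269.Gm
  simp only [Finset.mul_sum]
  refine Finset.sum_congr rfl fun i _ => Finset.sum_congr rfl fun j _ => ?_
  rw [db_exp hf]
  ring

/-! ## The operator -/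

lemma Ld_eq (ha : ∀ i j, S (a i j)) (hf : S f) (z : E) :
    Ld e a f z = ∑ i, ∑ j, (db e i (a i j) z * db e j f z + a i j z * db e i (db e j f) z) := by
  unfold H269.Ld
  refine Finset.sum_congr rfl fun i _ => Finset.sum_congr rfl fun j _ => ?_
  rw [db_mul (ha i j) (hf.db j)]

lemma Ld_mul (ha : ∀ i j, S (a i j)) (hs : ∀ i j z, a i j z = a j i z) (hf : S f) (hg : S g)
    (z : E) : Ld e a (fun w => f w * g w) z
      = f z * Ld e a g z + g z * Ld e a f z + 2 * Gm e a f g z := by
  have h0 : 2 * Gm e a f g z = Gm e a f g z + Gm e a g f z := by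
    rw [Gm_comm hs g f]
    ring
  have fg : S (fun w => f w * g w) := hf.mul hg
  rw [h0, Ld_eq ha fg, Ld_eq ha hf, Ld_eq ha hg]
  unfold H269.Gm
  simp only [Finset.mul_sum, ← Finset.sum_add_distrib]
  refine Finset.sum_congr rfl fun i _ => Finset.sum_congr rfl fun j _ => ?_
  have e1 : db e j (fun w => f w * g w) = fun w => db e j f w * g w + f w * db e j g w :=
    funext fun w => db_mul hf hg j w
  have e2 : db e i (fun w => db e j f w * g w + f w * db e j g w) z
      = (db e i (db e j f) z * g z + db e j f z * db e i g z)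
        + (db e i f z * db e j g z + f z * db e i (db e j g) z) := by
    have a1 : S (fun w => db e j f w * g w) := (hf.db j).mul hg
    have a2 : S (fun w => f w * db e j g w) := hf.mul (hg.db j)
    rw [db_add a1 a2, db_mul (hf.db j) hg, db_mul hf (hg.db j)]
  rw [e1, e2]
  simp only
  ring

lemma Ld_add (ha : ∀ i j, S (a i j)) (hf : S f) (hg : S g) (z : E) :
    Ld e a (fun w => f w + g w) z = Ld e a f z + Ld e a g z := by
  have fg : S (fun w => f w + g w) := hf.add hg
  rw [Ld_eq ha fg, Ld_eq ha hf, Ld_eq ha hg]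
  simp only [← Finset.sum_add_distrib]
  refine Finset.sum_congr rfl fun i _ => Finset.sum_congr rfl fun j _ => ?_
  have e1 : db e j (fun w => f w + g w) = fun w => db e j f w + db e j g w :=
    funext fun w => db_add hf hg j w
  rw [e1, db_add (hf.db j) (hg.db j)]
  ring

lemma Ld_smul (ha : ∀ i j, S (a i j)) (c : ℝ) (hf : S f) (z : E) :
    Ld e a (fun w => c * f w) z = c * Ld e a f z := by
  have fg : S (fun w => c * f w) := contDiff_const.mul hf
  rw [Ld_eq ha fg, Ld_eq ha hf]
  simp only [Finset.mul_sum]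
  refine Finset.sum_congr rfl fun i _ => Finset.sum_congr rfl fun j _ => ?_
  have e1 : db e j (fun w => c * f w) = fun w => c * db e j f w :=
    funext fun w => db_smul c hf j w
  rw [e1, db_smul c (hf.db j)]
  ring

lemma Ld_neg (ha : ∀ i j, S (a i j)) (hf : S f) (z : E) :
    Ld e a (fun w => -f w) z = -Ld e a f z := by
  have : (fun w => -f w) = fun w => (-1) * f w := by
    ext w
    ring
  rw [this, Ld_smul ha _ hf]
  ring

lemma Ld_exp (ha : ∀ i j, S (a i j)) (hf : S f) (z : E) :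
    Ld e a (fun w => Real.exp (f w)) z = Real.exp (f z) * (Ld e a f z + Gm e a f f z) := by
  have fg : S (fun w => Real.exp (f w)) := hf.exp
  rw [Ld_eq ha fg, Ld_eq ha hf]
  unfold H269.Gm
  simp only [Finset.mul_sum, ← Finset.sum_add_distrib]
  refine Finset.sum_congr rfl fun i _ => Finset.sum_congr rfl fun j _ => ?_
  have e1 : db e j (fun w => Real.exp (f w)) = fun w => Real.exp (f w) * db e j f w :=
    funext fun w => db_exp hf j w
  rw [e1, db_mul hf.exp (hf.db j), db_exp hf]
  ring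

lemma Ld_congr {z₀ : E} (hfg : f =ᶠ[𝓝 z₀] g) :
    Ld e a f =ᶠ[𝓝 z₀] Ld e a g := by
  have h1 : ∀ i j, db e i (fun w => a i j w * db e j f w)
      =ᶠ[𝓝 z₀] db e i (fun w => a i j w * db e j g w) := by
    intro i j
    refine db_congr ?_ i
    filter_upwards [db_congr (e := e) hfg j] with z hz
    rw [hz]
  have h2 := (eventually_all.2 fun i => eventually_all.2 fun j => h1 i j)
  filter_upwards [h2] with z hz
  unfold H269.Ld
  exact Finset.sum_congr rfl fun i _ => Finset.sum_congr rfl fun j _ => hz i j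

lemma Gm_congr {f' g' : E → ℝ} {z₀ : E} (hf : f =ᶠ[𝓝 z₀] f') (hg : g =ᶠ[𝓝 z₀] g') :
    Gm e a f g =ᶠ[𝓝 z₀] Gm e a f' g' := by
  have h1 := (eventually_all.2 fun i => db_congr (e := e) hf i)
  have h2 := (eventually_all.2 fun i => db_congr (e := e) hg i)
  filter_upwards [h1, h2] with z k1 k2
  unfold H269.Gm
  exact Finset.sum_congr rfl fun i _ => Finset.sum_congr rfl fun j _ => by rw [k1 i, k2 j]

lemma Qd_congr {W' g : E → ℝ} {z₀ : E} (hW : W =ᶠ[𝓝 z₀] W')
    (hf : f =ᶠ[𝓝 z₀] g) : Qd e a W f =ᶠ[𝓝 z₀] Qd e a W' g := by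
  filter_upwards [Ld_congr (e := e) (a := a) hf, Ld_congr (e := e) (a := a) hW, Gm_congr (e := e) (a := a) hW hf,
    Gm_congr (e := e) (a := a) hW hW, hf] with z k1 k2 k3 k4 k5
  unfold H269.Qd
  rw [k1, k2, k3, k4, k5]

/-! ## Conjugation -/

lemma Qd_eq (ha : ∀ i j, S (a i j)) (hs : ∀ i j z, a i j z = a j i z) (hW : S W) (hf : S f)
    (z : E) : Qd e a W f z = Real.exp (W z) * Ld e a (fun w => Real.exp (-W w) * f w) z := by
  have hn : S (fun w => -W w) := hW.neg
  rw [Ld_mul ha hs hn.exp hf, Ld_exp ha hn, Ld_neg ha hW, Gm_neg_left, Gm_neg_right,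
    Gm_exp_left hn, Gm_neg_left]
  have h1 : Real.exp (W z) * Real.exp (-W z) = 1 := by
    rw [← Real.exp_add]
    simp
  unfold H269.Qd
  calc Ld e a f z - 2 * Gm e a W f z + (Gm e a W W z - Ld e a W z) * f z
      = 1 * (Ld e a f z - 2 * Gm e a W f z + (Gm e a W W z - Ld e a W z) * f z) := by ring
    _ = (Real.exp (W z) * Real.exp (-W z)) *
        (Ld e a f z - 2 * Gm e a W f z + (Gm e a W W z - Ld e a W z) * f z) := by rw [h1]
    _ = _ := by ring

/-- `e^W · Ld g = Qd W (e^W g)` -/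
lemma Qd_exp (ha : ∀ i j, S (a i j)) (hs : ∀ i j z, a i j z = a j i z) (hW : S W) (hg : S g)
    (z : E) : Qd e a W (fun w => Real.exp (W w) * g w) z = Real.exp (W z) * Ld e a g z := by
  rw [Qd_eq ha hs hW (hW.exp.mul hg)]
  have : (fun w => Real.exp (-W w) * (Real.exp (W w) * g w)) = g := by
    ext w
    rw [← mul_assoc, ← Real.exp_add]
    simp
  rw [this]

/-- the operator applied to a product -/
lemma Qd_mul (ha : ∀ i j, S (a i j)) (hs : ∀ i j z, a i j z = a j i z)
    (hf : S f) (hg : S g) (z : E) : Qd e a W (fun w => f w * g w) z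
      = f z * Qd e a W g z + 2 * Gm e a f g z - 2 * Gm e a W f z * g z + Ld e a f z * g z := by
  unfold H269.Qd
  rw [Ld_mul ha hs hf hg, Gm_mul_right hf hg]
  ring

lemma Qd_add (ha : ∀ i j, S (a i j)) (hf : S f) (hg : S g) (z : E) :
    Qd e a W (fun w => f w + g w) z = Qd e a W f z + Qd e a W g z := by
  unfold H269.Qd
  rw [Ld_add ha hf hg, Gm_add_right hf hg]
  ring

lemma Qd_smul (ha : ∀ i j, S (a i j)) (c : ℝ) (hf : S f)
    (z : E) : Qd e a W (fun w => c * f w) z = c * Qd e a W f z := by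
  have h1 : Gm e a W (fun w => c * f w) z = c * Gm e a W f z := by
    have hc : S (fun _ : E => c) := contDiff_const
    rw [Gm_mul_right hc hf]
    have : Gm e a W (fun _ => c) z = 0 := by
      unfold H269.Gm
      simp [db_const]
    rw [this]
    ring
  unfold H269.Qd
  rw [Ld_smul ha c hf, h1]
  ring

end Vale.Agent.P088.R2.H269
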