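import Vale.Agent.P088.R2.H269.W.W10

/-!
# P088, stage 3: the instance on pairs of points
-/

open MeasureTheory Set Filter
open scoped ContDiff Matrix Topology

noncomputable section

set_option linter.unusedSectionVars false

namespace Vale.Agent.P088.R2.H269

open Vale.Agent.P088.LR Vale.Agent.P088.HY

variable {n : ℕ}

/-- the standard basis of pairs -/
def bs (n : ℕ) : Module.Basis (Fin n ⊕ Fin n) ℝ (VV n) :=
  (Pi.basisFun ℝ (Fin n)).prod (Pi.basisFun ℝ (Fin n))

lemma bs_inl (i : Fin n) : bs n (Sum.inl i) = (Pi.single i 1, 0) := by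
  unfold bs
  simp

lemma bs_inr (i : Fin n) : bs n (Sum.inr i) = (0, Pi.single i 1) := by
  unfold bs
  simp

lemma db_inl (i : Fin n) (f : VV n → ℝ) : db (bs n) (Sum.inl i) f = HY.dx i f := by
  ext z
  unfold db HY.dx
  rw [bs_inl]

lemma db_inr (i : Fin n) (f : VV n → ℝ) : db (bs n) (Sum.inr i) f = HY.dy i f := by
  ext z
  unfold db HY.dy
  rw [bs_inr]

/-- the coefficients in the first variable -/
def aX (s : MF n) : Fin n ⊕ Fin n → Fin n ⊕ Fin n → VV n → ℝ
  | .inl i, .inl j => fun z => s z.1 i j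
  | _, _ => fun _ => 0

/-- the coefficients in the second variable -/
def aY (s : MF n) : Fin n ⊕ Fin n → Fin n ⊕ Fin n → VV n → ℝ
  | .inr i, .inr j => fun z => s z.2 i j
  | _, _ => fun _ => 0

/-- both families -/
def aa (s₁ s₂ : MF n) (k : Fin 2) : Fin n ⊕ Fin n → Fin n ⊕ Fin n → VV n → ℝ :=
  if k = 0 then aX s₁ else aY s₂

lemma aa0 (s₁ s₂ : MF n) : aa s₁ s₂ 0 = aX s₁ := rfl

lemma aa1 (s₁ s₂ : MF n) : aa s₁ s₂ 1 = aY s₂ := rfl

/-- `∑ ∂_{x_i} (s_ij ∂_{x_j} f)` -/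
def DX (s : MF n) (f : VV n → ℝ) (z : VV n) : ℝ :=
  ∑ i, ∑ j, HY.dx i (fun w => s w.1 i j * HY.dx j f w) z

/-- `∑ ∂_{y_i} (s_ij ∂_{y_j} f)` -/
def DY (s : MF n) (f : VV n → ℝ) (z : VV n) : ℝ :=
  ∑ i, ∑ j, HY.dy i (fun w => s w.2 i j * HY.dy j f w) z

/-- `∑ s_ij ∂_{x_i} f ∂_{x_j} g` -/
def GX (s : MF n) (f g : VV n → ℝ) (z : VV n) : ℝ :=
  ∑ i, ∑ j, s z.1 i j * (HY.dx i f z * HY.dx j g z)

/-- `∑ s_ij ∂_{y_i} f ∂_{y_j} g` -/
def GY (s : MF n) (f g : VV n → ℝ) (z : VV n) : ℝ :=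
  ∑ i, ∑ j, s z.2 i j * (HY.dy i f z * HY.dy j g z)

lemma dx_zero' (i : Fin n) (z : VV n) : HY.dx i (fun _ => (0 : ℝ)) z = 0 := by
  unfold HY.dx
  simp

lemma dy_zero' (i : Fin n) (z : VV n) : HY.dy i (fun _ => (0 : ℝ)) z = 0 := by
  unfold HY.dy
  simp

lemma Ld_aX (s : MF n) (f : VV n → ℝ) : Ld (bs n) (aX s) f = DX s f := by
  ext z
  unfold Ld DX
  rw [Fintype.sum_sum_type]
  simp only [Fintype.sum_sum_type, db_inl, db_inr, aX, zero_mul, dx_zero', dy_zero',
    Finset.sum_const_zero, add_zero]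

lemma Ld_aY (s : MF n) (f : VV n → ℝ) : Ld (bs n) (aY s) f = DY s f := by
  ext z
  unfold Ld DY
  rw [Fintype.sum_sum_type]
  simp only [Fintype.sum_sum_type, db_inl, db_inr, aY, zero_mul, dx_zero', dy_zero',
    Finset.sum_const_zero, zero_add]

lemma Gm_aX (s : MF n) (f g : VV n → ℝ) : Gm (bs n) (aX s) f g = GX s f g := by
  ext z
  unfold Gm GX
  rw [Fintype.sum_sum_type]
  simp only [Fintype.sum_sum_type, db_inl, db_inr, aX, zero_mul,
    Finset.sum_const_zero, add_zero]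

lemma Gm_aY (s : MF n) (f g : VV n → ℝ) : Gm (bs n) (aY s) f g = GY s f g := by
  ext z
  unfold Gm GY
  rw [Fintype.sum_sum_type]
  simp only [Fintype.sum_sum_type, db_inl, db_inr, aY, zero_mul,
    Finset.sum_const_zero, zero_add]

lemma sm_aX {s : MF n} (hs : SmM s) (i j : Fin n ⊕ Fin n) : S (aX s i j) := by
  rcases i with i | i <;> rcases j with j | j
  · exact (hs i j).comp contDiff_fst
  all_goals exact contDiff_const

lemma sm_aY {s : MF n} (hs : SmM s) (i j : Fin n ⊕ Fin n) : S (aY s i j) := by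
  rcases i with i | i <;> rcases j with j | j
  iterate 3 exact contDiff_const
  exact (hs i j).comp contDiff_snd

lemma sy_aX {s : MF n} (hs : ∀ x, (s x).IsSymm) (i j : Fin n ⊕ Fin n) (z : VV n) :
    aX s i j z = aX s j i z := by
  rcases i with i | i <;> rcases j with j | j
  · exact (hs z.1).apply j i
  all_goals rfl

lemma sy_aY {s : MF n} (hs : ∀ x, (s x).IsSymm) (i j : Fin n ⊕ Fin n) (z : VV n) :
    aY s i j z = aY s j i z := by
  rcases i with i | i <;> rcases j with j | j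
  iterate 3 rfl
  exact (hs z.2).apply j i

lemma sum_aX (s : MF n) (z : VV n) (ξ : Fin n ⊕ Fin n → ℝ) :
    ∑ i, ∑ j, aX s i j z * (ξ i * ξ j)
      = ∑ i, ∑ j, s z.1 i j * (ξ (.inl i) * ξ (.inl j)) := by
  rw [Fintype.sum_sum_type]
  simp only [Fintype.sum_sum_type, aX, zero_mul, Finset.sum_const_zero, add_zero]

lemma sum_aY (s : MF n) (z : VV n) (ξ : Fin n ⊕ Fin n → ℝ) :
    ∑ i, ∑ j, aY s i j z * (ξ i * ξ j)
      = ∑ i, ∑ j, s z.2 i j * (ξ (.inr i) * ξ (.inr j)) := by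
  rw [Fintype.sum_sum_type]
  simp only [Fintype.sum_sum_type, aY, zero_mul, Finset.sum_const_zero, zero_add]

/-- positive definite tensors: quadratic forms -/
def PD (s : MF n) : Prop :=
  ∀ x (ξ : Fin n → ℝ), ξ ≠ 0 → 0 < ∑ i, ∑ j, s x i j * (ξ i * ξ j)

lemma PD.nonneg {s : MF n} (h : PD s) (x : V n) (ξ : Fin n → ℝ) :
    0 ≤ ∑ i, ∑ j, s x i j * (ξ i * ξ j) := by
  by_cases hξ : ξ = 0
  · simp [hξ]
  · exact (h x ξ hξ).le

lemma pos_aX {s : MF n} (h : PD s) : Pos (aX s) := by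
  intro z ξ
  rw [sum_aX]
  exact h.nonneg z.1 _

lemma pos_aY {s : MF n} (h : PD s) : Pos (aY s) := by
  intro z ξ
  rw [sum_aY]
  exact h.nonneg z.2 _

lemma ell_aa {s₁ s₂ : MF n} (h₁ : PD s₁) (h₂ : PD s₂) (z : VV n) (ξ : Fin n ⊕ Fin n → ℝ)
    (hξ : ξ ≠ 0) : 0 < ∑ i, ∑ j, (aa s₁ s₂ 0 i j z + aa s₁ s₂ 1 i j z) * (ξ i * ξ j) := by
  rw [aa0, aa1]
  simp only [add_mul, Finset.sum_add_distrib]
  rw [sum_aX, sum_aY]
  have n1 := h₁.nonneg z.1 fun i => ξ (.inl i)
  have n2 := h₂.nonneg z.2 fun i => ξ (.inr i)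
  by_cases h : (fun i => ξ (.inl i)) = 0
  · have h' : (fun i => ξ (.inr i)) ≠ 0 := by
      intro h'
      apply hξ
      ext i
      rcases i with i | i
      · exact congrFun h i
      · exact congrFun h' i
    have := h₂ z.2 _ h'
    linarith
  · have := h₁ z.1 _ h
    linarith

/-! ## Commutation -/

lemma fd_fd {f : VV n → ℝ} (hf : S f) (z u v : VV n) :
    fderiv ℝ (fun w => fderiv ℝ f w v) z u = fderiv ℝ (fderiv ℝ f) z u v := by
  have h1 : DifferentiableAt ℝ (fderiv ℝ f) z :=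
    (hf.fderiv_right (m := ∞) (by simp)).differentiable (by simp) z
  have h2 := h1.hasFDerivAt.clm_apply (hasFDerivAt_const v z)
  rw [h2.fderiv]
  simp

lemma fd_comm {f : VV n → ℝ} (hf : S f) (z u v : VV n) :
    fderiv ℝ (fun w => fderiv ℝ f w v) z u = fderiv ℝ (fun w => fderiv ℝ f w u) z v := by
  rw [fd_fd hf, fd_fd hf]
  have h := hf.contDiffAt.isSymmSndFDerivAt (x := z) (by simp; exact WithTop.coe_le_coe.2 le_top)
  exact h.eq u v

lemma dx_dy' {f : VV n → ℝ} (hf : S f) (i k : Fin n) :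
    HY.dx i (HY.dy k f) = HY.dy k (HY.dx i f) := funext fun z => fd_comm hf z _ _

lemma S.dx {f : VV n → ℝ} (hf : S f) (i : Fin n) : S (HY.dx i f) := by
  rw [← db_inl]
  exact hf.db _

lemma S.dy {f : VV n → ℝ} (hf : S f) (i : Fin n) : S (HY.dy i f) := by
  rw [← db_inr]
  exact hf.db _

lemma dx_mul2 {c f : VV n → ℝ} (hc : S c) (h0 : ∀ z i, HY.dx i c z = 0) (hf : S f) (i : Fin n) :
    HY.dx i (fun w => c w * f w) = fun w => c w * HY.dx i f w := by
  ext z
  have := db_mul (e := bs n) hc hf (Sum.inl i) z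
  rw [db_inl, db_inl, db_inl, h0, zero_mul, zero_add] at this
  exact this

lemma dy_mul1 {c f : VV n → ℝ} (hc : S c) (h0 : ∀ z i, HY.dy i c z = 0) (hf : S f) (i : Fin n) :
    HY.dy i (fun w => c w * f w) = fun w => c w * HY.dy i f w := by
  ext z
  have := db_mul (e := bs n) hc hf (Sum.inr i) z
  rw [db_inr, db_inr, db_inr, h0, zero_mul, zero_add] at this
  exact this

lemma dy_fst' {c : V n → ℝ} (z : VV n) (hc : DifferentiableAt ℝ c z.1) (i : Fin n) :
    HY.dy i (fun z => c z.1) z = 0 := by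
  unfold HY.dy
  have h : HasFDerivAt (fun z : VV n => c z.1)
      ((fderiv ℝ c z.1).comp (ContinuousLinearMap.fst ℝ (V n) (V n))) z :=
    HasFDerivAt.comp z (f := Prod.fst) hc.hasFDerivAt hasFDerivAt_fst
  rw [h.fderiv]
  simp

lemma dx_snd' {c : V n → ℝ} (z : VV n) (hc : DifferentiableAt ℝ c z.2) (i : Fin n) :
    HY.dx i (fun z => c z.2) z = 0 := by
  unfold HY.dx
  have h : HasFDerivAt (fun z : VV n => c z.2)
      ((fderiv ℝ c z.2).comp (ContinuousLinearMap.snd ℝ (V n) (V n))) z :=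
    HasFDerivAt.comp z (f := Prod.snd) hc.hasFDerivAt hasFDerivAt_snd
  rw [h.fderiv]
  simp

/-- `∂_{y_k}` commutes with the operator in `x` -/
lemma dy_DX {s : MF n} (hs : SmM s) {f : VV n → ℝ} (hf : S f) (k : Fin n) :
    HY.dy k (DX s f) = DX s (HY.dy k f) := by
  ext z
  have sc : ∀ i j, S (fun w : VV n => s w.1 i j) := fun i j => (hs i j).comp contDiff_fst
  have s0 : ∀ i j (w : VV n) k, HY.dy k (fun w : VV n => s w.1 i j) w = 0 := fun i j w k =>
    dy_fst' (c := fun x => s x i j) w ((hs i j).differentiable (by simp) _) k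
  have st : ∀ i j, S (HY.dx i (fun w => s w.1 i j * HY.dx j f w)) := fun i j =>
    S.dx ((sc i j).mul (hf.dx j)) i
  have h1 : HY.dy k (DX s f) z
      = ∑ i, ∑ j, HY.dy k (HY.dx i (fun w => s w.1 i j * HY.dx j f w)) z := by
    unfold DX
    unfold HY.dy
    rw [fderiv_fun_sum fun i _ => (S.sum fun j _ => st i j).df z]
    simp only [sum_apply]
    refine Finset.sum_congr rfl fun i _ => ?_
    rw [fderiv_fun_sum fun j _ => (st i j).df z]
    simp
  rw [h1]
  unfold DX
  refine Finset.sum_congr rfl fun i _ => Finset.sum_congr rfl fun j _ => ?_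
  rw [← dx_dy' ((sc i j).mul (hf.dx j)) i k,
    dy_mul1 (sc i j) (s0 i j) (hf.dx j) k, dx_dy' hf j k]

/-- the operators in the two variables commute -/
theorem DX_DY {s₁ s₂ : MF n} (h₁ : SmM s₁) (h₂ : SmM s₂) {f : VV n → ℝ} (hf : S f) :
    DX s₁ (DY s₂ f) = DY s₂ (DX s₁ f) := by
  have sc : ∀ i j, S (fun w : VV n => s₂ w.2 i j) := fun i j => (h₂ i j).comp contDiff_snd
  have s0 : ∀ i j (w : VV n) k, HY.dx k (fun w : VV n => s₂ w.2 i j) w = 0 := fun i j w k =>
    dx_snd' (c := fun x => s₂ x i j) w ((h₂ i j).differentiable (by simp) _) k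
  have sX : ∀ g, S g → S (DX s₁ g) := by
    intro g hg
    rw [← Ld_aX]
    exact S.Ld (sm_aX h₁) hg
  -- `DX` commutes with multiplication by functions of `y`
  have hm : ∀ (c g : VV n → ℝ), S c → (∀ w k, HY.dx k c w = 0) → S g →
      DX s₁ (fun w => c w * g w) = fun w => c w * DX s₁ g w := by
    intro c g hc c0 hg
    ext z
    unfold DX
    simp only [Finset.mul_sum]
    refine Finset.sum_congr rfl fun i _ => Finset.sum_congr rfl fun j _ => ?_
    have s1 : S (fun w : VV n => s₁ w.1 i j) := (h₁ i j).comp contDiff_fst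
    rw [dx_mul2 hc c0 hg j]
    have e1 : (fun w : VV n => s₁ w.1 i j * (c w * HY.dx j g w))
        = fun w => c w * (s₁ w.1 i j * HY.dx j g w) := by
      ext w
      ring
    rw [e1, dx_mul2 hc c0 (s1.mul (hg.dx j)) i]
  -- `DX` of a sum
  have hsum : ∀ (t : Finset (Fin n)) (g : Fin n → VV n → ℝ), (∀ i, S (g i)) →
      DX s₁ (fun w => ∑ i ∈ t, g i w) = fun w => ∑ i ∈ t, DX s₁ (g i) w := by
    intro t g hg
    classical
    induction t using Finset.induction_on with
    | empty =>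
      ext z
      simp only [Finset.sum_empty]
      rw [← Ld_aX]
      exact congrFun Ld_zero z
    | insert a t ha ih =>
      ext z
      simp only [Finset.sum_insert ha]
      have hs' : S (fun w => ∑ i ∈ t, g i w) := S.sum fun i _ => hg i
      have := Ld_add (e := bs n) (sm_aX h₁) (hg a) hs' z
      rw [Ld_aX, Ld_aX, Ld_aX, ih] at this
      exact this
  have st : ∀ i j, S (HY.dy i (fun w => s₂ w.2 i j * HY.dy j f w)) := fun i j =>
    S.dy ((sc i j).mul (hf.dy j)) i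
  ext z
  have e0 : DY s₂ f = fun w => ∑ i, ∑ j, HY.dy i (fun w => s₂ w.2 i j * HY.dy j f w) w := rfl
  rw [e0, hsum _ _ fun i => S.sum fun j _ => st i j]
  simp only
  unfold DY
  refine Finset.sum_congr rfl fun i _ => ?_
  rw [hsum _ _ fun j => st i j]
  simp only
  refine Finset.sum_congr rfl fun j _ => ?_
  rw [← dy_DX h₁ ((sc i j).mul (hf.dy j)) i, hm _ _ (sc i j) (s0 i j) (hf.dy j),
    dy_DX h₁ hf j]

/-- divergence form and non divergence form -/
lemma DX_eq {s : MF n} (hs : SmM s) {f : VV n → ℝ} {U : Set (VV n)} (hU : IsOpen U)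
    (hf : ContDiffOn ℝ ∞ f U) {z : VV n} (hz : z ∈ U)
    (hd : ∀ j, ∑ i, pd i (fun y => s y i j) z.1 = 0) : DX s f z = Lx s f z := by
  obtain ⟨f', f1, f2⟩ := ext_at hU hz hf
  have sc : ∀ i j, S (fun w : VV n => s w.1 i j) := fun i j => (hs i j).comp contDiff_fst
  have e1 : DX s f z = DX s f' z := by
    rw [← Ld_aX, ← Ld_aX]
    exact (Ld_congr f2).self_of_nhds.symm
  have e2 : Lx s f z = Lx s f' z := by
    unfold Lx
    refine Finset.sum_congr rfl fun i _ => Finset.sum_congr rfl fun j _ => ?_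
    have h1 := db_congr (e := bs n) (db_congr (e := bs n) f2 (Sum.inl j)) (Sum.inl i)
    rw [db_inl, db_inl, db_inl, db_inl] at h1
    rw [h1.self_of_nhds]
  rw [e1, e2]
  have e3 : ∀ i j, HY.dx i (fun w : VV n => s w.1 i j * HY.dx j f' w) z
      = pd i (fun y => s y i j) z.1 * HY.dx j f' z + s z.1 i j * HY.dx i (HY.dx j f') z := by
    intro i j
    have h1 := db_mul (e := bs n) (sc i j) (f1.dx j) (Sum.inl i) z
    rw [db_inl, db_inl, db_inl] at h1
    have h2 : HY.dx i (fun w : VV n => s w.1 i j) z = pd i (fun y => s y i j) z.1 := by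
      unfold HY.dx pd
      have h : HasFDerivAt (fun w : VV n => s w.1 i j)
          ((fderiv ℝ (fun x => s x i j) z.1).comp (ContinuousLinearMap.fst ℝ (V n) (V n))) z :=
        HasFDerivAt.comp z (f := Prod.fst) (((hs i j).differentiable (by simp) _).hasFDerivAt)
          hasFDerivAt_fst
      rw [h.fderiv]
      simp
    rw [h1, h2]
  have h0 : ∑ i, ∑ j, pd i (fun y => s y i j) z.1 * HY.dx j f' z = 0 := by
    rw [Finset.sum_comm]
    refine Finset.sum_eq_zero fun j _ => ?_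
    rw [← Finset.sum_mul, hd j, zero_mul]
  unfold DX Lx
  simp only [e3, Finset.sum_add_distrib, h0, zero_add]

/-- divergence form and non divergence form -/
lemma DY_eq {s : MF n} (hs : SmM s) {f : VV n → ℝ} {U : Set (VV n)} (hU : IsOpen U)
    (hf : ContDiffOn ℝ ∞ f U) {z : VV n} (hz : z ∈ U)
    (hd : ∀ j, ∑ i, pd i (fun y => s y i j) z.2 = 0) : DY s f z = Ly s f z := by
  obtain ⟨f', f1, f2⟩ := ext_at hU hz hf
  have sc : ∀ i j, S (fun w : VV n => s w.2 i j) := fun i j => (hs i j).comp contDiff_snd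
  have e1 : DY s f z = DY s f' z := by
    rw [← Ld_aY, ← Ld_aY]
    exact (Ld_congr f2).self_of_nhds.symm
  have e2 : Ly s f z = Ly s f' z := by
    unfold Ly
    refine Finset.sum_congr rfl fun i _ => Finset.sum_congr rfl fun j _ => ?_
    have h1 := db_congr (e := bs n) (db_congr (e := bs n) f2 (Sum.inr j)) (Sum.inr i)
    rw [db_inr, db_inr, db_inr, db_inr] at h1
    rw [h1.self_of_nhds]
  rw [e1, e2]
  have e3 : ∀ i j, HY.dy i (fun w : VV n => s w.2 i j * HY.dy j f' w) z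
      = pd i (fun y => s y i j) z.2 * HY.dy j f' z + s z.2 i j * HY.dy i (HY.dy j f') z := by
    intro i j
    have h1 := db_mul (e := bs n) (sc i j) (f1.dy j) (Sum.inr i) z
    rw [db_inr, db_inr, db_inr] at h1
    have h2 : HY.dy i (fun w : VV n => s w.2 i j) z = pd i (fun y => s y i j) z.2 := by
      unfold HY.dy pd
      have h : HasFDerivAt (fun w : VV n => s w.2 i j)
          ((fderiv ℝ (fun x => s x i j) z.2).comp (ContinuousLinearMap.snd ℝ (V n) (V n))) z :=
        HasFDerivAt.comp z (f := Prod.snd) (((hs i j).differentiable (by simp) _).hasFDerivAt)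
          hasFDerivAt_snd
      rw [h.fderiv]
      simp
    rw [h1, h2]
  have h0 : ∑ i, ∑ j, pd i (fun y => s y i j) z.2 * HY.dy j f' z = 0 := by
    rw [Finset.sum_comm]
    refine Finset.sum_eq_zero fun j _ => ?_
    rw [← Finset.sum_mul, hd j, zero_mul]
  unfold DY Ly
  simp only [e3, Finset.sum_add_distrib, h0, zero_add]

end Vale.Agent.P088.R2.H269
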