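import Vale.Agent.P088.R2.H269.W.W11

/-!
# P088, stage 3: the exhaustion of the space of pairs
-/

open MeasureTheory Set Filter
open scoped ContDiff Matrix Topology

noncomputable section

set_option linter.unusedSectionVars false

namespace Vale.Agent.P088.R2.H269

open Vale.Agent.P088.LR Vale.Agent.P088.HY

/-! ## The profile -/

/-- `1` on `t ≤ 1`, `0` on `t ≥ 4` -/
def eta (t : ℝ) : ℝ := Real.smoothTransition ((4 - t) / 3)

lemma eta_sm : ContDiff ℝ ∞ eta :=
  Real.smoothTransition.contDiff.comp ((contDiff_const.sub contDiff_id).div_const 3)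

lemma eta_nonneg (t : ℝ) : 0 ≤ eta t := Real.smoothTransition.nonneg _

lemma eta_le_one (t : ℝ) : eta t ≤ 1 := Real.smoothTransition.le_one _

lemma eta_one {t : ℝ} (h : t ≤ 1) : eta t = 1 :=
  Real.smoothTransition.one_of_one_le (by linarith)

lemma eta_zero {t : ℝ} (h : 4 ≤ t) : eta t = 0 :=
  Real.smoothTransition.zero_of_nonpos (by linarith)

lemma deriv_zero_off {f : ℝ → ℝ} {c : ℝ} (h1 : ∀ t, t < 1 → f t = c) (h4 : ∀ t, 4 < t → f t = 0) :
    (∀ t, t < 1 → deriv f t = 0) ∧ ∀ t, 4 < t → deriv f t = 0 := by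
  constructor
  · intro t ht
    have : f =ᶠ[𝓝 t] fun _ => c := by
      filter_upwards [Iio_mem_nhds ht] with s hs
      exact h1 s hs
    rw [this.deriv_eq]
    simp
  · intro t ht
    have : f =ᶠ[𝓝 t] fun _ => 0 := by
      filter_upwards [Ioi_mem_nhds ht] with s hs
      exact h4 s hs
    rw [this.deriv_eq]
    simp

lemma bdd_of_off {f : ℝ → ℝ} (hf : Continuous f) (h1 : ∀ t, t < 1 → f t = 0)
    (h4 : ∀ t, 4 < t → f t = 0) : ∃ C, ∀ t, |f t| ≤ C := by
  obtain ⟨C, hC⟩ := (isCompact_Icc (a := (1 : ℝ)) (b := 4)).exists_bound_of_continuousOn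
    hf.continuousOn
  refine ⟨max C 0, fun t => ?_⟩
  by_cases ht : t ∈ Icc (1 : ℝ) 4
  · exact (hC t ht).trans (le_max_left _ _)
  · have h0 : f t = 0 := by
      rw [mem_Icc, not_and_or, not_le, not_le] at ht
      rcases ht with ht | ht
      · exact h1 t ht
      · exact h4 t ht
    rw [h0, abs_zero]
    exact le_max_right _ _

lemma deriv_sm {f : ℝ → ℝ} (hf : ContDiff ℝ ∞ f) : ContDiff ℝ ∞ (deriv f) :=
  ((contDiff_infty_iff_deriv (𝕜 := ℝ)).1 hf).2

/-- the bounds of the profile -/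
lemma eta_bd : ∃ C : ℝ, 0 ≤ C ∧ (∀ t, |deriv eta t| ≤ C) ∧ (∀ t, |deriv (deriv eta) t| ≤ C) ∧
    (∀ t, 4 < t → deriv eta t = 0) ∧ ∀ t, 4 < t → deriv (deriv eta) t = 0 := by
  have s1 := deriv_sm eta_sm
  have s2 := deriv_sm s1
  obtain ⟨a1, a2⟩ := deriv_zero_off (f := eta) (c := 1) (fun t ht => eta_one ht.le)
    fun t ht => eta_zero ht.le
  obtain ⟨b1, b2⟩ := deriv_zero_off (f := deriv eta) (c := 0) a1 a2
  obtain ⟨C1, h1⟩ := bdd_of_off s1.continuous a1 a2
  obtain ⟨C2, h2⟩ := bdd_of_off s2.continuous b1 b2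
  refine ⟨max C1 C2, (abs_nonneg _).trans ((h1 0).trans (le_max_left _ _)),
    fun t => (h1 t).trans (le_max_left _ _), fun t => (h2 t).trans (le_max_right _ _), a2, b2⟩

/-! ## Radial functions -/

variable {n : ℕ}

/-- coordinates -/
def co (k : Fin n ⊕ Fin n) (z : VV n) : ℝ := Sum.elim (fun i => z.1 i) (fun i => z.2 i) k

/-- the square of the Euclidean length -/
def qf (z : VV n) : ℝ := ∑ k, co k z ^ 2

lemma qf_eq (z : VV n) : qf z = HY.sq z.1 + HY.sq z.2 := by
  unfold qf co HY.sq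
  rw [Fintype.sum_sum_type]
  simp

lemma qf_nonneg (z : VV n) : 0 ≤ qf z := Finset.sum_nonneg fun _ _ => sq_nonneg _

lemma co_sq_le (k : Fin n ⊕ Fin n) (z : VV n) : co k z ^ 2 ≤ qf z :=
  Finset.single_le_sum (f := fun k => co k z ^ 2) (fun _ _ => sq_nonneg _) (Finset.mem_univ k)

lemma sm_co (k : Fin n ⊕ Fin n) : S (co k : VV n → ℝ) := by
  rcases k with i | i
  · exact (contDiff_apply ℝ ℝ i).comp contDiff_fst
  · exact (contDiff_apply ℝ ℝ i).comp contDiff_snd

lemma sm_qf : S (qf : VV n → ℝ) := S.sum fun k _ => (sm_co k).pow 2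

lemma db_co (k l : Fin n ⊕ Fin n) (z : VV n) :
    db (bs n) l (co k) z = if k = l then 1 else 0 := by
  have h : ∀ k : Fin n ⊕ Fin n, ∃ L : VV n →L[ℝ] ℝ, (∀ z, L z = co k z) := by
    intro k
    rcases k with i | i
    · exact ⟨(ContinuousLinearMap.proj i).comp (ContinuousLinearMap.fst ℝ (V n) (V n)),
        fun z => rfl⟩
    · exact ⟨(ContinuousLinearMap.proj i).comp (ContinuousLinearMap.snd ℝ (V n) (V n)),
        fun z => rfl⟩
  obtain ⟨L, hL⟩ := h k
  have e : co k = fun z => L z := funext fun z => (hL z).symm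
  unfold db
  rw [e]
  have : fderiv ℝ (fun z => L z) z = L := L.fderiv
  rw [this, hL]
  rcases k with i | i <;> rcases l with j | j
  · rw [bs_inl]
    simp [co, Pi.single_apply]
  · rw [bs_inr]
    simp [co]
  · rw [bs_inl]
    simp [co]
  · rw [bs_inr]
    simp [co, Pi.single_apply]

lemma db_qf (l : Fin n ⊕ Fin n) (z : VV n) : db (bs n) l qf z = 2 * co l z := by
  have h1 : db (bs n) l qf z = ∑ k, db (bs n) l (fun w => co k w * co k w) z := by
    unfold db
    have e : (qf : VV n → ℝ) = fun w => ∑ k, co k w * co k w := by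
      ext w
      unfold qf
      exact Finset.sum_congr rfl fun k _ => by ring
    rw [e, fderiv_fun_sum fun k _ => S.df ((sm_co k).mul (sm_co k)) z]
    simp
  rw [h1]
  have h2 : ∀ k, db (bs n) l (fun w => co k w * co k w) z = if k = l then 2 * co l z else 0 := by
    intro k
    rw [db_mul (sm_co k) (sm_co k), db_co]
    split_ifs with h
    · rw [h]
      ring
    · ring
  rw [Finset.sum_congr rfl fun k _ => h2 k]
  simp

/-- `η(c q)` -/
def rf (f : ℝ → ℝ) (c : ℝ) (z : VV n) : ℝ := f (c * qf z)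

lemma sm_rf {f : ℝ → ℝ} (hf : ContDiff ℝ ∞ f) (c : ℝ) : S (rf f c : VV n → ℝ) :=
  hf.comp (contDiff_const.mul sm_qf)

lemma db_rf {f : ℝ → ℝ} (hf : ContDiff ℝ ∞ f) (c : ℝ) (l : Fin n ⊕ Fin n) :
    db (bs n) l (rf f c) = fun z => (2 * c) * (rf (deriv f) c z * co l z) := by
  ext z
  have h1 : HasFDerivAt (fun z : VV n => c * qf z) (c • fderiv ℝ qf z) z :=
    (sm_qf.df z).hasFDerivAt.const_mul c
  have h2 := (hf.differentiable (by simp) (c * qf z)).hasDerivAt.comp_hasFDerivAt z h1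
  have h3 := db_qf l z
  unfold db at h3 ⊢
  have e : fderiv ℝ (rf f c) z = deriv f (c * qf z) • c • fderiv ℝ qf z := h2.fderiv
  rw [e]
  simp only [smul_apply, smul_eq_mul]
  rw [h3]
  unfold rf
  ring

lemma db_db_rf {f : ℝ → ℝ} (hf : ContDiff ℝ ∞ f) (c : ℝ) (k l : Fin n ⊕ Fin n) (z : VV n) :
    db (bs n) k (db (bs n) l (rf f c)) z = 4 * c ^ 2 * (rf (deriv (deriv f)) c z * co k z * co l z)
      + 2 * c * (rf (deriv f) c z * if l = k then 1 else 0) := by
  have s1 := sm_rf (n := n) (deriv_sm hf) c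
  rw [db_rf hf, db_smul _ (s1.mul (sm_co l)), db_mul s1 (sm_co l), db_rf (deriv_sm hf), db_co]
  ring

/-- bounds of the first derivatives -/
lemma rf_bd1 {f : ℝ → ℝ} (hf : ContDiff ℝ ∞ f) {C : ℝ} (hC : ∀ t, |deriv f t| ≤ C)
    (h4 : ∀ t, 4 < t → deriv f t = 0) {c : ℝ} (hc : 0 < c) (l : Fin n ⊕ Fin n) (z : VV n) :
    db (bs n) l (rf f c) z ^ 2 ≤ 16 * C ^ 2 * c := by
  have hC0 : 0 ≤ C := (abs_nonneg _).trans (hC 0)
  rw [db_rf hf]
  simp only
  by_cases h : 4 < c * qf z
  · have : rf (deriv f) c z = 0 := h4 _ h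
    rw [this]
    have : 0 ≤ 16 * C ^ 2 * c := by positivity
    simpa using this
  · have h1 : c * qf z ≤ 4 := not_lt.1 h
    have h2 : c * co l z ^ 2 ≤ 4 := (mul_le_mul_of_nonneg_left (co_sq_le l z) hc.le).trans h1
    have h3 : rf (deriv f) c z ^ 2 ≤ C ^ 2 := sq_le_sq' (abs_le.1 (hC (c * qf z))).1
      (abs_le.1 (hC (c * qf z))).2
    calc (2 * c * (rf (deriv f) c z * co l z)) ^ 2
        = 4 * c * (rf (deriv f) c z ^ 2 * (c * co l z ^ 2)) := by ring
      _ ≤ 4 * c * (C ^ 2 * 4) := by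
        refine mul_le_mul_of_nonneg_left ?_ (by positivity)
        exact mul_le_mul h3 h2 (by positivity) (by positivity)
      _ = _ := by ring

/-- bounds of the second derivatives -/
lemma rf_bd2 {f : ℝ → ℝ} (hf : ContDiff ℝ ∞ f) {C : ℝ} (hC : ∀ t, |deriv f t| ≤ C)
    (hC2 : ∀ t, |deriv (deriv f) t| ≤ C)
    (h42 : ∀ t, 4 < t → deriv (deriv f) t = 0) {c : ℝ}
    (hc : 0 < c) (hc1 : c ≤ 1) (k l : Fin n ⊕ Fin n) (z : VV n) :
    |db (bs n) k (db (bs n) l (rf f c)) z| ≤ 18 * C := by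
  have hC0 : 0 ≤ C := (abs_nonneg _).trans (hC 0)
  rw [db_db_rf hf]
  have p1 : |4 * c ^ 2 * (rf (deriv (deriv f)) c z * co k z * co l z)| ≤ 16 * C := by
    by_cases h : 4 < c * qf z
    · have : rf (deriv (deriv f)) c z = 0 := h42 _ h
      rw [this]
      simpa using (by positivity : 0 ≤ 16 * C)
    · have h1 : c * qf z ≤ 4 := not_lt.1 h
      have h2 : c * co l z ^ 2 ≤ 4 := (mul_le_mul_of_nonneg_left (co_sq_le l z) hc.le).trans h1
      have h3 : c * co k z ^ 2 ≤ 4 := (mul_le_mul_of_nonneg_left (co_sq_le k z) hc.le).trans h1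
      have h4 : c * |co k z * co l z| ≤ 4 := by
        have h5 : |co k z * co l z| ≤ (co k z ^ 2 + co l z ^ 2) / 2 := by
          rw [abs_le]
          constructor <;> nlinarith [sq_nonneg (co k z + co l z), sq_nonneg (co k z - co l z)]
        calc c * |co k z * co l z| ≤ c * ((co k z ^ 2 + co l z ^ 2) / 2) :=
              mul_le_mul_of_nonneg_left h5 hc.le
          _ = (c * co k z ^ 2 + c * co l z ^ 2) / 2 := by ring
          _ ≤ 4 := by linarith
      have h6 : |4 * c ^ 2| = 4 * c ^ 2 := abs_of_nonneg (by positivity)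
      rw [mul_assoc (rf (deriv (deriv f)) c z), abs_mul, h6, abs_mul]
      have h7 : |rf (deriv (deriv f)) c z| ≤ C := hC2 _
      calc 4 * c ^ 2 * (|rf (deriv (deriv f)) c z| * |co k z * co l z|)
          = 4 * c * (|rf (deriv (deriv f)) c z| * (c * |co k z * co l z|)) := by ring
        _ ≤ 4 * c * (C * 4) := by
          refine mul_le_mul_of_nonneg_left ?_ (by positivity)
          exact mul_le_mul h7 h4 (by positivity) hC0
        _ = 16 * C * c := by ring
        _ ≤ 16 * C * 1 := mul_le_mul_of_nonneg_left hc1 (by positivity)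
        _ = _ := by ring
  have p2 : |2 * c * (rf (deriv f) c z * if l = k then 1 else 0)| ≤ 2 * C := by
    have h7 : |rf (deriv f) c z| ≤ C := hC _
    split_ifs
    · rw [mul_one, abs_mul, abs_of_nonneg (by positivity : 0 ≤ 2 * c)]
      calc 2 * c * |rf (deriv f) c z| ≤ 2 * c * C := mul_le_mul_of_nonneg_left h7 (by positivity)
        _ ≤ 2 * 1 * C := by
          refine mul_le_mul_of_nonneg_right ?_ hC0
          linarith
        _ = _ := by ring
    · simpa using (by positivity : 0 ≤ 2 * C)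
  calc _ ≤ _ := abs_add_le _ _
    _ ≤ 16 * C + 2 * C := add_le_add p1 p2
    _ = _ := by ring

end Vale.Agent.P088.R2.H269
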