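import Vale.Agent.P088.R2.H269.W.W12

/-!
# P088, stage 3: weights of quadratic growth
-/

open MeasureTheory Set Filter
open scoped ContDiff Matrix Topology

noncomputable section

set_option linter.unusedSectionVars false

namespace Vale.Agent.P088.R2.H269

open Vale.Agent.P088.LR Vale.Agent.P088.HY

section Bounds

variable {J E : Type} [Fintype J] [NormedAddCommGroup E] [NormedSpace ℝ E]
  {e : J → E} {a : J → J → E → ℝ} {f : E → ℝ} {z : E}

/-- the square of the number of directions -/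
def N2 (J : Type) [Fintype J] : ℝ := (Fintype.card J : ℝ) * (Fintype.card J : ℝ)

lemma N2_nonneg : 0 ≤ N2 J := by
  unfold N2
  positivity

lemma sum_sum_le {F : J → J → ℝ} {c : ℝ} (h : ∀ i j, |F i j| ≤ c) :
    |∑ i, ∑ j, F i j| ≤ N2 J * c := by
  calc |∑ i, ∑ j, F i j| ≤ ∑ i, ∑ j, |F i j| := by
        refine (Finset.abs_sum_le_sum_abs _ _).trans ?_
        exact Finset.sum_le_sum fun i _ => Finset.abs_sum_le_sum_abs _ _
    _ ≤ ∑ _i : J, ∑ _j : J, c := Finset.sum_le_sum fun i _ => Finset.sum_le_sum fun j _ => h i j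
    _ = _ := by
      unfold N2
      rw [Finset.sum_const, Finset.sum_const, Finset.card_univ, nsmul_eq_mul, nsmul_eq_mul]
      ring

lemma Gm_le {B F : ℝ} (hB : 0 ≤ B) (hA : ∀ i j, |a i j z| ≤ B)
    (hF : ∀ i, db e i f z ^ 2 ≤ F) : |Gm e a f f z| ≤ N2 J * (B * F) := by
  unfold H269.Gm
  refine sum_sum_le fun i j => ?_
  rw [abs_mul]
  refine mul_le_mul (hA i j) ?_ (abs_nonneg _) hB
  have h1 := hF i
  have h2 := hF j
  rw [abs_le]
  constructor <;> nlinarith [sq_nonneg (db e i f z + db e j f z), sq_nonneg (db e i f z - db e j f z)]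

lemma Ld_le (ha : ∀ i j, S (a i j)) (hf : S f) {B F : ℝ} (hB : 0 ≤ B)
    (hA : ∀ i j, |a i j z| ≤ B) (hdA : ∀ i j, |db e i (a i j) z| ≤ B)
    (hF : ∀ i, |db e i f z| ≤ F) (hF2 : ∀ i j, |db e i (db e j f) z| ≤ F) :
    |Ld e a f z| ≤ N2 J * (2 * B * F) := by
  rw [Ld_eq ha hf]
  refine sum_sum_le fun i j => ?_
  refine (abs_add_le _ _).trans ?_
  rw [abs_mul, abs_mul]
  have h1 := mul_le_mul (hdA i j) (hF j) (abs_nonneg _) hB
  have h2 := mul_le_mul (hA i j) (hF2 i j) (abs_nonneg _) hB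
  linarith

end Bounds

variable {n : ℕ} {ι : Type} [Fintype ι]

lemma isCompact_qf (r : ℝ) : IsCompact {z : VV n | qf z ≤ r} := by
  refine Metric.isCompact_of_isClosed_isBounded (isClosed_le sm_qf.continuous continuous_const) ?_
  rw [Metric.isBounded_iff_subset_closedBall 0]
  refine ⟨1 + |r|, fun z hz => ?_⟩
  have hz' : qf z ≤ r := hz
  rw [mem_closedBall_zero_iff, Prod.norm_def, max_le_iff]
  have hr0 : 0 ≤ 1 + |r| := by positivity
  have key : ∀ k : Fin n ⊕ Fin n, |co k z| ≤ 1 + |r| := by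
    intro k
    have h1 := co_sq_le k z
    have h2 : co k z ^ 2 ≤ |r| := h1.trans (hz'.trans (le_abs_self r))
    rw [abs_le]
    constructor <;> nlinarith [sq_nonneg (co k z), abs_nonneg r]
  constructor
  · rw [pi_norm_le_iff_of_nonneg hr0]
    intro i
    exact key (.inl i)
  · rw [pi_norm_le_iff_of_nonneg hr0]
    intro i
    exact key (.inr i)

lemma abs_le_of_sq {x y : ℝ} (h : x ^ 2 ≤ y) : |x| ≤ 1 + y := by
  rw [abs_le]
  constructor <;> nlinarith [sq_nonneg (x + 1), sq_nonneg (x - 1), sq_nonneg x]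

lemma aux1 {B q x : ℝ} (hq : 0 ≤ q) (h : |x| ≤ 1 + B * (1 + q)) : |x| ≤ (1 + B) * (1 + q) := by
  linarith only [hq, h]

lemma aux2 {B q x : ℝ} (hq : 0 ≤ q) (h : |x| ≤ B * (1 + q)) : |x| ≤ (1 + B) * (1 + q) := by
  linarith only [hq, h]

lemma aux3 {a b : ℝ} : (a + b) ^ 2 ≤ 2 * a ^ 2 + 2 * b ^ 2 := by
  linarith only [sq_nonneg (a - b), (by ring : (a + b) ^ 2 + (a - b) ^ 2 = 2 * a ^ 2 + 2 * b ^ 2)]

/-- The space of pairs is exhausted by cut-offs, for coefficients bounded with their derivatives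
and weights of quadratic growth. -/
theorem ex_univ {a : ι → Fin n ⊕ Fin n → Fin n ⊕ Fin n → VV n → ℝ} {W : VV n → ℝ} {B : ℝ}
    (hB : 0 ≤ B) (ha : ∀ k i j, S (a k i j)) (hA : ∀ k i j z, |a k i j z| ≤ B)
    (hdA : ∀ k i j z, |db (bs n) i (a k i j) z| ≤ B) (hW : S W) (hlo : ∀ z, -B ≤ W z)
    (w1 : ∀ k z, db (bs n) k W z ^ 2 ≤ B * (1 + qf z))
    (w2 : ∀ k l z, |db (bs n) k (db (bs n) l W) z| ≤ B * (1 + qf z)) :
    ∃ C, Ex univ (bs n) a W C := by
  obtain ⟨H, hH0, hH1, hH2, hH3, hH4⟩ := eta_bd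
  set N := N2 (Fin n ⊕ Fin n) with hN
  have hN0 : 0 ≤ N := N2_nonneg
  set m₀ : ℝ := N * (B * (16 * H ^ 2)) with hm₀
  have hm₀0 : 0 ≤ m₀ := by positivity
  set C : ℝ := m₀ + m₀ * (N * (B * (B * 5))) + m₀ * (N * (2 * B * (5 * (1 + B))))
    + N * (2 * B * (1 + 16 * H ^ 2 + 18 * H)) + m₀ * (N * (B * (160 * H ^ 2)))
    + m₀ * Real.exp (2 * B) with hC
  have c1 : 0 ≤ m₀ * (N * (B * (B * 5))) := by positivity
  have c2 : 0 ≤ m₀ * (N * (2 * B * (5 * (1 + B)))) := by positivity
  have c3 : 0 ≤ N * (2 * B * (1 + 16 * H ^ 2 + 18 * H)) := by positivity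
  have c4 : 0 ≤ m₀ * (N * (B * (160 * H ^ 2))) := by positivity
  have c5 : 0 ≤ m₀ * Real.exp (2 * B) := by positivity
  have k0 : m₀ ≤ C := by linarith only [hC, hm₀0, c1, c2, c3, c4, c5]
  have k1 : m₀ * (N * (B * (B * 5))) ≤ C := by linarith only [hC, hm₀0, c1, c2, c3, c4, c5]
  have k2 : m₀ * (N * (2 * B * (5 * (1 + B)))) ≤ C := by linarith only [hC, hm₀0, c1, c2, c3, c4, c5]
  have k3 : N * (2 * B * (1 + 16 * H ^ 2 + 18 * H)) ≤ C := by
    linarith only [hC, hm₀0, c1, c2, c3, c4, c5]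
  have k4 : m₀ * (N * (B * (160 * H ^ 2))) ≤ C := by linarith only [hC, hm₀0, c1, c2, c3, c4, c5]
  have k5 : m₀ * Real.exp (2 * B) ≤ C := by linarith only [hC, hm₀0, c1, c2, c3, c4, c5]
  refine ⟨C, fun K hK _ => ?_⟩
  -- the scale
  obtain ⟨Q, hQ⟩ := hK.exists_bound_of_continuousOn (sm_qf (n := n)).continuous.continuousOn
  set c : ℝ := (4 * (1 + |Q|))⁻¹ with hc
  have hQ1 : 1 ≤ 1 + |Q| := by linarith [abs_nonneg Q]
  have hc0 : 0 < c := by positivity
  have hc4 : 4 * c ≤ 1 := by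
    rw [hc, mul_inv]
    have : (1 + |Q|)⁻¹ ≤ 1 := inv_le_one_of_one_le₀ hQ1
    linarith
  have hc1 : c ≤ 1 := by linarith
  have hKc : ∀ z ∈ K, 4 * c * qf z ≤ 1 := by
    intro z hz
    have h1 : qf z ≤ 1 + |Q| := by
      have := hQ z hz
      rw [Real.norm_eq_abs] at this
      have h2 := le_abs_self (qf z)
      have h3 := le_abs_self Q
      linarith
    rw [hc, mul_inv]
    calc 4 * (4⁻¹ * (1 + |Q|)⁻¹) * qf z = (1 + |Q|)⁻¹ * qf z := by ring
      _ ≤ (1 + |Q|)⁻¹ * (1 + |Q|) := mul_le_mul_of_nonneg_left h1 (by positivity)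
      _ = 1 := inv_mul_cancel₀ (by positivity)
  set χ : VV n → ℝ := rf eta c with hχ
  set ψ : VV n → ℝ := fun z => 1 - rf eta (4 * c) z with hψ
  have sχ : S χ := sm_rf eta_sm c
  have sr : S (rf eta (4 * c) : VV n → ℝ) := sm_rf eta_sm _
  have sψ : S ψ := contDiff_const.sub sr
  have supp : ∀ z ∈ tsupport χ, c * qf z ≤ 4 := by
    intro z hz
    have h1 : IsClosed {z : VV n | c * qf z ≤ 4} :=
      isClosed_le (continuous_const.mul sm_qf.continuous) continuous_const
    refine (closure_minimal (fun w hw => ?_) h1) hz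
    by_contra h2
    exact hw (eta_zero (not_le.1 h2).le)
  have cχ : HasCompactSupport χ := by
    refine (isCompact_qf (n := n) (4 / c)).of_isClosed_subset (isClosed_tsupport χ) fun z hz => ?_
    change qf z ≤ 4 / c
    rw [le_div_iff₀ hc0, mul_comm]
    exact supp z hz
  have χ0 : ∀ z, 0 ≤ χ z := fun z => eta_nonneg _
  have χ1 : ∀ z, χ z ≤ 1 := fun z => eta_le_one _
  have ψ0 : ∀ z, 0 ≤ ψ z := fun z => by
    have := eta_le_one (4 * c * qf z)
    change 0 ≤ 1 - eta (4 * c * qf z)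
    linarith
  have ψ1 : ∀ z, ψ z ≤ 1 := fun z => by
    have := eta_nonneg (4 * c * qf z)
    change 1 - eta (4 * c * qf z) ≤ 1
    linarith
  -- first derivatives of the cut-offs
  have dχ : ∀ l z, db (bs n) l χ z ^ 2 ≤ 16 * H ^ 2 * c := fun l z => rf_bd1 eta_sm hH1 hH3 hc0 l z
  have dψ : ∀ l z, db (bs n) l ψ z ^ 2 ≤ 64 * H ^ 2 * c := by
    intro l z
    have h1 := rf_bd1 eta_sm hH1 hH3 (by positivity : 0 < 4 * c) l z
    have h2 : db (bs n) l ψ z = -db (bs n) l (rf eta (4 * c)) z := by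
      have h3 : ψ = fun z => 1 + (-1) * rf eta (4 * c) z := by
        ext z
        rw [hψ]
        ring
      rw [h3, db_add contDiff_const (contDiff_const.mul sr), db_const, db_smul _ sr]
      ring
    rw [h2]
    calc (-db (bs n) l (rf eta (4 * c)) z) ^ 2 = db (bs n) l (rf eta (4 * c)) z ^ 2 := by ring
      _ ≤ 16 * H ^ 2 * (4 * c) := h1
      _ = _ := by ring
  have dφ : ∀ l z, db (bs n) l (fun z => χ z * ψ z) z ^ 2 ≤ 160 * H ^ 2 * c := by
    intro l z
    rw [db_mul sχ sψ]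
    have h1 := dχ l z
    have h2 := dψ l z
    have h3 : ψ z ^ 2 ≤ 1 := pow_le_one₀ (ψ0 z) (ψ1 z)
    have h4 : χ z ^ 2 ≤ 1 := pow_le_one₀ (χ0 z) (χ1 z)
    have h5 : db (bs n) l χ z ^ 2 * ψ z ^ 2 ≤ 16 * H ^ 2 * c * 1 :=
      mul_le_mul h1 h3 (sq_nonneg _) (by positivity)
    have h6 : χ z ^ 2 * db (bs n) l ψ z ^ 2 ≤ 1 * (64 * H ^ 2 * c) :=
      mul_le_mul h4 h2 (sq_nonneg _) zero_le_one
    have h7 : (db (bs n) l χ z * ψ z + χ z * db (bs n) l ψ z) ^ 2
        ≤ 2 * (db (bs n) l χ z ^ 2 * ψ z ^ 2) + 2 * (χ z ^ 2 * db (bs n) l ψ z ^ 2) := by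
      refine aux3.trans (le_of_eq ?_)
      ring
    linarith only [h5, h6, h7]
  set m : ℝ := m₀ * c with hm
  have hm0 : 0 ≤ m := by positivity
  have hmm : m ≤ m₀ := by
    calc m ≤ m₀ * 1 := mul_le_mul_of_nonneg_left hc1 hm₀0
      _ = _ := mul_one _
  have one_near : ∀ z, c * qf z < 1 → χ =ᶠ[𝓝 z] fun _ => 1 := by
    intro z hz
    have : IsOpen {z : VV n | c * qf z < 1} :=
      isOpen_lt (continuous_const.mul sm_qf.continuous) continuous_const
    filter_upwards [this.mem_nhds hz] with w hw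
    exact eta_one (le_of_lt hw)
  refine ⟨χ, ψ, m, sχ, cχ, subset_univ _, sψ, χ0, χ1, ψ0, ψ1, hm0, hmm.trans k0,
    fun z hz => ?_, fun z hz hzK k => ?_, fun z hz => ?_⟩
  · have h1 := hKc z hz
    have hq := qf_nonneg z
    refine ⟨one_near z ?_, ?_⟩
    · have : 0 ≤ c * qf z := by positivity
      linarith
    · change 1 - eta (4 * c * qf z) = 0
      rw [eta_one h1, sub_self]
  · have hz4 := supp z hz
    have hq := qf_nonneg z
    have hcq : c * (1 + qf z) ≤ 5 := by
      have : c * (1 + qf z) = c + c * qf z := by ring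
      linarith
    refine ⟨?_, ?_, ?_, ?_, ?_, ?_⟩
    · have := Gm_le (e := bs n) (a := a k) (f := χ) hB (hA k · · z) (dχ · z)
      refine (le_abs_self _).trans (this.trans (le_of_eq ?_))
      rw [hm, hm₀]
      ring
    · have h1 := (le_abs_self _).trans
        (Gm_le (e := bs n) (a := a k) (f := W) hB (hA k · · z) (w1 · z))
      calc m * Gm (bs n) (a k) W W z ≤ m * (N * (B * (B * (1 + qf z)))) :=
            mul_le_mul_of_nonneg_left h1 hm0
        _ = m₀ * (N * (B * (B * (c * (1 + qf z))))) := by rw [hm]; ring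
        _ ≤ m₀ * (N * (B * (B * 5))) := by
          refine mul_le_mul_of_nonneg_left (mul_le_mul_of_nonneg_left (mul_le_mul_of_nonneg_left
            (mul_le_mul_of_nonneg_left hcq hB) hB) hN0) hm₀0
        _ ≤ C := k1
    · have hF : ∀ i, |db (bs n) i W z| ≤ (1 + B) * (1 + qf z) := by
        intro i
        exact aux1 hq (abs_le_of_sq (w1 i z))
      have hF2 : ∀ i j, |db (bs n) i (db (bs n) j W) z| ≤ (1 + B) * (1 + qf z) := by
        intro i j
        exact aux2 hq (w2 i j z)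
      have h1 := Ld_le (e := bs n) (ha k) hW hB (hA k · · z) (hdA k · · z) hF hF2
      calc m * |Ld (bs n) (a k) W z| ≤ m * (N * (2 * B * ((1 + B) * (1 + qf z)))) :=
            mul_le_mul_of_nonneg_left h1 hm0
        _ = m₀ * (N * (2 * B * ((c * (1 + qf z)) * (1 + B)))) := by rw [hm]; ring
        _ ≤ m₀ * (N * (2 * B * (5 * (1 + B)))) := by
          refine mul_le_mul_of_nonneg_left (mul_le_mul_of_nonneg_left (mul_le_mul_of_nonneg_left
            (mul_le_mul_of_nonneg_right hcq ?_) ?_) hN0) hm₀0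
          · linarith only [hB]
          · linarith only [hB]
        _ ≤ C := k2
    · have hF : ∀ i, |db (bs n) i χ z| ≤ 1 + 16 * H ^ 2 + 18 * H := by
        intro i
        have h1 := abs_le_of_sq (dχ i z)
        have h2 : 16 * H ^ 2 * c ≤ 16 * H ^ 2 * 1 := mul_le_mul_of_nonneg_left hc1 (by positivity)
        linarith
      have hF2 : ∀ i j, |db (bs n) i (db (bs n) j χ) z| ≤ 1 + 16 * H ^ 2 + 18 * H := by
        intro i j
        have h1 := rf_bd2 eta_sm hH1 hH2 hH4 hc0 hc1 i j z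
        have h2 : 0 ≤ 16 * H ^ 2 := by positivity
        have h3 : |db (bs n) i (db (bs n) j χ) z| ≤ 18 * H := h1
        linarith
      have h1 := Ld_le (e := bs n) (ha k) sχ hB (hA k · · z) (hdA k · · z) hF hF2
      exact h1.trans k3
    · have h1 := (le_abs_self _).trans
        (Gm_le (e := bs n) (a := a k) (f := fun z => χ z * ψ z) hB (hA k · · z) (dφ · z))
      calc m * Gm (bs n) (a k) (fun z => χ z * ψ z) (fun z => χ z * ψ z) z
          ≤ m * (N * (B * (160 * H ^ 2 * c))) := mul_le_mul_of_nonneg_left h1 hm0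
        _ = m₀ * c * (N * (B * (160 * H ^ 2))) * c := by rw [hm]; ring
        _ ≤ m₀ * 1 * (N * (B * (160 * H ^ 2))) * 1 := by
          have q0 : 0 ≤ N * (B * (160 * H ^ 2)) := by positivity
          refine mul_le_mul ?_ hc1 hc0.le ?_
          · exact mul_le_mul_of_nonneg_right (mul_le_mul_of_nonneg_left hc1 hm₀0) q0
          · rw [mul_one]
            exact mul_nonneg hm₀0 q0
        _ = m₀ * (N * (B * (160 * H ^ 2))) := by ring
        _ ≤ C := k4
    · by_cases h1 : c * qf z < 1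
      · right
        rw [(Gm_congr (e := bs n) (a := a k) (one_near z h1) (one_near z h1)).self_of_nhds]
        unfold H269.Gm
        simp [db_const]
      · left
        change 1 - eta (4 * c * qf z) = 1
        have : 4 ≤ 4 * c * qf z := by
          have := not_lt.1 h1
          linarith
        rw [eta_zero this, sub_zero]
  · have h1 : Real.exp (-(2 * W z)) ≤ Real.exp (2 * B) := by
      apply Real.exp_le_exp.2
      have := hlo z
      linarith
    calc m * Real.exp (-(2 * W z)) ≤ m₀ * Real.exp (2 * B) :=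
          mul_le_mul hmm h1 (Real.exp_pos _).le hm₀0
      _ ≤ C := k5

/-- `e^{2W}` is not integrable -/
lemma not_int [NeZero n] {W : VV n → ℝ} {B : ℝ} (hlo : ∀ z, -B ≤ W z) :
    ¬ IntegrableOn (fun z => Real.exp (2 * W z)) (univ : Set (VV n)) volume := by
  intro h
  rw [integrableOn_univ] at h
  have h1 : Integrable (fun _ : VV n => Real.exp (-(2 * B))) volume := by
    refine h.mono' aestronglyMeasurable_const (Eventually.of_forall fun z => ?_)
    rw [Real.norm_eq_abs, abs_of_pos (Real.exp_pos _)]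
    apply Real.exp_le_exp.2
    have := hlo z
    linarith
  rw [integrable_const_iff] at h1
  rcases h1 with h1 | h1
  · exact (Real.exp_pos _).ne' h1
  · have h2 := isFiniteMeasure_iff _ |>.1 h1
    have : Nonempty (Fin n) := ⟨0⟩
    have : NoncompactSpace (VV n) := by infer_instance
    have : (volume : Measure (VV n)).IsAddHaarMeasure :=
      Measure.prod.instIsAddHaarMeasure (volume : Measure (V n)) (volume : Measure (V n))
    rw [measure_univ_of_isAddLeftInvariant] at h2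
    exact lt_irrefl _ h2

end Vale.Agent.P088.R2.H269
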