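import Vale.Agent.P088.R2.H269.W.W13

/-!
# P088, stage 3: doubly harmonic corrections, weights of quadratic growth

The final form of SOL3: from the a priori estimate with a weight `w` to the correction of a
compactly supported function.
-/

open MeasureTheory Set Filter
open scoped ContDiff Matrix Topology

noncomputable section

set_option linter.unusedSectionVars false

namespace Vale.Agent.P088.R2.H269

open Vale.Agent.P088.LR Vale.Agent.P088.HY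

variable {n : ℕ}

instance instHaar : (volume : Measure (VV n)).IsAddHaarMeasure :=
  Measure.prod.instIsAddHaarMeasure (volume : Measure (V n)) (volume : Measure (V n))

/-- `P_x^* f = e^W L_x (e^{-W} f)` -/
def QX (s : MF n) (W f : VV n → ℝ) (z : VV n) : ℝ :=
  DX s f z - 2 * GX s W f z + (GX s W W z - DX s W z) * f z

/-- `P_y^* f = e^W L_y (e^{-W} f)` -/
def QY (s : MF n) (W f : VV n → ℝ) (z : VV n) : ℝ :=
  DY s f z - 2 * GY s W f z + (GY s W W z - DY s W z) * f z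

/-- `P_x f = e^{-W} L_x (e^W f)` -/
def PX (s : MF n) (W f : VV n → ℝ) (z : VV n) : ℝ :=
  DX s f z + 2 * GX s W f z + (GX s W W z + DX s W z) * f z

/-- `P_y f = e^{-W} L_y (e^W f)` -/
def PY (s : MF n) (W f : VV n → ℝ) (z : VV n) : ℝ :=
  DY s f z + 2 * GY s W f z + (GY s W W z + DY s W z) * f z

lemma QX_eq (s : MF n) (W f : VV n → ℝ) : QX s W f = Qd (bs n) (aX s) W f := by
  ext z
  unfold QX Qd
  rw [Ld_aX, Gm_aX, Gm_aX, Ld_aX]

lemma QY_eq (s : MF n) (W f : VV n → ℝ) : QY s W f = Qd (bs n) (aY s) W f := by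
  ext z
  unfold QY Qd
  rw [Ld_aY, Gm_aY, Gm_aY, Ld_aY]

lemma PX_eq {s : MF n} (hs : SmM s) {W : VV n → ℝ} (hW : S W) (f : VV n → ℝ) :
    PX s W f = Qd (bs n) (aX s) (fun z => -W z) f := by
  ext z
  rw [Qd_neg (sm_aX hs) hW]
  unfold PX
  rw [Ld_aX, Gm_aX, Gm_aX, Ld_aX]

lemma PY_eq {s : MF n} (hs : SmM s) {W : VV n → ℝ} (hW : S W) (f : VV n → ℝ) :
    PY s W f = Qd (bs n) (aY s) (fun z => -W z) f := by
  ext z
  rw [Qd_neg (sm_aY hs) hW]
  unfold PY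
  rw [Ld_aY, Gm_aY, Gm_aY, Ld_aY]

/-- `P_x^* f = e^W L_x (e^{-W} f)` -/
lemma QX_exp {s : MF n} (hs : SmM s) (hy : ∀ x, (s x).IsSymm) {W f : VV n → ℝ} (hW : S W)
    (hf : S f) (z : VV n) :
    QX s W f z = Real.exp (W z) * DX s (fun w => Real.exp (-W w) * f w) z := by
  rw [QX_eq, Qd_eq (sm_aX hs) (sy_aX hy) hW hf, Ld_aX]

/-- `P_y^* f = e^W L_y (e^{-W} f)` -/
lemma QY_exp {s : MF n} (hs : SmM s) (hy : ∀ x, (s x).IsSymm) {W f : VV n → ℝ} (hW : S W)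
    (hf : S f) (z : VV n) :
    QY s W f z = Real.exp (W z) * DY s (fun w => Real.exp (-W w) * f w) z := by
  rw [QY_eq, Qd_eq (sm_aY hs) (sy_aY hy) hW hf, Ld_aY]

/-- `P_x f = e^{-W} L_x (e^W f)` -/
lemma PX_exp {s : MF n} (hs : SmM s) (hy : ∀ x, (s x).IsSymm) {W f : VV n → ℝ} (hW : S W)
    (hf : S f) (z : VV n) :
    PX s W f z = Real.exp (-W z) * DX s (fun w => Real.exp (W w) * f w) z := by
  have hn : S (fun z => -W z) := hW.neg
  rw [PX_eq hs hW, Qd_eq (sm_aX hs) (sy_aX hy) hn hf, Ld_aX]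
  simp only [neg_neg]

/-- `P_y f = e^{-W} L_y (e^W f)` -/
lemma PY_exp {s : MF n} (hs : SmM s) (hy : ∀ x, (s x).IsSymm) {W f : VV n → ℝ} (hW : S W)
    (hf : S f) (z : VV n) :
    PY s W f z = Real.exp (-W z) * DY s (fun w => Real.exp (W w) * f w) z := by
  have hn : S (fun z => -W z) := hW.neg
  rw [PY_eq hs hW, Qd_eq (sm_aY hs) (sy_aY hy) hn hf, Ld_aY]
  simp only [neg_neg]

/-- Smooth symmetric positive definite tensors, bounded with their first derivatives. -/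
structure Tn (B : ℝ) (s : MF n) : Prop where
  sm : SmM s
  sy : ∀ x, (s x).IsSymm
  pos : PD s
  b0 : ∀ x i j, |s x i j| ≤ B
  b1 : ∀ x i j k, |LR.pd k (fun y => s y i j) x| ≤ B

/-- Weights of quadratic growth, bounded below. -/
structure Wt (B : ℝ) (W : VV n → ℝ) : Prop where
  sm : S W
  lo : ∀ z, -B ≤ W z
  x1 : ∀ i z, HY.dx i W z ^ 2 ≤ B * (1 + qf z)
  y1 : ∀ i z, HY.dy i W z ^ 2 ≤ B * (1 + qf z)
  xx : ∀ i j z, |HY.dx i (HY.dx j W) z| ≤ B * (1 + qf z)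
  xy : ∀ i j z, |HY.dx i (HY.dy j W) z| ≤ B * (1 + qf z)
  yy : ∀ i j z, |HY.dy i (HY.dy j W) z| ≤ B * (1 + qf z)

lemma Tn.bX {B : ℝ} (hB : 0 ≤ B) {s : MF n} (h : Tn B s) (i j : Fin n ⊕ Fin n) (z : VV n) :
    |aX s i j z| ≤ B := by
  rcases i with i | i <;> rcases j with j | j
  · exact h.b0 z.1 i j
  all_goals
    change |(0 : ℝ)| ≤ B
    rw [abs_zero]
    exact hB

lemma Tn.bY {B : ℝ} (hB : 0 ≤ B) {s : MF n} (h : Tn B s) (i j : Fin n ⊕ Fin n) (z : VV n) :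
    |aY s i j z| ≤ B := by
  rcases i with i | i <;> rcases j with j | j
  iterate 3
    change |(0 : ℝ)| ≤ B
    rw [abs_zero]
    exact hB
  exact h.b0 z.2 i j

lemma Tn.dX {B : ℝ} (hB : 0 ≤ B) {s : MF n} (h : Tn B s) (i j : Fin n ⊕ Fin n) (z : VV n) :
    |db (bs n) i (aX s i j) z| ≤ B := by
  rcases i with i | i <;> rcases j with j | j
  · rw [db_inl]
    have h2 : HY.dx i (fun w : VV n => s w.1 i j) z = LR.pd i (fun y => s y i j) z.1 := by
      unfold HY.dx LR.pd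
      have h : HasFDerivAt (fun w : VV n => s w.1 i j)
          ((fderiv ℝ (fun x => s x i j) z.1).comp (ContinuousLinearMap.fst ℝ (V n) (V n))) z :=
        HasFDerivAt.comp z (f := Prod.fst) (((h.sm i j).differentiable (by simp) _).hasFDerivAt)
          hasFDerivAt_fst
      rw [h.fderiv]
      simp
    change |HY.dx i (fun w : VV n => s w.1 i j) z| ≤ B
    rw [h2]
    exact h.b1 _ _ _ _
  all_goals
    have h3 : ∀ k : Fin n ⊕ Fin n, db (bs n) k (fun _ => (0 : ℝ)) z = 0 := fun k => db_const 0 k z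
    change |db (bs n) _ (fun _ => (0 : ℝ)) z| ≤ B
    rw [h3, abs_zero]
    exact hB

lemma Tn.dY {B : ℝ} (hB : 0 ≤ B) {s : MF n} (h : Tn B s) (i j : Fin n ⊕ Fin n) (z : VV n) :
    |db (bs n) i (aY s i j) z| ≤ B := by
  rcases i with i | i <;> rcases j with j | j
  iterate 3
    have h3 : ∀ k : Fin n ⊕ Fin n, db (bs n) k (fun _ => (0 : ℝ)) z = 0 := fun k => db_const 0 k z
    change |db (bs n) _ (fun _ => (0 : ℝ)) z| ≤ B
    rw [h3, abs_zero]
    exact hB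
  rw [db_inr]
  have h2 : HY.dy i (fun w : VV n => s w.2 i j) z = LR.pd i (fun y => s y i j) z.2 := by
    unfold HY.dy LR.pd
    have h : HasFDerivAt (fun w : VV n => s w.2 i j)
        ((fderiv ℝ (fun x => s x i j) z.2).comp (ContinuousLinearMap.snd ℝ (V n) (V n))) z :=
      HasFDerivAt.comp z (f := Prod.snd) (((h.sm i j).differentiable (by simp) _).hasFDerivAt)
        hasFDerivAt_snd
    rw [h.fderiv]
    simp
  change |HY.dy i (fun w : VV n => s w.2 i j) z| ≤ B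
  rw [h2]
  exact h.b1 _ _ _ _

/-- Cauchy-Schwarz for pairs -/
lemma cs_int {w G₁ G₂ a₁ a₂ : VV n → ℝ} (hw : Continuous w) (pw : ∀ z, 0 < w z)
    (hG₁ : Continuous G₁) (hG₂ : Continuous G₂)
    (hG : Integrable (fun z => (G₁ z ^ 2 + G₂ z ^ 2) / w z))
    (h₁ : Tt univ a₁) (h₂ : Tt univ a₂) :
    (∫ z, (G₁ z * a₁ z + G₂ z * a₂ z)) ^ 2 ≤
      (∫ z, (G₁ z ^ 2 + G₂ z ^ 2) / w z) * ∫ z, w z * (a₁ z ^ 2 + a₂ z ^ 2) := by
  have ci : ∀ f g : VV n → ℝ, Continuous f → Tt univ g → Integrable (fun z => f z * g z) := by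
    intro f g hf hg
    exact (hf.mul hg.s.continuous).integrable_of_hasCompactSupport hg.c.mul_left
  have I1 : Integrable (fun z => G₁ z * a₁ z + G₂ z * a₂ z) := (ci _ _ hG₁ h₁).add (ci _ _ hG₂ h₂)
  have I2 : Integrable (fun z => w z * (a₁ z ^ 2 + a₂ z ^ 2)) := by
    have j1 := ci (fun z => w z * a₁ z) a₁ (hw.mul h₁.s.continuous) h₁
    have j2 := ci (fun z => w z * a₂ z) a₂ (hw.mul h₂.s.continuous) h₂
    have : (fun z => w z * (a₁ z ^ 2 + a₂ z ^ 2)) = fun z => w z * a₁ z * a₁ z + w z * a₂ z * a₂ z := by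
      ext z
      ring
    rw [this]
    exact j1.add j2
  have key : ∀ t : ℝ, 0 ≤ (∫ z, w z * (a₁ z ^ 2 + a₂ z ^ 2)) * (t * t)
      + (2 * ∫ z, (G₁ z * a₁ z + G₂ z * a₂ z)) * t + ∫ z, (G₁ z ^ 2 + G₂ z ^ 2) / w z := by
    intro t
    have e1 : (∫ z, w z * (a₁ z ^ 2 + a₂ z ^ 2)) * (t * t)
        + (2 * ∫ z, (G₁ z * a₁ z + G₂ z * a₂ z)) * t + ∫ z, (G₁ z ^ 2 + G₂ z ^ 2) / w z
        = ∫ z, ((t * t) * (w z * (a₁ z ^ 2 + a₂ z ^ 2)) + (2 * t) * (G₁ z * a₁ z + G₂ z * a₂ z)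
          + (G₁ z ^ 2 + G₂ z ^ 2) / w z) := by
      have J1 : Integrable (fun z => (t * t) * (w z * (a₁ z ^ 2 + a₂ z ^ 2))) := I2.const_mul _
      have J2 : Integrable (fun z => (2 * t) * (G₁ z * a₁ z + G₂ z * a₂ z)) := I1.const_mul _
      have J3 : Integrable (fun z => (t * t) * (w z * (a₁ z ^ 2 + a₂ z ^ 2))
        + (2 * t) * (G₁ z * a₁ z + G₂ z * a₂ z)) := J1.add J2
      rw [integral_add J3 hG, integral_add J1 J2, integral_const_mul, integral_const_mul]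
      ring
    rw [e1]
    refine integral_nonneg fun z => ?_
    have hz := pw z
    have e2 : (t * t) * (w z * (a₁ z ^ 2 + a₂ z ^ 2)) + (2 * t) * (G₁ z * a₁ z + G₂ z * a₂ z)
          + (G₁ z ^ 2 + G₂ z ^ 2) / w z
        = ((t * w z * a₁ z + G₁ z) ^ 2 + (t * w z * a₂ z + G₂ z) ^ 2) / w z := by
      field_simp
      ring
    change 0 ≤ (t * t) * (w z * (a₁ z ^ 2 + a₂ z ^ 2)) + (2 * t) * (G₁ z * a₁ z + G₂ z * a₂ z)
          + (G₁ z ^ 2 + G₂ z ^ 2) / w z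
    rw [e2]
    positivity
  have h3 := discrim_le_zero key
  unfold discrim at h3
  nlinarith

/-- (SOL3) on all pairs of points. -/
theorem solF [NeZero n] (hyp : RowHYP) {B : ℝ} (hB : 0 ≤ B) {s₁ s₂ : MF n} (h₁ : Tn B s₁)
    (h₂ : Tn B s₂) {W : VV n → ℝ} (hW : Wt B W) {w o₁ o₂ : VV n → ℝ} (cw : Continuous w)
    (pw : ∀ z, 0 < w z) (c₁ : Continuous o₁) (p₁ : ∀ z, 0 < o₁ z) (c₂ : Continuous o₂)
    (p₂ : ∀ z, 0 < o₂ z) {C₂ : ℝ} (b₂ : ∀ z, o₂ z ≤ C₂)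
    (est : ∀ a₁ a₂ : VV n → ℝ, Tt univ a₁ → Tt univ a₂ →
      ∫ z, w z * (a₁ z ^ 2 + a₂ z ^ 2) ≤ ∫ z, (o₁ z * (QX s₁ W a₁ z + QY s₂ W a₂ z) ^ 2
        + o₂ z * (PY s₂ W a₁ z - PX s₁ W a₂ z) ^ 2))
    {F₁ F₂ : VV n → ℝ} (hF₁ : S F₁) (hF₂ : S F₂) (comp : ∀ z, DY s₂ F₁ z = DX s₁ F₂ z)
    (hF : Integrable (fun z => Real.exp (-(2 * W z)) * (F₁ z ^ 2 + F₂ z ^ 2) / w z)) :
    ∃ v : VV n → ℝ, S v ∧ (∀ z, DX s₁ v z = F₁ z) ∧ (∀ z, DY s₂ v z = F₂ z) ∧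
      Integrable (fun z => Real.exp (-(2 * W z)) * v z ^ 2 / o₁ z) ∧
      ∫ z, Real.exp (-(2 * W z)) * v z ^ 2 / o₁ z
        ≤ ∫ z, Real.exp (-(2 * W z)) * (F₁ z ^ 2 + F₂ z ^ 2) / w z := by
  have hex : ∃ C, Ex univ (bs n) (aa s₁ s₂) W C := by
    refine ex_univ hB (fun k i j => ?_) (fun k i j z => ?_) (fun k i j z => ?_) hW.sm hW.lo
      (fun k z => ?_) fun k l z => ?_
    · fin_cases k
      · exact sm_aX h₁.sm i j
      · exact sm_aY h₂.sm i j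
    · fin_cases k
      · exact h₁.bX hB i j z
      · exact h₂.bY hB i j z
    · fin_cases k
      · exact h₁.dX hB i j z
      · exact h₂.dY hB i j z
    · rcases k with k | k
      · rw [db_inl]
        exact hW.x1 k z
      · rw [db_inr]
        exact hW.y1 k z
    · rcases k with k | k <;> rcases l with l | l
      · rw [db_inl, db_inl]
        exact hW.xx k l z
      · rw [db_inl, db_inr]
        exact hW.xy k l z
      · rw [db_inr, db_inl, ← dx_dy' hW.sm l k]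
        exact hW.xy l k z
      · rw [db_inr, db_inr]
        exact hW.yy k l z
  obtain ⟨C, hex⟩ := hex
  set M2 : ℝ := ∫ z, Real.exp (-(2 * W z)) * (F₁ z ^ 2 + F₂ z ^ 2) / w z with hM2
  have hM20 : 0 ≤ M2 := integral_nonneg fun z => div_nonneg (mul_nonneg (Real.exp_pos _).le
    (by positivity)) (pw z).le
  have eG : ∀ z, ((Real.exp (-W z) * F₁ z) ^ 2 + (Real.exp (-W z) * F₂ z) ^ 2) / w z
      = Real.exp (-(2 * W z)) * (F₁ z ^ 2 + F₂ z ^ 2) / w z := by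
    intro z
    rw [mul_pow, mul_pow, ← mul_add, ← Real.exp_nat_mul]
    congr 3
    push_cast
    ring
  have res := sol3 (μ := (volume : Measure (VV n))) hyp isOpen_univ isPreconnected_univ (bs n)
    (a := aa s₁ s₂) (fun k i j => by
      fin_cases k
      · exact sm_aX h₁.sm i j
      · exact sm_aY h₂.sm i j)
    (fun k i j z => by
      fin_cases k
      · exact sy_aX h₁.sy i j z
      · exact sy_aY h₂.sy i j z)
    (fun k => by
      fin_cases k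
      · exact pos_aX h₁.pos
      · exact pos_aY h₂.pos)
    (fun z _ ξ hξ => ell_aa h₁.pos h₂.pos z ξ hξ)
    (fun f hf z => by
      rw [aa0, aa1, Ld_aY, Ld_aX, Ld_aX, Ld_aY]
      exact congrFun (DX_DY h₁.sm h₂.sm hf) z)
    (contDiffOn_univ.2 hW.sm) hex (not_int hW.lo) c₁.continuousOn c₂.continuousOn
    (fun z _ => p₁ z) (fun z _ => p₂ z) (fun z _ => b₂ z) (contDiffOn_univ.2 hF₁)
    (contDiffOn_univ.2 hF₂) (fun z _ => by
      rw [aa0, aa1, Ld_aY, Ld_aX]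
      exact comp z)
    (M := √M2) (Real.sqrt_nonneg _) (fun a₁ a₂ t₁ t₂ => by
      rw [Real.sq_sqrt hM20, aa0, aa1, ← QX_eq, ← QY_eq, ← PY_eq h₂.sm hW.sm, ← PX_eq h₁.sm hW.sm]
      have sE : Continuous (fun z => Real.exp (-W z)) := (hW.sm.neg.exp).continuous
      have cs := cs_int (w := w) (G₁ := fun z => Real.exp (-W z) * F₁ z)
        (G₂ := fun z => Real.exp (-W z) * F₂ z) cw pw (sE.mul hF₁.continuous)
        (sE.mul hF₂.continuous) (by
          simp only [eG]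
          exact hF) t₁ t₂
      simp only [eG] at cs
      have e1 : ∫ z, Real.exp (-W z) * (F₁ z * a₁ z + F₂ z * a₂ z)
          = ∫ z, (Real.exp (-W z) * F₁ z * a₁ z + Real.exp (-W z) * F₂ z * a₂ z) := by
        congr 1
        ext z
        ring
      rw [e1, setIntegral_univ]
      exact cs.trans (mul_le_mul_of_nonneg_left (est a₁ a₂ t₁ t₂) hM20))
  obtain ⟨v, v1, v2, v3, v4, v5⟩ := res
  refine ⟨v, contDiffOn_univ.1 v1, fun z => ?_, fun z => ?_, integrableOn_univ.1 v4, ?_⟩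
  · have := v2 z (mem_univ z)
    rwa [aa0, Ld_aX] at this
  · have := v3 z (mem_univ z)
    rwa [aa1, Ld_aY] at this
  · rw [setIntegral_univ, Real.sq_sqrt hM20] at v5
    exact v5

/-- (SOL3) doubly harmonic corrections of test functions. -/
theorem solK [NeZero n] (hyp : RowHYP) {B : ℝ} (hB : 0 ≤ B) {s₁ s₂ : MF n} (h₁ : Tn B s₁)
    (h₂ : Tn B s₂) {W : VV n → ℝ} (hW : Wt B W) {w o₁ o₂ : VV n → ℝ} (cw : Continuous w)
    (pw : ∀ z, 0 < w z) (c₁ : Continuous o₁) (p₁ : ∀ z, 0 < o₁ z) (c₂ : Continuous o₂)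
    (p₂ : ∀ z, 0 < o₂ z) {C₂ : ℝ} (b₂ : ∀ z, o₂ z ≤ C₂)
    (est : ∀ a₁ a₂ : VV n → ℝ, Tt univ a₁ → Tt univ a₂ →
      ∫ z, w z * (a₁ z ^ 2 + a₂ z ^ 2) ≤ ∫ z, (o₁ z * (QX s₁ W a₁ z + QY s₂ W a₂ z) ^ 2
        + o₂ z * (PY s₂ W a₁ z - PX s₁ W a₂ z) ^ 2))
    {K₀ : VV n → ℝ} (hK : S K₀) (hc : HasCompactSupport K₀) :
    ∃ K₁ : VV n → ℝ, S K₁ ∧ (∀ z, DX s₁ K₁ z = DX s₁ K₀ z) ∧ (∀ z, DY s₂ K₁ z = DY s₂ K₀ z) ∧
      Integrable (fun z => Real.exp (-(2 * W z)) * K₁ z ^ 2 / o₁ z) ∧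
      ∫ z, Real.exp (-(2 * W z)) * K₁ z ^ 2 / o₁ z
        ≤ ∫ z, Real.exp (-(2 * W z)) * (DX s₁ K₀ z ^ 2 + DY s₂ K₀ z ^ 2) / w z := by
  have sX : S (DX s₁ K₀) := by
    rw [← Ld_aX]
    exact S.Ld (sm_aX h₁.sm) hK
  have sY : S (DY s₂ K₀) := by
    rw [← Ld_aY]
    exact S.Ld (sm_aY h₂.sm) hK
  have cX : HasCompactSupport (DX s₁ K₀) := by
    rw [← Ld_aX]
    exact cs_Ld hc
  have cY : HasCompactSupport (DY s₂ K₀) := by
    rw [← Ld_aY]
    exact cs_Ld hc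
  refine solF hyp hB h₁ h₂ hW cw pw c₁ p₁ c₂ p₂ b₂ est sX sY (fun z => ?_) ?_
  · exact (congrFun (DX_DY h₁.sm h₂.sm hK) z).symm
  · have k1 : Continuous (fun z => Real.exp (-(2 * W z)) * (DX s₁ K₀ z ^ 2 + DY s₂ K₀ z ^ 2)
        / w z) := by
      refine Continuous.div ?_ cw fun z => (pw z).ne'
      exact ((contDiff_const.mul hW.sm).neg.exp.continuous).mul
        ((sX.continuous.pow 2).add (sY.continuous.pow 2))
    refine k1.integrable_of_hasCompactSupport ?_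
    have c1 : HasCompactSupport (fun z => DX s₁ K₀ z ^ 2 + DY s₂ K₀ z ^ 2) := by
      have a1 := cs_mul_right (g := DX s₁ K₀) cX
      have a2 := cs_mul_right (g := DY s₂ K₀) cY
      have := cs_add a1 a2
      simpa only [pow_two] using this
    have e1 : (fun z => Real.exp (-(2 * W z)) * (DX s₁ K₀ z ^ 2 + DY s₂ K₀ z ^ 2) / w z)
        = fun z => (Real.exp (-(2 * W z)) / w z) * (DX s₁ K₀ z ^ 2 + DY s₂ K₀ z ^ 2) := by
      ext z
      ring
    rw [e1]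
    exact cs_mul_left c1

end Vale.Agent.P088.R2.H269
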