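import Vale.Agent.P088.R2.H269.W.W1

/-!
# P088, stage 3: integration by parts for divergence form operators
-/

open MeasureTheory Set Filter
open scoped ContDiff Matrix Topology

noncomputable section

set_option linter.unusedSectionVars false

namespace Vale.Agent.P088.R2.H269

open Vale.Agent.P088.LR Vale.Agent.P088.HY

variable {J E : Type} [Fintype J] [NormedAddCommGroup E] [NormedSpace ℝ E]
  {e : J → E} {a : J → J → E → ℝ} {f g h W : E → ℝ}

/-! ## Supports -/

lemma ts_of {F : (E → ℝ) → E → ℝ} (hF : ∀ {f g : E → ℝ} {z : E}, f =ᶠ[𝓝 z] g → F f =ᶠ[𝓝 z] F g)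
    (h0 : F (fun _ => 0) = fun _ => 0) (f : E → ℝ) : tsupport (F f) ⊆ tsupport f := by
  intro z hz
  by_contra hn
  have h1 : f =ᶠ[𝓝 z] fun _ => (0 : ℝ) := notMem_tsupport_iff_eventuallyEq.1 hn
  have h2 := hF h1
  rw [h0] at h2
  exact (notMem_tsupport_iff_eventuallyEq.2 h2) hz

lemma db_zero (i : J) : db e i (fun _ => (0 : ℝ)) = fun _ => 0 := funext fun z => db_const 0 i z

lemma Ld_zero : Ld e a (fun _ => (0 : ℝ)) = fun _ => 0 := by
  ext z
  unfold H269.Ld
  simp only [db_zero, mul_zero, Finset.sum_const_zero]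

lemma Gm_zero_right (g : E → ℝ) : Gm e a g (fun _ => (0 : ℝ)) = fun _ => 0 := by
  ext z
  unfold H269.Gm
  simp only [db_zero, mul_zero, Finset.sum_const_zero]

lemma Gm_zero_left (g : E → ℝ) : Gm e a (fun _ => (0 : ℝ)) g = fun _ => 0 := by
  ext z
  unfold H269.Gm
  simp only [db_zero, zero_mul, mul_zero, Finset.sum_const_zero]

lemma Qd_zero : Qd e a W (fun _ => (0 : ℝ)) = fun _ => 0 := by
  ext z
  unfold H269.Qd
  rw [Ld_zero, Gm_zero_right]
  ring

lemma ts_db (i : J) (f : E → ℝ) : tsupport (db e i f) ⊆ tsupport f :=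
  ts_of (fun h => db_congr h i) (db_zero i) f

lemma ts_Ld (f : E → ℝ) : tsupport (Ld e a f) ⊆ tsupport f :=
  ts_of (fun h => Ld_congr h) Ld_zero f

lemma ts_Gm_right (f g : E → ℝ) : tsupport (Gm e a g f) ⊆ tsupport f :=
  ts_of (F := fun f => Gm e a g f) (fun h => Gm_congr (EventuallyEq.refl _ _) h)
    (Gm_zero_right g) f

lemma ts_Gm_left (f g : E → ℝ) : tsupport (Gm e a f g) ⊆ tsupport f :=
  ts_of (F := fun f => Gm e a f g) (fun h => Gm_congr h (EventuallyEq.refl _ _))
    (Gm_zero_left g) f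

lemma ts_Qd (f : E → ℝ) : tsupport (Qd e a W f) ⊆ tsupport f :=
  ts_of (fun h => Qd_congr (EventuallyEq.refl _ _) h) Qd_zero f

lemma cs_ts (hf : HasCompactSupport f) (h : tsupport g ⊆ tsupport f) : HasCompactSupport g :=
  hf.of_isClosed_subset (isClosed_tsupport g) h

lemma cs_mul_left (hg : HasCompactSupport g) : HasCompactSupport (fun z => f z * g z) :=
  hg.mul_left

lemma cs_mul_right (hf : HasCompactSupport f) : HasCompactSupport (fun z => f z * g z) :=
  hf.mul_right

lemma cs_add (hf : HasCompactSupport f) (hg : HasCompactSupport g) :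
    HasCompactSupport (fun z => f z + g z) := hf.add hg

lemma cs_sum {ι : Type*} {t : Finset ι} {g : ι → E → ℝ} (hg : ∀ a ∈ t, HasCompactSupport (g a)) :
    HasCompactSupport (fun z => ∑ a ∈ t, g a z) := by
  classical
  induction t using Finset.induction_on with
  | empty =>
    have : HasCompactSupport (fun _ : E => (0 : ℝ)) := HasCompactSupport.zero
    simpa using this
  | insert b t hb ih =>
    simp only [Finset.sum_insert hb]
    exact cs_add (hg b (Finset.mem_insert_self _ _)) (ih fun a ha => hg a (Finset.mem_insert_of_mem ha))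

lemma cs_db (hf : HasCompactSupport f) (i : J) : HasCompactSupport (db e i f) :=
  cs_ts hf (ts_db i f)

lemma cs_Ld (hf : HasCompactSupport f) : HasCompactSupport (Ld e a f) := cs_ts hf (ts_Ld f)

lemma cs_Gm_left (hf : HasCompactSupport f) (g : E → ℝ) : HasCompactSupport (Gm e a f g) :=
  cs_ts hf (ts_Gm_left f g)

lemma cs_Gm_right (hf : HasCompactSupport f) (g : E → ℝ) : HasCompactSupport (Gm e a g f) :=
  cs_ts hf (ts_Gm_right f g)

lemma cs_Qd (hf : HasCompactSupport f) : HasCompactSupport (Qd e a W f) := cs_ts hf (ts_Qd f)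

lemma ts_mul_left (f g : E → ℝ) : tsupport (fun z => f z * g z) ⊆ tsupport f :=
  tsupport_mul_subset_left

lemma ts_mul_right (f g : E → ℝ) : tsupport (fun z => f z * g z) ⊆ tsupport g :=
  tsupport_mul_subset_right

/-! ## Integrals -/

variable [FiniteDimensional ℝ E] [MeasurableSpace E] [BorelSpace E] {μ : Measure E}
  [μ.IsAddHaarMeasure]

lemma S.int (hf : S f) (hc : HasCompactSupport f) : Integrable f μ :=
  hf.continuous.integrable_of_hasCompactSupport hc

lemma cs_or {F : E → ℝ} (hc : HasCompactSupport f ∨ HasCompactSupport g)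
    (h1 : tsupport F ⊆ tsupport f) (h2 : tsupport F ⊆ tsupport g) : HasCompactSupport F :=
  hc.elim (fun h => cs_ts h h1) fun h => cs_ts h h2

lemma ibp_db (hf : S f) (hg : S g) (hc : HasCompactSupport f ∨ HasCompactSupport g) (i : J) :
    ∫ z, f z * db e i g z ∂μ = -∫ z, db e i f z * g z ∂μ := by
  refine integral_mul_fderiv_eq_neg_fderiv_mul_of_integrable ?_ ?_ ?_ (fun z _ => hf.df z)
    fun z _ => hg.df z
  · exact S.int ((hf.db (e := e) i).mul hg) (cs_or hc ((ts_mul_left _ _).trans (ts_db i f))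
      (ts_mul_right _ _))
  · exact S.int (hf.mul (hg.db (e := e) i)) (cs_or hc (ts_mul_left _ _)
      ((ts_mul_right _ _).trans (ts_db i g)))
  · exact S.int (hf.mul hg) (cs_or hc (ts_mul_left _ _) (ts_mul_right _ _))

lemma int_Ld (ha : ∀ i j, S (a i j)) (hf : S f) (hg : S g)
    (hc : HasCompactSupport f ∨ HasCompactSupport g) :
    ∫ z, f z * Ld e a g z ∂μ = -∫ z, Gm e a f g z ∂μ := by
  have t1 : ∀ i j, tsupport (fun z => f z * db e i (fun w => a i j w * db e j g w) z) ⊆ tsupport g :=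
    fun i j => (ts_mul_right _ _).trans ((ts_db i _).trans ((ts_mul_right _ _).trans (ts_db j g)))
  have i1 : ∀ i j, Integrable (fun z => f z * db e i (fun w => a i j w * db e j g w) z) μ :=
    fun i j => S.int (hf.mul (S.db ((ha i j).mul (hg.db j)) i)) (cs_or hc (ts_mul_left _ _) (t1 i j))
  have i2 : ∀ i j, Integrable (fun z => a i j z * (db e i f z * db e j g z)) μ :=
    fun i j => S.int ((ha i j).mul ((hf.db i).mul (hg.db j))) (cs_or hc
      ((ts_mul_right _ _).trans ((ts_mul_left _ _).trans (ts_db i f)))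
      ((ts_mul_right _ _).trans ((ts_mul_right _ _).trans (ts_db j g))))
  have l : ∫ z, f z * Ld e a g z ∂μ
      = ∑ i, ∑ j, ∫ z, f z * db e i (fun w => a i j w * db e j g w) z ∂μ := by
    rw [← Finset.sum_congr rfl fun i _ => integral_finsetSum _ fun j _ => i1 i j,
      ← integral_finsetSum _ fun i _ => integrable_finsetSum _ fun j _ => i1 i j]
    congr 1
    ext z
    unfold H269.Ld
    simp only [Finset.mul_sum]
  have r : ∫ z, Gm e a f g z ∂μ = ∑ i, ∑ j, ∫ z, a i j z * (db e i f z * db e j g z) ∂μ := by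
    rw [← Finset.sum_congr rfl fun i _ => integral_finsetSum _ fun j _ => i2 i j,
      ← integral_finsetSum _ fun i _ => integrable_finsetSum _ fun j _ => i2 i j]
    rfl
  rw [l, r, ← Finset.sum_neg_distrib]
  refine Finset.sum_congr rfl fun i _ => ?_
  rw [← Finset.sum_neg_distrib]
  refine Finset.sum_congr rfl fun j _ => ?_
  rw [ibp_db hf ((ha i j).mul (hg.db j)) (hc.imp id fun h => cs_mul_left (cs_db h j)) i]
  congr 2
  ext z
  ring

/-- `Ld` is formally symmetric -/
lemma int_Ld_comm (ha : ∀ i j, S (a i j)) (hs : ∀ i j z, a i j z = a j i z) (hf : S f) (hg : S g)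
    (hc : HasCompactSupport f ∨ HasCompactSupport g) :
    ∫ z, f z * Ld e a g z ∂μ = ∫ z, Ld e a f z * g z ∂μ := by
  rw [int_Ld ha hf hg hc]
  have h1 : ∫ z, Ld e a f z * g z ∂μ = ∫ z, g z * Ld e a f z ∂μ := by
    congr 1
    ext z
    ring
  rw [h1, int_Ld ha hg hf hc.symm]
  congr 2
  ext z
  exact Gm_comm hs f g z

lemma Qd_neg (ha : ∀ i j, S (a i j)) (hW : S W) (f : E → ℝ) (z : E) :
    Qd e a (fun w => -W w) f z
      = Ld e a f z + 2 * Gm e a W f z + (Gm e a W W z + Ld e a W z) * f z := by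
  unfold H269.Qd
  rw [Gm_neg_left, Gm_neg_left, Gm_neg_right, Ld_neg ha hW]
  ring

/-- the adjoint -/
lemma int_Qd (ha : ∀ i j, S (a i j)) (hs : ∀ i j z, a i j z = a j i z) (hW : S W) (hf : S f)
    (hg : S g) (hc : HasCompactSupport f ∨ HasCompactSupport g) :
    ∫ z, f z * Qd e a (fun w => -W w) g z ∂μ = ∫ z, Qd e a W f z * g z ∂μ := by
  have cf : ∀ {F : E → ℝ}, tsupport F ⊆ tsupport f → tsupport F ⊆ tsupport g →
      HasCompactSupport F := fun h1 h2 => cs_or hc h1 h2
  have I1 : Integrable (fun z => f z * Ld e a g z) μ :=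
    S.int (hf.mul (S.Ld ha hg)) (cf (ts_mul_left _ _) ((ts_mul_right _ _).trans (ts_Ld g)))
  have I2 : Integrable (fun z => Ld e a f z * g z) μ :=
    S.int ((S.Ld ha hf).mul hg) (cf ((ts_mul_left _ _).trans (ts_Ld f)) (ts_mul_right _ _))
  have fg : S (fun z => f z * g z) := hf.mul hg
  have tfg1 : tsupport (fun z => f z * g z) ⊆ tsupport f := ts_mul_left _ _
  have tfg2 : tsupport (fun z => f z * g z) ⊆ tsupport g := ts_mul_right _ _
  have I3 : Integrable (fun z => Gm e a W (fun z => f z * g z) z) μ :=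
    S.int (S.Gm ha hW fg) (cf ((ts_Gm_right _ _).trans tfg1) ((ts_Gm_right _ _).trans tfg2))
  have I4 : Integrable (fun z => (f z * g z) * Ld e a W z) μ :=
    S.int (fg.mul (S.Ld ha hW)) (cf ((ts_mul_left _ _).trans tfg1) ((ts_mul_left _ _).trans tfg2))
  have k1 : ∫ z, f z * Ld e a g z ∂μ - ∫ z, Ld e a f z * g z ∂μ = 0 := by
    rw [int_Ld_comm ha hs hf hg hc, sub_self]
  have k2 : ∫ z, Gm e a W (fun z => f z * g z) z ∂μ + ∫ z, (f z * g z) * Ld e a W z ∂μ = 0 := by
    rw [int_Ld ha fg hW (Or.inl (cf tfg1 tfg2))]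
    have : ∫ z, Gm e a (fun z => f z * g z) W z ∂μ = ∫ z, Gm e a W (fun z => f z * g z) z ∂μ := by
      congr 1
      ext z
      exact Gm_comm hs _ _ z
    rw [this]
    ring
  have l : ∫ z, f z * Qd e a (fun w => -W w) g z ∂μ - ∫ z, Qd e a W f z * g z ∂μ = 0 := by
    have J1 : Integrable (fun z => f z * Qd e a (fun w => -W w) g z) μ :=
      S.int (hf.mul (S.Qd ha hW.neg hg)) (cf (ts_mul_left _ _) ((ts_mul_right _ _).trans (ts_Qd g)))
    have J2 : Integrable (fun z => Qd e a W f z * g z) μ :=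
      S.int ((S.Qd ha hW hf).mul hg) (cf ((ts_mul_left _ _).trans (ts_Qd f)) (ts_mul_right _ _))
    have K1 : Integrable (fun z => f z * Ld e a g z - Ld e a f z * g z) μ := I1.sub I2
    have K2 : Integrable (fun z => Gm e a W (fun z => f z * g z) z + (f z * g z) * Ld e a W z) μ :=
      I3.add I4
    have m1 : ∫ z, (f z * Ld e a g z - Ld e a f z * g z) ∂μ = 0 := by rw [integral_sub I1 I2, k1]
    have m2 : ∫ z, (Gm e a W (fun z => f z * g z) z + (f z * g z) * Ld e a W z) ∂μ = 0 := by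
      rw [integral_add I3 I4, k2]
    have m3 : ∫ z, ((f z * Ld e a g z - Ld e a f z * g z)
        + 2 * (Gm e a W (fun z => f z * g z) z + (f z * g z) * Ld e a W z)) ∂μ = 0 := by
      rw [integral_add K1 (K2.const_mul 2), integral_const_mul, m1, m2]
      ring
    rw [← integral_sub J1 J2, ← m3]
    congr 1
    ext z
    rw [Qd_neg ha hW, Gm_mul_right hf hg]
    unfold H269.Qd
    ring
  linarith

/-- `∫ Gm (φ² g) g + φ² g Ld g = 0` in expanded form -/
lemma int_cac (ha : ∀ i j, S (a i j)) {φ : E → ℝ} (hφ : S φ)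
    (hc : HasCompactSupport φ) (hg : S g) :
    ∫ z, (φ z ^ 2 * g z * Ld e a g z + φ z ^ 2 * Gm e a g g z
      + 2 * (φ z * g z * Gm e a φ g z)) ∂μ = 0 := by
  have sf : S (fun z => (φ z * φ z) * g z) := (hφ.mul hφ).mul hg
  have cf : HasCompactSupport (fun z => (φ z * φ z) * g z) := cs_mul_right (cs_mul_right hc)
  have I1 : Integrable (fun z => ((φ z * φ z) * g z) * Ld e a g z) μ :=
    S.int (sf.mul (S.Ld ha hg)) (cs_mul_right cf)
  have I2 : Integrable (fun z => Gm e a (fun z => (φ z * φ z) * g z) g z) μ :=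
    S.int (S.Gm ha sf hg) (cs_Gm_left cf g)
  have h := int_Ld (μ := μ) (e := e) ha sf hg (Or.inl cf)
  have h2 : ∫ z, (((φ z * φ z) * g z) * Ld e a g z
      + Gm e a (fun z => (φ z * φ z) * g z) g z) ∂μ = 0 := by
    rw [integral_add I1 I2, h]
    ring
  rw [← h2]
  congr 1
  ext z
  have p2 : S (fun z => φ z * φ z) := hφ.mul hφ
  rw [Gm_mul_left p2 hg, Gm_mul_left hφ hφ]
  ring

end Vale.Agent.P088.R2.H269
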