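import Vale.Agent.P088.R2.H269.W.W2

/-!
# P088, stage 3: the local inequality for the top degree
-/

open MeasureTheory Set Filter
open scoped ContDiff Matrix Topology

noncomputable section

set_option linter.unusedSectionVars false

namespace Vale.Agent.P088.R2.H269

open Vale.Agent.P088.LR Vale.Agent.P088.HY

variable {J E : Type} [Fintype J] [NormedAddCommGroup E] [NormedSpace ℝ E]
  {e : J → E} {a : J → J → E → ℝ} {f g h W : E → ℝ}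

/-! ## Cauchy-Schwarz -/

/-- nonnegative coefficients -/
def Pos (a : J → J → E → ℝ) : Prop :=
  ∀ z (ξ : J → ℝ), 0 ≤ ∑ i, ∑ j, a i j z * (ξ i * ξ j)

lemma Gm_nonneg (hp : Pos a) (f : E → ℝ) (z : E) : 0 ≤ Gm e a f f z :=
  hp z fun i => db e i f z

lemma Gm_cs (hp : Pos a) (hs : ∀ i j z, a i j z = a j i z) (f g : E → ℝ) (z : E) :
    Gm e a f g z ^ 2 ≤ Gm e a f f z * Gm e a g g z := by
  have h : ∀ t : ℝ, 0 ≤ Gm e a g g z * (t * t) + (2 * Gm e a f g z) * t + Gm e a f f z := by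
    intro t
    have h1 := hp z fun i => db e i f z + t * db e i g z
    have h2 : ∑ i, ∑ j, a i j z * ((db e i f z + t * db e i g z) * (db e j f z + t * db e j g z))
        = Gm e a g g z * (t * t) + t * (Gm e a f g z + Gm e a g f z) + Gm e a f f z := by
      unfold H269.Gm
      simp only [Finset.sum_mul, Finset.mul_sum, ← Finset.sum_add_distrib]
      refine Finset.sum_congr rfl fun i _ => Finset.sum_congr rfl fun j _ => ?_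
      ring
    rw [h2, Gm_comm hs g f] at h1
    linarith
  have h3 := discrim_le_zero h
  unfold discrim at h3
  nlinarith

/-! ## The pointwise inequality -/

lemma am {x y : ℝ} : -(x ^ 2 / 8 + 2 * y ^ 2) ≤ x * y := by nlinarith [sq_nonneg (x + 4 * y)]

lemma cs_am {D G H y : ℝ} (hD : D ^ 2 ≤ G * H) (hG : 0 ≤ G) (hH : 0 ≤ H) :
    -(H / 4 + 4 * (y ^ 2 * G)) ≤ 2 * (y * D) := by
  have h1 : (2 * (y * D)) ^ 2 ≤ (H / 4 + 4 * (y ^ 2 * G)) ^ 2 := by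
    nlinarith [sq_nonneg (H / 4 - 4 * (y ^ 2 * G)), mul_le_mul_of_nonneg_left hD (sq_nonneg y)]
  exact (abs_le_of_sq_le_sq' h1 (by positivity)).1

lemma pw_a {w A m p Gg Gw : ℝ} (hGg : 0 ≤ Gg) (hm : 0 ≤ m)
    (hA : A ^ 2 ≤ Gw * Gg) (c1 : Gw ≤ m) (hc : p = 1 ∨ A = 0) :
    w ^ 2 * A ^ 2 ≤ m * ((w * p) ^ 2 * Gg) := by
  rcases hc with h | h
  · rw [h, mul_one]
    have h1 : A ^ 2 ≤ m * Gg := hA.trans (mul_le_mul_of_nonneg_right c1 hGg)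
    calc w ^ 2 * A ^ 2 ≤ w ^ 2 * (m * Gg) := mul_le_mul_of_nonneg_left h1 (sq_nonneg w)
      _ = _ := by ring
  · rw [h]
    have : 0 ≤ m * ((w * p) ^ 2 * Gg) := by positivity
    simpa using this

lemma sq3 (x y z : ℝ) : (x + y + z) ^ 2 ≤ 3 * (x ^ 2 + y ^ 2 + z ^ 2) := by
  nlinarith [sq_nonneg (x - y), sq_nonneg (x - z), sq_nonneg (y - z)]

lemma pw_b {w B Lw Gw C : ℝ} (w2 : w ^ 2 ≤ 1) (hB : B ^ 2 ≤ C) (hL : Lw ^ 2 ≤ C ^ 2)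
    (hG : Gw ^ 2 ≤ C ^ 2) :
    (w * (-8 * B + 4 * Lw) + 12 * Gw) ^ 2 ≤ 3 * (64 * C + 16 * C ^ 2 + 144 * C ^ 2) := by
  have h0 := sq3 (w * (-8 * B)) (w * (4 * Lw)) (12 * Gw)
  have h1 : w * (-8 * B) + w * (4 * Lw) + 12 * Gw = w * (-8 * B + 4 * Lw) + 12 * Gw := by ring
  rw [h1] at h0
  have h2 : w ^ 2 * B ^ 2 ≤ 1 * C := mul_le_mul w2 hB (sq_nonneg B) (by norm_num)
  have h3 : w ^ 2 * Lw ^ 2 ≤ 1 * C ^ 2 := mul_le_mul w2 hL (sq_nonneg Lw) (by norm_num)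
  have e2 : (w * (-8 * B)) ^ 2 = 64 * (w ^ 2 * B ^ 2) := by ring
  have e3 : (w * (4 * Lw)) ^ 2 = 16 * (w ^ 2 * Lw ^ 2) := by ring
  have e4 : (12 * Gw) ^ 2 = 144 * Gw ^ 2 := by ring
  rw [e2, e3, e4] at h0
  linarith

lemma pw_c {m p g C : ℝ} (hm : 0 ≤ m) (c2 : m ≤ C) (p2 : p ^ 2 ≤ 1) :
    (256 * m * p ^ 2 * g) ^ 2 ≤ 65536 * C ^ 2 * g ^ 2 := by
  have h2 : m * p ^ 2 ≤ C := by
    calc m * p ^ 2 ≤ m * 1 := mul_le_mul_of_nonneg_left p2 hm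
      _ ≤ C := by linarith
  have h1 : (m * p ^ 2) ^ 2 ≤ C ^ 2 := pow_le_pow_left₀ (by positivity) h2 2
  have h3 := mul_le_mul_of_nonneg_right h1 (sq_nonneg g)
  calc (256 * m * p ^ 2 * g) ^ 2 = 65536 * ((m * p ^ 2) ^ 2 * g ^ 2) := by ring
    _ ≤ 65536 * (C ^ 2 * g ^ 2) := by linarith
    _ = _ := by ring

lemma pw_d {m u g GW LW C : ℝ} (hm : 0 ≤ m) (hu0 : 0 ≤ u) (hu : u ≤ 1) (hGW : 0 ≤ GW)
    (c3 : m * GW ≤ C) (c4 : m * |LW| ≤ C) :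
    -(2 * C * g ^ 2) ≤ m * (u * (-(GW - LW) * g ^ 2)) := by
  have h1 : m * |GW - LW| ≤ 2 * C := by
    calc m * |GW - LW| ≤ m * (|GW| + |LW|) := mul_le_mul_of_nonneg_left (abs_sub _ _) hm
      _ = m * GW + m * |LW| := by rw [abs_of_nonneg hGW]; ring
      _ ≤ _ := by linarith
  have h2 : m * (u * (|GW - LW| * g ^ 2)) ≤ 2 * C * g ^ 2 := by
    calc m * (u * (|GW - LW| * g ^ 2)) = u * (m * |GW - LW| * g ^ 2) := by ring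
      _ ≤ 1 * (m * |GW - LW| * g ^ 2) := mul_le_mul_of_nonneg_right hu (by positivity)
      _ = (m * |GW - LW|) * g ^ 2 := by ring
      _ ≤ _ := mul_le_mul_of_nonneg_right h1 (sq_nonneg g)
  have h3 : -(m * (u * (|GW - LW| * g ^ 2))) ≤ m * (u * (-(GW - LW) * g ^ 2)) := by
    rw [← mul_neg, ← mul_neg, ← neg_mul]
    refine mul_le_mul_of_nonneg_left (mul_le_mul_of_nonneg_left
      (mul_le_mul_of_nonneg_right ?_ (sq_nonneg g)) hu0) hm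
    exact neg_le_neg (le_abs_self _)
  linarith

lemma pw_e {m u g GW C : ℝ} (hm : 0 ≤ m) (hu : u ≤ 1) (hGW : 0 ≤ GW)
    (c3 : m * GW ≤ C) : m * (u * (g ^ 2 * GW)) ≤ C * g ^ 2 := by
  calc m * (u * (g ^ 2 * GW)) = u * (m * GW * g ^ 2) := by ring
    _ ≤ 1 * (m * GW * g ^ 2) := mul_le_mul_of_nonneg_right hu (by positivity)
    _ = (m * GW) * g ^ 2 := by ring
    _ ≤ _ := mul_le_mul_of_nonneg_right c3 (sq_nonneg g)

/-- the pointwise inequality -/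
lemma pw {w p g q A B D Gg Gw GW Gf Ph Lw LW m C : ℝ} (hC : 0 ≤ C)
    (hw0 : 0 ≤ w) (hw1 : w ≤ 1) (hp0 : 0 ≤ p) (hp1 : p ≤ 1)
    (hGg : 0 ≤ Gg) (hGw : 0 ≤ Gw) (hGW : 0 ≤ GW) (hGf : 0 ≤ Gf) (hm : 0 ≤ m)
    (hA : A ^ 2 ≤ Gw * Gg) (hB : B ^ 2 ≤ Gw * GW) (hD : D ^ 2 ≤ GW * Gg)
    (hP : Ph ^ 2 ≤ Gf * Gg)
    (c1 : Gw ≤ m) (c2 : m ≤ C) (c3 : m * GW ≤ C) (c4 : m * |LW| ≤ C) (c5 : |Lw| ≤ C)
    (c6 : m * Gf ≤ C) (hc : p = 1 ∨ A = 0) :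
    w ^ 4 * q ^ 2 / 2 - (2 ^ 20 * (C + 1) ^ 2) * g ^ 2 ≤
      q * (w ^ 4 * q + 8 * w ^ 3 * A - 8 * w ^ 3 * B * g + (4 * w ^ 3 * Lw + 12 * w ^ 2 * Gw) * g)
      + 256 * m * ((w * p) ^ 2 * g * (q + 2 * D - (GW - LW) * g) + (w * p) ^ 2 * Gg
        + 2 * ((w * p) * g * Ph)) := by
  have w2 : w ^ 2 ≤ 1 := pow_le_one₀ hw0 hw1
  have p2 : p ^ 2 ≤ 1 := pow_le_one₀ hp0 hp1
  have wp2 : (w * p) ^ 2 ≤ 1 := pow_le_one₀ (mul_nonneg hw0 hp0) (mul_le_one₀ hw1 hp0 hp1)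
  have hA' := pw_a (w := w) hGg hm hA c1 hc
  have t1 : -((w ^ 2 * q) ^ 2 / 8 + 2 * (8 * w * A) ^ 2) ≤ (w ^ 2 * q) * (8 * w * A) := am
  have t2 : -((w ^ 2 * q) ^ 2 / 8 + 2 * ((w * (-8 * B + 4 * Lw) + 12 * Gw) * g) ^ 2)
      ≤ (w ^ 2 * q) * ((w * (-8 * B + 4 * Lw) + 12 * Gw) * g) := am
  have t3 : -((w ^ 2 * q) ^ 2 / 8 + 2 * (256 * m * p ^ 2 * g) ^ 2)
      ≤ (w ^ 2 * q) * (256 * m * p ^ 2 * g) := am
  have t4 : -(Gg / 4 + 4 * (g ^ 2 * GW)) ≤ 2 * (g * D) := cs_am hD hGW hGg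
  have t5 : -(((w * p) ^ 2 * Gg) / 4 + 4 * (g ^ 2 * Gf)) ≤ 2 * (g * ((w * p) * Ph)) := by
    refine cs_am ?_ hGf (by positivity)
    calc ((w * p) * Ph) ^ 2 = (w * p) ^ 2 * Ph ^ 2 := by ring
      _ ≤ (w * p) ^ 2 * (Gf * Gg) := mul_le_mul_of_nonneg_left hP (sq_nonneg _)
      _ = _ := by ring
  have hB' : B ^ 2 ≤ C := by
    calc B ^ 2 ≤ Gw * GW := hB
      _ ≤ m * GW := mul_le_mul_of_nonneg_right c1 hGW
      _ ≤ C := c3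
  have hL2 : Lw ^ 2 ≤ C ^ 2 := sq_le_sq' (by linarith only [(abs_le.1 c5).1]) (abs_le.1 c5).2
  have hG2 : Gw ^ 2 ≤ C ^ 2 := pow_le_pow_left₀ hGw (c1.trans c2) 2
  have k1 := pw_b w2 hB' hL2 hG2
  have k1' : ((w * (-8 * B + 4 * Lw) + 12 * Gw) * g) ^ 2
      ≤ (3 * (64 * C + 16 * C ^ 2 + 144 * C ^ 2)) * g ^ 2 := by
    rw [mul_pow]
    exact mul_le_mul_of_nonneg_right k1 (sq_nonneg g)
  have k2 := pw_c (g := g) hm c2 p2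
  have k3 := pw_d (g := g) hm (sq_nonneg (w * p)) wp2 hGW c3 c4
  have k4 := pw_e (g := g) hm wp2 hGW c3
  have k5 : m * (g ^ 2 * Gf) ≤ C * g ^ 2 := by
    calc m * (g ^ 2 * Gf) = m * Gf * g ^ 2 := by ring
      _ ≤ _ := mul_le_mul_of_nonneg_right c6 (sq_nonneg g)
  have k7 : m * ((w * p) ^ 2 * (-(Gg / 4 + 4 * (g ^ 2 * GW)))) ≤ m * ((w * p) ^ 2 * (2 * (g * D))) :=
    mul_le_mul_of_nonneg_left (mul_le_mul_of_nonneg_left t4 (sq_nonneg _)) hm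
  have k8 : m * (-(((w * p) ^ 2 * Gg) / 4 + 4 * (g ^ 2 * Gf))) ≤ m * (2 * (g * ((w * p) * Ph))) :=
    mul_le_mul_of_nonneg_left t5 hm
  have g0 := sq_nonneg g
  have Cg : 0 ≤ C * g ^ 2 := by positivity
  have C2g : 0 ≤ C ^ 2 * g ^ 2 := by positivity
  have q0 : 0 ≤ w ^ 4 * q ^ 2 := by positivity
  linarith only [t1, t2, t3, k1', k2, k3, k4, k5, k7, k8, hA', g0, Cg, C2g, q0]

end Vale.Agent.P088.R2.H269
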