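import Vale.Agent.P088.R2.H269.W.W3

/-!
# P088, stage 3: the local estimate for the top degree
-/

open MeasureTheory Set Filter
open scoped ContDiff Matrix Topology

noncomputable section

set_option linter.unusedSectionVars false

namespace Vale.Agent.P088.R2.H269

open Vale.Agent.P088.LR Vale.Agent.P088.HY

variable {J E ι : Type} [Fintype J] [Fintype ι] [NormedAddCommGroup E] [NormedSpace ℝ E]
  {e : J → E} {f g h W χ ψ : E → ℝ}

/-- the fourth power -/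
def p4 (χ : E → ℝ) : E → ℝ := fun z => (χ z * χ z) * (χ z * χ z)

lemma S.p4 (hχ : S χ) : S (p4 χ) := (hχ.mul hχ).mul (hχ.mul hχ)

lemma Gm_p4 {a : J → J → E → ℝ} (hχ : S χ) (g : E → ℝ) (z : E) :
    Gm e a (p4 χ) g z = 4 * χ z ^ 3 * Gm e a χ g z := by
  have h2 : S (fun z => χ z * χ z) := hχ.mul hχ
  unfold H269.p4
  rw [Gm_mul_left h2 h2, Gm_mul_left hχ hχ]
  ring

lemma Ld_p4 {a : J → J → E → ℝ} (ha : ∀ i j, S (a i j)) (hs : ∀ i j z, a i j z = a j i z)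
    (hχ : S χ) (z : E) :
    Ld e a (p4 χ) z = 4 * χ z ^ 3 * Ld e a χ z + 12 * χ z ^ 2 * Gm e a χ χ z := by
  have h2 : S (fun z => χ z * χ z) := hχ.mul hχ
  unfold H269.p4
  rw [Ld_mul ha hs h2 h2, Ld_mul ha hs hχ hχ, Gm_mul_left hχ hχ, Gm_mul_right hχ hχ]
  ring

lemma Qd_p4 {a : J → J → E → ℝ} (ha : ∀ i j, S (a i j)) (hs : ∀ i j z, a i j z = a j i z)
    (hχ : S χ) (hg : S g) (z : E) :
    Qd e a W (fun z => p4 χ z * g z) z = χ z ^ 4 * Qd e a W g z + 8 * χ z ^ 3 * Gm e a χ g z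
      - 8 * χ z ^ 3 * Gm e a χ W z * g z
      + (4 * χ z ^ 3 * Ld e a χ z + 12 * χ z ^ 2 * Gm e a χ χ z) * g z := by
  rw [Qd_mul ha hs hχ.p4 hg, Ld_p4 ha hs hχ, Gm_p4 hχ, Gm_comm hs W, Gm_p4 hχ]
  unfold H269.p4
  ring

/-- the integrand of one operator -/
def T1 (e : J → E) (a : J → J → E → ℝ) (W g χ ψ : E → ℝ) (m : ℝ) (z : E) : ℝ :=
  Qd e a W g z * Qd e a W (fun z => p4 χ z * g z) z
    + 256 * m * (((χ z * ψ z) ^ 2 * g z) * Ld e a g z + (χ z * ψ z) ^ 2 * Gm e a g g z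
      + 2 * (χ z * ψ z * g z * Gm e a (fun z => χ z * ψ z) g z))

/-- bounds at a point of the transition region -/
structure Bd (e : J → E) (a : J → J → E → ℝ) (W χ ψ : E → ℝ) (m C : ℝ) (z : E) : Prop where
  c1 : Gm e a χ χ z ≤ m
  c3 : m * Gm e a W W z ≤ C
  c4 : m * |Ld e a W z| ≤ C
  c5 : |Ld e a χ z| ≤ C
  c6 : m * Gm e a (fun z => χ z * ψ z) (fun z => χ z * ψ z) z ≤ C
  hc : ψ z = 1 ∨ Gm e a χ χ z = 0

lemma T1_lb {a : J → J → E → ℝ} (ha : ∀ i j, S (a i j)) (hs : ∀ i j z, a i j z = a j i z)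
    (hp : Pos a) (hg : S g) (hχ : S χ) {m C : ℝ} (hC : 0 ≤ C) (hm : 0 ≤ m)
    (hmC : m ≤ C) {z : E} (hw0 : 0 ≤ χ z) (hw1 : χ z ≤ 1) (hp0 : 0 ≤ ψ z) (hp1 : ψ z ≤ 1)
    (hb : Bd e a W χ ψ m C z) :
    χ z ^ 4 * Qd e a W g z ^ 2 / 2 - (2 ^ 20 * (C + 1) ^ 2) * g z ^ 2 ≤ T1 e a W g χ ψ m z := by
  have hL : Ld e a g z = Qd e a W g z + 2 * Gm e a W g z
      - (Gm e a W W z - Ld e a W z) * g z := by
    unfold H269.Qd
    ring
  have hA : ψ z = 1 ∨ Gm e a χ g z = 0 := by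
    rcases hb.hc with h | h
    · exact Or.inl h
    · right
      have := Gm_cs (e := e) hp hs χ g z
      rw [h, zero_mul] at this
      exact pow_eq_zero_iff (two_ne_zero) |>.1 (le_antisymm this (sq_nonneg _))
  have := pw (w := χ z) (p := ψ z) (g := g z) (q := Qd e a W g z) (A := Gm e a χ g z)
    (B := Gm e a χ W z) (D := Gm e a W g z) (Gg := Gm e a g g z) (Gw := Gm e a χ χ z)
    (GW := Gm e a W W z) (Gf := Gm e a (fun z => χ z * ψ z) (fun z => χ z * ψ z) z)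
    (Ph := Gm e a (fun z => χ z * ψ z) g z) (Lw := Ld e a χ z) (LW := Ld e a W z)
    (m := m) (C := C) hC hw0 hw1 hp0 hp1 (Gm_nonneg hp _ _) (Gm_nonneg hp _ _) (Gm_nonneg hp _ _)
    (Gm_nonneg hp _ _) hm (Gm_cs hp hs _ _ _) (Gm_cs hp hs _ _ _) (Gm_cs hp hs _ _ _)
    (Gm_cs hp hs _ _ _) hb.c1 hmC hb.c3 hb.c4 hb.c5 hb.c6 hA
  unfold T1
  rw [Qd_p4 ha hs hχ hg, hL]
  exact this

lemma T1_one {a : J → J → E → ℝ} (ha : ∀ i j, S (a i j)) (hs : ∀ i j z, a i j z = a j i z)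
    (hχ : S χ) (hg : S g) {m : ℝ} {z : E} (h1 : χ =ᶠ[𝓝 z] fun _ => 1) (h2 : ψ z = 0) :
    χ z ^ 4 * Qd e a W g z ^ 2 / 2 ≤ T1 e a W g χ ψ m z := by
  have e0 : χ z = 1 := h1.self_of_nhds
  have c : ∀ f : E → ℝ, Gm e a χ f z = 0 := by
    intro f
    have := (Gm_congr (e := e) (a := a) h1 (EventuallyEq.refl (𝓝 z) f)).self_of_nhds
    rw [this]
    unfold H269.Gm
    simp [db_const]
  have c2 : Ld e a χ z = 0 := by
    have := (Ld_congr (e := e) (a := a) h1).self_of_nhds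
    rw [this]
    unfold H269.Ld
    have : ∀ j, db e j (fun _ : E => (1 : ℝ)) = fun _ => 0 := fun j => funext fun z => db_const 1 j z
    simp only [this, mul_zero]
    simp [db_const]
  unfold T1
  rw [Qd_p4 ha hs hχ hg, c, c, c, c2, e0, h2]
  nlinarith [sq_nonneg (Qd e a W g z)]

variable [FiniteDimensional ℝ E] [MeasurableSpace E] [BorelSpace E] {μ : Measure E}
  [μ.IsAddHaarMeasure]

/-- the local estimate -/
theorem top_loc {a : ι → J → J → E → ℝ} (ha : ∀ k i j, S (a k i j))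
    (hs : ∀ k i j z, a k i j z = a k j i z) (hp : ∀ k, Pos (a k)) (hW : S W) (hg : S g)
    (hχ : S χ) (hχc : HasCompactSupport χ) (hψ : S ψ) (hw0 : ∀ z, 0 ≤ χ z) (hw1 : ∀ z, χ z ≤ 1)
    (hp0 : ∀ z, 0 ≤ ψ z) (hp1 : ∀ z, ψ z ≤ 1) {m C : ℝ} (hC : 0 ≤ C) (hm : 0 ≤ m)
    (hmC : m ≤ C) {N : Set E} (hNm : MeasurableSet N)
    (heq : ∀ z ∈ tsupport χ,
      ∑ k, Qd e (a k) (fun z => -W z) (Qd e (a k) W g) z = 0)
    (hN : ∀ z ∈ tsupport χ, z ∉ N → χ =ᶠ[𝓝 z] (fun _ => 1) ∧ ψ z = 0)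
    (hb : ∀ z ∈ tsupport χ, z ∈ N → ∀ k, Bd e (a k) W χ ψ m C z) :
    ∫ z, χ z ^ 4 * ∑ k, Qd e (a k) W g z ^ 2 ∂μ
      ≤ (2 ^ 21 * (C + 1) ^ 2 * Fintype.card ι) * ∫ z in tsupport χ ∩ N, g z ^ 2 ∂μ := by
  have s4g : S (fun z => p4 χ z * g z) := hχ.p4.mul hg
  have ts4 : tsupport (p4 χ) ⊆ tsupport χ :=
    (tsupport_mul_subset_left (f := fun z => χ z * χ z) (g := fun z => χ z * χ z)).trans
      (tsupport_mul_subset_left (f := χ) (g := χ))
  have c4g : HasCompactSupport (fun z => p4 χ z * g z) :=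
    cs_mul_right (cs_ts hχc ts4)
  have sφ : S (fun z => χ z * ψ z) := hχ.mul hψ
  have cφ : HasCompactSupport (fun z => χ z * ψ z) := cs_mul_right hχc
  -- the integral of `T1` vanishes
  have I1 : ∀ k, Integrable (fun z => Qd e (a k) W g z * Qd e (a k) W (fun z => p4 χ z * g z) z) μ :=
    fun k => S.int ((S.Qd (ha k) hW hg).mul (S.Qd (ha k) hW s4g)) (cs_mul_left (cs_Qd c4g))
  have I2 : ∀ k, Integrable (fun z => ((χ z * ψ z) ^ 2 * g z) * Ld e (a k) g z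
      + (χ z * ψ z) ^ 2 * Gm e (a k) g g z
      + 2 * (χ z * ψ z * g z * Gm e (a k) (fun z => χ z * ψ z) g z)) μ := by
    intro k
    have q1 : S (fun z => (χ z * ψ z) ^ 2) := sφ.pow 2
    have q1c : HasCompactSupport (fun z => (χ z * ψ z) ^ 2) := by
      have := cs_mul_right (g := fun z => χ z * ψ z) cφ
      simpa only [pow_two] using this
    have j1 : Integrable (fun z => ((χ z * ψ z) ^ 2 * g z) * Ld e (a k) g z) μ :=
      S.int ((q1.mul hg).mul (S.Ld (ha k) hg)) (cs_mul_right (cs_mul_right q1c))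
    have j2 : Integrable (fun z => (χ z * ψ z) ^ 2 * Gm e (a k) g g z) μ :=
      S.int (q1.mul (S.Gm (ha k) hg hg)) (cs_mul_right q1c)
    have j3 : Integrable (fun z => 2 * (χ z * ψ z * g z * Gm e (a k) (fun z => χ z * ψ z) g z)) μ :=
      S.int (contDiff_const.mul ((sφ.mul hg).mul (S.Gm (ha k) sφ hg)))
        (cs_mul_left (cs_mul_right (cs_mul_right cφ)))
    exact (j1.add j2).add j3
  have IT : ∀ k, Integrable (fun z => T1 e (a k) W g χ ψ m z) μ :=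
    fun k => (I1 k).add ((I2 k).const_mul (256 * m))
  have z2 : ∀ k, ∫ z, (((χ z * ψ z) ^ 2 * g z) * Ld e (a k) g z
      + (χ z * ψ z) ^ 2 * Gm e (a k) g g z
      + 2 * (χ z * ψ z * g z * Gm e (a k) (fun z => χ z * ψ z) g z)) ∂μ = 0 :=
    fun k => int_cac (ha k) sφ cφ hg
  have eT : ∀ k, ∫ z, T1 e (a k) W g χ ψ m z ∂μ
      = ∫ z, (p4 χ z * g z) * Qd e (a k) (fun z => -W z) (Qd e (a k) W g) z ∂μ := by
    intro k
    have h1 : ∫ z, T1 e (a k) W g χ ψ m z ∂μ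
        = ∫ z, Qd e (a k) W g z * Qd e (a k) W (fun z => p4 χ z * g z) z ∂μ := by
      unfold T1
      rw [integral_add (I1 k) ((I2 k).const_mul (256 * m)), integral_const_mul, z2 k, mul_zero,
        add_zero]
    rw [h1, int_Qd (ha k) (hs k) hW s4g (S.Qd (ha k) hW hg) (Or.inl c4g)]
    congr 1
    ext z
    ring
  have IQ : ∀ k, Integrable (fun z =>
      (p4 χ z * g z) * Qd e (a k) (fun z => -W z) (Qd e (a k) W g) z) μ :=
    fun k => S.int (s4g.mul (S.Qd (ha k) hW.neg (S.Qd (ha k) hW hg))) (cs_mul_right c4g)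
  have zT : ∫ z, ∑ k, T1 e (a k) W g χ ψ m z ∂μ = 0 := by
    rw [integral_finsetSum _ fun k _ => IT k, Finset.sum_congr rfl fun k _ => eT k,
      ← integral_finsetSum _ fun k _ => IQ k]
    rw [← integral_zero E ℝ]
    refine integral_congr_ae (Eventually.of_forall fun z => ?_)
    simp only
    rw [← Finset.mul_sum]
    by_cases hz : z ∈ tsupport χ
    · rw [heq z hz, mul_zero]
    · have : χ z = 0 := image_eq_zero_of_notMem_tsupport hz
      unfold H269.p4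
      rw [this]
      ring
  -- the lower bound
  have Ig : Integrable (fun z => (tsupport χ ∩ N).indicator (fun z => g z ^ 2) z) μ := by
    rw [integrable_indicator_iff ((isClosed_tsupport χ).measurableSet.inter hNm)]
    have : IntegrableOn (fun z => g z ^ 2) (tsupport χ) μ :=
      ((hg.continuous.pow 2).continuousOn).integrableOn_compact hχc
    exact this.mono_set inter_subset_left
  have IX : Integrable (fun z => χ z ^ 4 * ∑ k, Qd e (a k) W g z ^ 2) μ := by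
    have s1 : S (fun z => χ z ^ 4 * ∑ k, Qd e (a k) W g z ^ 2) :=
      (hχ.pow 4).mul (S.sum fun k _ => (S.Qd (ha k) hW hg).pow 2)
    refine S.int s1 (cs_ts hχc ?_)
    have : (fun z => χ z ^ 4 * ∑ k, Qd e (a k) W g z ^ 2)
        = fun z => χ z * (χ z ^ 3 * ∑ k, Qd e (a k) W g z ^ 2) := by
      ext z
      ring
    rw [this]
    exact ts_mul_left _ _
  have lb : ∀ z, (χ z ^ 4 * ∑ k, Qd e (a k) W g z ^ 2) / 2
      - (Fintype.card ι * (2 ^ 20 * (C + 1) ^ 2)) * (tsupport χ ∩ N).indicator (fun z => g z ^ 2) z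
      ≤ ∑ k, T1 e (a k) W g χ ψ m z := by
    intro z
    by_cases hz : z ∈ tsupport χ
    · by_cases hzN : z ∈ N
      · rw [indicator_of_mem (show z ∈ tsupport χ ∩ N from ⟨hz, hzN⟩)]
        have h1 : ∑ k : ι, (χ z ^ 4 * Qd e (a k) W g z ^ 2 / 2 - (2 ^ 20 * (C + 1) ^ 2) * g z ^ 2)
            ≤ ∑ k, T1 e (a k) W g χ ψ m z :=
          Finset.sum_le_sum fun k _ => T1_lb (ha k) (hs k) (hp k) hg hχ hC hm hmC (hw0 z)
            (hw1 z) (hp0 z) (hp1 z) (hb z hz hzN k)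
        refine le_trans (le_of_eq ?_) h1
        rw [Finset.sum_sub_distrib, Finset.sum_const, Finset.card_univ, nsmul_eq_mul,
          ← Finset.sum_div, ← Finset.mul_sum]
        ring
      · rw [indicator_of_notMem (fun h => hzN h.2)]
        obtain ⟨h1, h2⟩ := hN z hz hzN
        have h3 : ∑ k : ι, (χ z ^ 4 * Qd e (a k) W g z ^ 2 / 2)
            ≤ ∑ k, T1 e (a k) W g χ ψ m z :=
          Finset.sum_le_sum fun k _ => T1_one (ha k) (hs k) hχ hg h1 h2
        refine le_trans (le_of_eq ?_) h3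
        rw [← Finset.sum_div, ← Finset.mul_sum]
        ring
    · rw [indicator_of_notMem (fun h => hz h.1)]
      have w0 : χ z = 0 := image_eq_zero_of_notMem_tsupport hz
      have h3 : ∀ k, T1 e (a k) W g χ ψ m z = 0 := by
        intro k
        unfold T1
        rw [Qd_p4 (ha k) (hs k) hχ hg, w0]
        ring
      rw [Finset.sum_congr rfl fun k _ => h3 k, w0]
      simp
  have fin : ∫ z, ((χ z ^ 4 * ∑ k, Qd e (a k) W g z ^ 2) / 2
      - (Fintype.card ι * (2 ^ 20 * (C + 1) ^ 2))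
        * (tsupport χ ∩ N).indicator (fun z => g z ^ 2) z) ∂μ ≤ 0 := by
    rw [← zT]
    exact integral_mono ((IX.div_const 2).sub (Ig.const_mul _))
      (integrable_finsetSum _ fun k _ => IT k) lb
  rw [integral_sub (IX.div_const 2) (Ig.const_mul _), integral_div, integral_const_mul,
    integral_indicator ((isClosed_tsupport χ).measurableSet.inter hNm)] at fin
  have e3 : (2 ^ 21 * (C + 1) ^ 2 * (Fintype.card ι : ℝ))
      = 2 * (Fintype.card ι * (2 ^ 20 * (C + 1) ^ 2)) := by ring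
  rw [e3]
  linarith

end Vale.Agent.P088.R2.H269
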