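import Vale.Agent.P088.R2.H269.W.W4

/-!
# P088, stage 3: vanishing in the top degree, arbitrary open set and arbitrary weight
-/

open MeasureTheory Set Filter
open scoped ContDiff Matrix Topology

noncomputable section

set_option linter.unusedSectionVars false

namespace Vale.Agent.P088.R2.H269

open Vale.Agent.P088.LR Vale.Agent.P088.HY

section Cut

variable {E : Type} [NormedAddCommGroup E] [NormedSpace ℝ E] [FiniteDimensional ℝ E]

/-- A cut-off function: `1` near the compact set `P`, compactly supported in `O`. -/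
theorem exists_cut {O P : Set E} (hO : IsOpen O) (hP : IsCompact P) (hPO : P ⊆ O) :
    ∃ κ : E → ℝ, ContDiff ℝ ∞ κ ∧ HasCompactSupport κ ∧ tsupport κ ⊆ O ∧
      ∀ x ∈ P, κ =ᶠ[𝓝 x] fun _ => 1 := by
  obtain ⟨δ, hδ, hδO⟩ := hP.exists_cthickening_subset_open hO hPO
  obtain ⟨δ₁, h1, h2⟩ := exists_between hδ
  have hcl : IsClosed (Metric.cthickening δ₁ P) := Metric.isClosed_cthickening
  have hsub : Metric.cthickening δ₁ P ⊆ Metric.thickening δ P :=
    Metric.cthickening_subset_thickening' hδ h2 P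
  obtain ⟨f, f1, f2, f3, f4⟩ := exists_contMDiff_support_eq_eq_one_iff (n := (⊤ : ℕ∞))
    (modelWithCornersSelf ℝ E) (Metric.isOpen_thickening (δ := δ) (E := P)) hcl hsub
  have hts : tsupport f ⊆ Metric.cthickening δ P := by
    refine closure_minimal ?_ Metric.isClosed_cthickening
    rw [f3]
    exact Metric.thickening_subset_cthickening δ P
  refine ⟨f, contMDiff_iff_contDiff.1 f1, hP.cthickening.of_isClosed_subset (isClosed_tsupport f)
    hts, hts.trans hδO, fun x hx => ?_⟩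
  have hn : Metric.thickening δ₁ P ∈ 𝓝 x :=
    Metric.isOpen_thickening.mem_nhds (Metric.self_subset_thickening h1 P hx)
  filter_upwards [hn] with y hy
  exact (f4 y).1 (Metric.thickening_subset_cthickening δ₁ P hy)

/-- cutting off a function -/
lemma S.cut {O : Set E} {κ f : E → ℝ} (hO : IsOpen O) (hκ : ContDiff ℝ ∞ κ)
    (hκO : tsupport κ ⊆ O) (hf : ContDiffOn ℝ ∞ f O) : S (fun z => κ z * f z) := by
  refine contDiff_iff_contDiffAt.2 fun z => ?_
  by_cases hz : z ∈ tsupport κ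
  · exact hκ.contDiffAt.mul (hf.contDiffAt (hO.mem_nhds (hκO hz)))
  · have h1 : (fun z => κ z * f z) =ᶠ[𝓝 z] fun _ => (0 : ℝ) := by
      filter_upwards [notMem_tsupport_iff_eventuallyEq.1 hz] with w hw
      rw [hw]
      simp
    exact contDiffAt_const.congr_of_eventuallyEq h1

variable [MeasurableSpace E] [BorelSpace E] {μ : Measure E} [μ.IsAddHaarMeasure]

/-- the integral outside a large compact set is small -/
theorem exists_small {U K : Set E} (hU : IsOpen U) (hK : IsCompact K) (hKU : K ⊆ U) {g : E → ℝ}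
    (hg : IntegrableOn (fun z => g z ^ 2) U μ) {ε : ℝ} (hε : 0 < ε) :
    ∃ K' : Set E, IsCompact K' ∧ K ⊆ K' ∧ K' ⊆ U ∧ ∫ z in U \ K', g z ^ 2 ∂μ ≤ ε := by
  set ν : Measure E := (μ.restrict U).withDensity fun z => ENNReal.ofReal (g z ^ 2) with hν
  have fin : IsFiniteMeasure ν := isFiniteMeasure_withDensity_ofReal hg.2
  obtain ⟨K1, hK1U, hK1, hlt⟩ := hU.measurableSet.exists_isCompact_sdiff_lt (μ := ν)
    (measure_ne_top _ _) (ε := ENNReal.ofReal ε) (by simpa using hε)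
  refine ⟨K ∪ K1, hK.union hK1, subset_union_left, union_subset hKU hK1U, ?_⟩
  have hm : MeasurableSet (U \ (K ∪ K1)) :=
    hU.measurableSet.diff (hK.union hK1).measurableSet
  have h1 : ν (U \ (K ∪ K1)) ≤ ENNReal.ofReal ε :=
    (measure_mono (sdiff_subset_sdiff_right subset_union_right)).trans hlt.le
  rw [hν, withDensity_apply _ hm, Measure.restrict_restrict hm,
    inter_eq_self_of_subset_left sdiff_subset] at h1
  have h2 : ∫ z in U \ (K ∪ K1), g z ^ 2 ∂μ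
      = (∫⁻ z in U \ (K ∪ K1), ENNReal.ofReal (g z ^ 2) ∂μ).toReal := by
    rw [integral_eq_lintegral_of_nonneg_ae (Eventually.of_forall fun z => sq_nonneg (g z))]
    exact (hg.mono_set sdiff_subset).1
  rw [h2]
  exact ENNReal.toReal_le_of_le_ofReal hε.le h1

end Cut

variable {J E ι : Type} [Fintype J] [Fintype ι] [NormedAddCommGroup E] [NormedSpace ℝ E]
  {e : J → E} {f g h W χ ψ : E → ℝ}

/-- The exhaustion of `U`: cut-offs with bounds by `C`. -/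
def Ex (U : Set E) (e : J → E) (a : ι → J → J → E → ℝ) (W : E → ℝ) (C : ℝ) : Prop :=
  ∀ K : Set E, IsCompact K → K ⊆ U → ∃ (χ ψ : E → ℝ) (m : ℝ), ContDiff ℝ ∞ χ ∧
    HasCompactSupport χ ∧ tsupport χ ⊆ U ∧ ContDiff ℝ ∞ ψ ∧ (∀ z, 0 ≤ χ z) ∧ (∀ z, χ z ≤ 1) ∧
    (∀ z, 0 ≤ ψ z) ∧ (∀ z, ψ z ≤ 1) ∧ 0 ≤ m ∧ m ≤ C ∧
    (∀ z ∈ K, χ =ᶠ[𝓝 z] (fun _ => 1) ∧ ψ z = 0) ∧
    (∀ z ∈ tsupport χ, z ∉ K → ∀ k, Bd e (a k) W χ ψ m C z) ∧
    ∀ z ∈ tsupport χ, m * Real.exp (-(2 * W z)) ≤ C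

lemma Bd.congr {a : J → J → E → ℝ} {W W' χ ψ : E → ℝ} {m C : ℝ} {z : E}
    (h : Bd e a W χ ψ m C z) (hW : W =ᶠ[𝓝 z] W') : Bd e a W' χ ψ m C z := by
  refine ⟨h.c1, ?_, ?_, h.c5, h.c6, h.hc⟩
  · rw [← (Gm_congr (e := e) (a := a) hW hW).self_of_nhds]
    exact h.c3
  · rw [← (Ld_congr (e := e) (a := a) hW).self_of_nhds]
    exact h.c4

variable [FiniteDimensional ℝ E] [MeasurableSpace E] [BorelSpace E] {μ : Measure E}
  [μ.IsAddHaarMeasure]

lemma cont_Qd {U : Set E} (hU : IsOpen U) {a : J → J → E → ℝ} (ha : ∀ i j, S (a i j))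
    (hW : ContDiffOn ℝ ∞ W U) (hg : ContDiffOn ℝ ∞ g U) {z : E} (hz : z ∈ U) :
    ContDiffAt ℝ ∞ (Qd e a W g) z := by
  obtain ⟨κ, k1, k2, k3, k4⟩ := exists_cut hU (isCompact_singleton (x := z))
    (singleton_subset_iff.2 hz)
  have h1 := k4 z rfl
  have h2 : Qd e a (fun z => κ z * W z) (fun z => κ z * g z) =ᶠ[𝓝 z] Qd e a W g :=
    Qd_congr (cut_ev h1) (cut_ev h1)
  exact ((S.Qd ha (S.cut hU k1 k3 hW) (S.cut hU k1 k3 hg)).contDiffAt).congr_of_eventuallyEq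
    h2.symm

/-- a continuous nonnegative function with vanishing integral -/
lemma zero_of_int {F : E → ℝ} {K₀ : Set E} {z₀ : E} (hK₀n : K₀ ∈ 𝓝 z₀)
    (hF : ContinuousOn F K₀) (IX : IntegrableOn F K₀ μ) (nn : ∀ z, 0 ≤ F z)
    (z1 : ∫ z in K₀, F z ∂μ ≤ 0) : F z₀ = 0 := by
  by_contra hne
  have hpos : 0 < F z₀ := lt_of_le_of_ne (nn z₀) (Ne.symm hne)
  have hc0 : ContinuousAt F z₀ := hF.continuousAt hK₀n
  have hev : ∀ᶠ z in 𝓝 z₀, F z₀ / 2 < F z := hc0.eventually (lt_mem_nhds (half_lt_self hpos))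
  obtain ⟨r, hr, hball⟩ := Metric.mem_nhds_iff.1 (inter_mem hev hK₀n)
  have hBK : Metric.ball z₀ r ⊆ K₀ := fun z hz => (hball hz).2
  have hvol : 0 < μ.real (Metric.ball z₀ r) :=
    ENNReal.toReal_pos (Metric.measure_ball_pos μ z₀ hr).ne' measure_ball_lt_top.ne
  have h5 : F z₀ / 2 * μ.real (Metric.ball z₀ r) ≤ ∫ z in Metric.ball z₀ r, F z ∂μ := by
    have h6 : ∫ _ in Metric.ball z₀ r, F z₀ / 2 ∂μ ≤ ∫ z in Metric.ball z₀ r, F z ∂μ :=
      setIntegral_mono_on (integrableOn_const measure_ball_lt_top.ne) (IX.mono_set hBK)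
        measurableSet_ball fun z hz => (hball hz).1.le
    rw [setIntegral_const, smul_eq_mul] at h6
    linarith
  have h7 : ∫ z in Metric.ball z₀ r, F z ∂μ ≤ ∫ z in K₀, F z ∂μ :=
    setIntegral_mono_set IX (Eventually.of_forall nn) (Eventually.of_forall hBK)
  have h8 : 0 < F z₀ / 2 * μ.real (Metric.ball z₀ r) := by positivity
  linarith

/-- the estimate for one pair of cut-offs -/
theorem top_key {U : Set E} (hU : IsOpen U) {a : ι → J → J → E → ℝ}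
    (ha : ∀ k i j, S (a k i j)) (hs : ∀ k i j z, a k i j z = a k j i z) (hp : ∀ k, Pos (a k))
    (hW : ContDiffOn ℝ ∞ W U) {C : ℝ} (hC : 0 ≤ C) (hex : Ex U e a W C) (hg : ContDiffOn ℝ ∞ g U)
    (hgi : IntegrableOn (fun z => g z ^ 2) U μ)
    (heq : ∀ z ∈ U, ∑ k, Qd e (a k) (fun z => -W z) (Qd e (a k) W g) z = 0)
    {K₀ : Set E} (hK₀ : IsCompact K₀) (hK₀U : K₀ ⊆ U) {ε : ℝ} (hε : 0 < ε) :
    ∫ z in K₀, ∑ k, Qd e (a k) W g z ^ 2 ∂μ ≤ 2 ^ 21 * (C + 1) ^ 2 * Fintype.card ι * ε := by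
  obtain ⟨K, hK, hK0K, hKU, hKε⟩ := exists_small hU hK₀ hK₀U hgi hε
  obtain ⟨χ, ψ, m, sχ, cχ, tχ, sψ, χ0, χ1, ψ0, ψ1, m0, mC, hin, hbd, -⟩ := hex K hK hKU
  obtain ⟨κ, k1, k2, k3, k4⟩ := exists_cut hU cχ tχ
  have sW' : S (fun z => κ z * W z) := S.cut hU k1 k3 hW
  have sg' : S (fun z => κ z * g z) := S.cut hU k1 k3 hg
  have evW : ∀ z ∈ tsupport χ, (fun z => κ z * W z) =ᶠ[𝓝 z] W := fun z hz => cut_ev (k4 z hz)
  have evg : ∀ z ∈ tsupport χ, (fun z => κ z * g z) =ᶠ[𝓝 z] g := fun z hz => cut_ev (k4 z hz)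
  have evQ : ∀ z ∈ tsupport χ, ∀ k, Qd e (a k) (fun z => κ z * W z) (fun z => κ z * g z)
      =ᶠ[𝓝 z] Qd e (a k) W g := fun z hz k => Qd_congr (evW z hz) (evg z hz)
  have evP : ∀ z ∈ tsupport χ, ∀ k, Qd e (a k) (fun z => -(κ z * W z))
      (Qd e (a k) (fun z => κ z * W z) (fun z => κ z * g z)) z
      = Qd e (a k) (fun z => -W z) (Qd e (a k) W g) z := fun z hz k =>
    (Qd_congr (EventuallyEq.neg (evW z hz)) (evQ z hz k)).self_of_nhds
  have main := top_loc (μ := μ) (e := e) ha hs hp sW' sg' sχ cχ sψ χ0 χ1 ψ0 ψ1 hC m0 mC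
    (N := Kᶜ) hK.measurableSet.compl
    (fun z hz => by
      rw [Finset.sum_congr rfl fun k _ => evP z hz k]
      exact heq z (tχ hz))
    (fun z hz hn => hin z (not_not.1 hn))
    (fun z hz hn k => (hbd z hz hn k).congr (evW z hz).symm)
  have r1 : ∫ z in tsupport χ ∩ Kᶜ, (κ z * g z) ^ 2 ∂μ ≤ ε := by
    have e1 : ∫ z in tsupport χ ∩ Kᶜ, (κ z * g z) ^ 2 ∂μ = ∫ z in tsupport χ ∩ Kᶜ, g z ^ 2 ∂μ := by
      refine setIntegral_congr_fun ((isClosed_tsupport χ).measurableSet.inter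
        hK.measurableSet.compl) fun z hz => ?_
      have := (k4 z hz.1).self_of_nhds
      simp only [this, one_mul]
    rw [e1]
    refine le_trans (setIntegral_mono_set (hgi.mono_set sdiff_subset)
      (Eventually.of_forall fun z => sq_nonneg (g z)) ?_) hKε
    refine (Eventually.of_forall fun z hz => ?_)
    exact ⟨tχ hz.1, hz.2⟩
  have l1 : ∫ z in K₀, ∑ k, Qd e (a k) W g z ^ 2 ∂μ
      ≤ ∫ z, χ z ^ 4 * ∑ k, Qd e (a k) (fun z => κ z * W z) (fun z => κ z * g z) z ^ 2 ∂μ := by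
    have s1 : S (fun z => χ z ^ 4 *
        ∑ k, Qd e (a k) (fun z => κ z * W z) (fun z => κ z * g z) z ^ 2) :=
      (sχ.pow 4).mul (S.sum fun k _ => (S.Qd (ha k) sW' sg').pow 2)
    have c1 : HasCompactSupport (fun z => χ z ^ 4 *
        ∑ k, Qd e (a k) (fun z => κ z * W z) (fun z => κ z * g z) z ^ 2) := by
      refine cs_ts cχ ?_
      have : (fun z => χ z ^ 4 * ∑ k, Qd e (a k) (fun z => κ z * W z) (fun z => κ z * g z) z ^ 2)
          = fun z => χ z * (χ z ^ 3 *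
            ∑ k, Qd e (a k) (fun z => κ z * W z) (fun z => κ z * g z) z ^ 2) := by
        ext z
        ring
      rw [this]
      exact ts_mul_left _ _
    have i1 := S.int (μ := μ) s1 c1
    have e1 : ∫ z in K₀, ∑ k, Qd e (a k) W g z ^ 2 ∂μ = ∫ z in K₀, χ z ^ 4 *
        ∑ k, Qd e (a k) (fun z => κ z * W z) (fun z => κ z * g z) z ^ 2 ∂μ := by
      refine setIntegral_congr_fun hK₀.measurableSet fun z hz => ?_
      have h1 := (hin z (hK0K hz)).1.self_of_nhds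
      have hz' : z ∈ tsupport χ := subset_tsupport _ (by
        rw [Function.mem_support, h1]
        norm_num)
      simp only [h1, one_pow, one_mul]
      exact Finset.sum_congr rfl fun k _ => by rw [(evQ z hz' k).self_of_nhds]
    rw [e1]
    refine setIntegral_le_integral i1 (Eventually.of_forall fun z => ?_)
    exact mul_nonneg (pow_nonneg (χ0 z) 4) (Finset.sum_nonneg fun k _ => sq_nonneg _)
  have hD0 : 0 ≤ 2 ^ 21 * (C + 1) ^ 2 * (Fintype.card ι : ℝ) := by positivity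
  calc _ ≤ _ := l1
    _ ≤ _ := main
    _ ≤ _ := mul_le_mul_of_nonneg_left r1 hD0

/-- Vanishing in the top degree, first half: the factors vanish. -/
theorem top_half {U : Set E} (hU : IsOpen U) {a : ι → J → J → E → ℝ}
    (ha : ∀ k i j, S (a k i j)) (hs : ∀ k i j z, a k i j z = a k j i z) (hp : ∀ k, Pos (a k))
    (hW : ContDiffOn ℝ ∞ W U) {C : ℝ} (hex : Ex U e a W C) (hg : ContDiffOn ℝ ∞ g U)
    (hgi : IntegrableOn (fun z => g z ^ 2) U μ)
    (heq : ∀ z ∈ U, ∑ k, Qd e (a k) (fun z => -W z) (Qd e (a k) W g) z = 0) :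
    ∀ z ∈ U, ∀ k, Qd e (a k) W g z = 0 := by
  intro z₀ hz₀ k₀
  obtain ⟨K₀, hK₀, hK₀n, hK₀U⟩ : ∃ K₀, IsCompact K₀ ∧ K₀ ∈ 𝓝 z₀ ∧ K₀ ⊆ U := by
    obtain ⟨K₀, h1, h2, h3⟩ := local_compact_nhds (hU.mem_nhds hz₀)
    exact ⟨K₀, h3, h1, h2⟩
  have cQ : ∀ k, ContinuousOn (Qd e (a k) W g) K₀ := fun k z hz =>
    (cont_Qd hU (ha k) hW hg (hK₀U hz)).continuousAt.continuousWithinAt
  have cX : ContinuousOn (fun z => ∑ k, Qd e (a k) W g z ^ 2) K₀ :=
    continuousOn_finsetSum _ fun k _ => (cQ k).pow 2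
  have IX : IntegrableOn (fun z => ∑ k, Qd e (a k) W g z ^ 2) K₀ μ :=
    cX.integrableOn_compact hK₀
  have nn : ∀ z, 0 ≤ ∑ k, Qd e (a k) W g z ^ 2 := fun z => Finset.sum_nonneg fun k _ => sq_nonneg _
  have hC : 0 ≤ C := by
    obtain ⟨χ, ψ, m, -, -, -, -, -, -, -, -, h1, h2, -⟩ := hex K₀ hK₀ hK₀U
    exact h1.trans h2
  set D : ℝ := 2 ^ 21 * (C + 1) ^ 2 * Fintype.card ι with hD
  have hD0 : 0 ≤ D := by positivity
  have z1 : ∫ z in K₀, ∑ k, Qd e (a k) W g z ^ 2 ∂μ ≤ 0 := by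
    refine le_of_forall_pos_le_add fun ε hε => ?_
    have hε' : 0 < ε / (D + 1) := by positivity
    have := top_key (μ := μ) hU ha hs hp hW hC hex hg hgi heq hK₀ hK₀U hε'
    have h3 : D * (ε / (D + 1)) ≤ ε := by
      rw [mul_div_assoc', div_le_iff₀ (by positivity)]
      nlinarith
    linarith
  have h0 := zero_of_int (μ := μ) hK₀n cX IX nn z1
  have h1 := (Finset.sum_eq_zero_iff_of_nonneg fun k _ => sq_nonneg (Qd e (a k) W g z₀)).1 h0 k₀
    (Finset.mem_univ _)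
  exact pow_eq_zero_iff (two_ne_zero) |>.1 h1

end Vale.Agent.P088.R2.H269
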