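import Vale.Agent.P088.R2.H269.W.W5

/-!
# P088, stage 3: vanishing in the top degree, second half
-/

open MeasureTheory Set Filter
open scoped ContDiff Matrix Topology

noncomputable section

set_option linter.unusedSectionVars false

namespace Vale.Agent.P088.R2.H269

open Vale.Agent.P088.LR Vale.Agent.P088.HY

variable {J E ι : Type} [Fintype J] [Fintype ι] [NormedAddCommGroup E] [NormedSpace ℝ E]
  {e : J → E} {f g h W χ ψ : E → ℝ}
  [FiniteDimensional ℝ E] [MeasurableSpace E] [BorelSpace E] {μ : Measure E}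
  [μ.IsAddHaarMeasure]

/-- Caccioppoli's inequality, global smooth functions -/
theorem cac_loc {a : J → J → E → ℝ} (ha : ∀ i j, S (a i j)) (hs : ∀ i j z, a i j z = a j i z)
    (hp : Pos a) (hh : S h) (hχ : S χ) (hc : HasCompactSupport χ)
    (h0 : ∀ z ∈ tsupport χ, Ld e a h z = 0) :
    ∫ z, χ z ^ 2 * Gm e a h h z ∂μ ≤ 4 * ∫ z, Gm e a χ χ z * h z ^ 2 ∂μ := by
  have c := int_cac (μ := μ) (e := e) ha hχ hc hh
  have s2 : S (fun z => χ z ^ 2) := hχ.pow 2
  have c2 : HasCompactSupport (fun z => χ z ^ 2) := by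
    have := cs_mul_right (g := χ) hc
    simpa only [pow_two] using this
  have I1 : Integrable (fun z => χ z ^ 2 * Gm e a h h z) μ :=
    S.int (s2.mul (S.Gm ha hh hh)) (cs_mul_right c2)
  have I2 : Integrable (fun z => Gm e a χ χ z * h z ^ 2) μ :=
    S.int ((S.Gm ha hχ hχ).mul (hh.pow 2)) (cs_mul_right (cs_Gm_left hc χ))
  have I3 : Integrable (fun z => χ z ^ 2 * h z * Ld e a h z + χ z ^ 2 * Gm e a h h z
      + 2 * (χ z * h z * Gm e a χ h z)) μ := by
    have j1 : Integrable (fun z => χ z ^ 2 * h z * Ld e a h z) μ :=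
      S.int ((s2.mul hh).mul (S.Ld ha hh)) (cs_mul_right (cs_mul_right c2))
    have j3 : Integrable (fun z => 2 * (χ z * h z * Gm e a χ h z)) μ :=
      S.int (contDiff_const.mul ((hχ.mul hh).mul (S.Gm ha hχ hh)))
        (cs_mul_left (cs_mul_right (cs_mul_right hc)))
    exact (j1.add I1).add j3
  have hle : ∫ z, (χ z ^ 2 * Gm e a h h z / 2 - 2 * (Gm e a χ χ z * h z ^ 2)) ∂μ ≤ 0 := by
    rw [← c]
    refine integral_mono ((I1.div_const 2).sub (I2.const_mul 2)) I3 fun z => ?_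
    simp only
    have k1 : χ z ^ 2 * h z * Ld e a h z = 0 := by
      by_cases hz : z ∈ tsupport χ
      · rw [h0 z hz, mul_zero]
      · rw [image_eq_zero_of_notMem_tsupport hz]
        ring
    have G1 := Gm_nonneg (e := e) hp h z
    have G2 := Gm_nonneg (e := e) hp χ z
    have k2 := cs_am (y := h z) (D := χ z * Gm e a χ h z) (G := Gm e a χ χ z)
      (H := χ z ^ 2 * Gm e a h h z) (by
        calc (χ z * Gm e a χ h z) ^ 2 = χ z ^ 2 * Gm e a χ h z ^ 2 := by ring
          _ ≤ χ z ^ 2 * (Gm e a χ χ z * Gm e a h h z) :=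
            mul_le_mul_of_nonneg_left (Gm_cs hp hs χ h z) (sq_nonneg _)
          _ = _ := by ring) G2 (by positivity)
    have k3 : (2 * (χ z * h z * Gm e a χ h z)) ^ 2
        ≤ (χ z ^ 2 * Gm e a h h z / 2 + 2 * (Gm e a χ χ z * h z ^ 2)) ^ 2 := by
      have l1 := Gm_cs (e := e) hp hs χ h z
      have l2 : (χ z * h z) ^ 2 * Gm e a χ h z ^ 2
          ≤ (χ z * h z) ^ 2 * (Gm e a χ χ z * Gm e a h h z) :=
        mul_le_mul_of_nonneg_left l1 (sq_nonneg _)
      have l3 := sq_nonneg (χ z ^ 2 * Gm e a h h z / 2 - 2 * (Gm e a χ χ z * h z ^ 2))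
      linarith only [l2, l3]
    have k4 := (abs_le_of_sq_le_sq' k3 (by positivity)).1
    linarith only [k1, k4]
  rw [integral_sub (I1.div_const 2) (I2.const_mul 2), integral_div, integral_const_mul] at hle
  linarith

/-- Solutions with `e^W h` square integrable have vanishing energy. -/
theorem energy_zero {U : Set E} (hU : IsOpen U) {a : ι → J → J → E → ℝ}
    (ha : ∀ k i j, S (a k i j)) (hs : ∀ k i j z, a k i j z = a k j i z) (hp : ∀ k, Pos (a k))
    {C : ℝ} (hex : Ex U e a W C) (hh : ContDiffOn ℝ ∞ h U)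
    (hgi : IntegrableOn (fun z => (Real.exp (W z) * h z) ^ 2) U μ)
    (heq : ∀ z ∈ U, ∀ k, Ld e (a k) h z = 0) :
    ∀ z ∈ U, ∀ k, Gm e (a k) h h z = 0 := by
  intro z₀ hz₀ k₀
  obtain ⟨K₀, hK₀, hK₀n, hK₀U⟩ : ∃ K₀, IsCompact K₀ ∧ K₀ ∈ 𝓝 z₀ ∧ K₀ ⊆ U := by
    obtain ⟨K₀, h1, h2, h3⟩ := local_compact_nhds (hU.mem_nhds hz₀)
    exact ⟨K₀, h3, h1, h2⟩
  have cG : ∀ z ∈ U, ContDiffAt ℝ ∞ (Gm e (a k₀) h h) z := by
    intro z hz
    obtain ⟨κ, k1, k2, k3, k4⟩ := exists_cut hU (isCompact_singleton (x := z))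
      (singleton_subset_iff.2 hz)
    have h1 := k4 z rfl
    have h2 : Gm e (a k₀) (fun z => κ z * h z) (fun z => κ z * h z) =ᶠ[𝓝 z] Gm e (a k₀) h h :=
      Gm_congr (cut_ev h1) (cut_ev h1)
    exact ((S.Gm (ha k₀) (S.cut hU k1 k3 hh) (S.cut hU k1 k3 hh)).contDiffAt).congr_of_eventuallyEq
      h2.symm
  have cX : ContinuousOn (fun z => Gm e (a k₀) h h z) K₀ := fun z hz =>
    (cG z (hK₀U hz)).continuousAt.continuousWithinAt
  have IX : IntegrableOn (fun z => Gm e (a k₀) h h z) K₀ μ := cX.integrableOn_compact hK₀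
  have hC : 0 ≤ C := by
    obtain ⟨χ, ψ, m, -, -, -, -, -, -, -, -, h1, h2, -⟩ := hex K₀ hK₀ hK₀U
    exact h1.trans h2
  refine zero_of_int (μ := μ) hK₀n cX IX (fun z => Gm_nonneg (hp k₀) h z) ?_
  refine le_of_forall_pos_le_add fun ε hε => ?_
  obtain ⟨K, hK, hK0K, hKU, hKε⟩ := exists_small hU hK₀ hK₀U hgi
    (show (0 : ℝ) < ε / (4 * C + 1) by positivity)
  obtain ⟨χ, ψ, m, sχ, cχ, tχ, sψ, χ0, χ1, ψ0, ψ1, m0, mC, hin, hbd, hexp⟩ := hex K hK hKU
  obtain ⟨κ, k1, k2, k3, k4⟩ := exists_cut hU cχ tχ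
  have sh' : S (fun z => κ z * h z) := S.cut hU k1 k3 hh
  have evh : ∀ z ∈ tsupport χ, (fun z => κ z * h z) =ᶠ[𝓝 z] h := fun z hz => cut_ev (k4 z hz)
  have main := cac_loc (μ := μ) (e := e) (ha k₀) (hs k₀) (hp k₀) sh' sχ cχ (fun z hz => by
    rw [(Ld_congr (e := e) (a := a k₀) (evh z hz)).self_of_nhds]
    exact heq z (tχ hz) k₀)
  have s2 : S (fun z => χ z ^ 2) := sχ.pow 2
  have c2 : HasCompactSupport (fun z => χ z ^ 2) := by
    have := cs_mul_right (g := χ) cχ
    simpa only [pow_two] using this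
  have l1 : ∫ z in K₀, Gm e (a k₀) h h z ∂μ
      ≤ ∫ z, χ z ^ 2 * Gm e (a k₀) (fun z => κ z * h z) (fun z => κ z * h z) z ∂μ := by
    have i1 : Integrable (fun z => χ z ^ 2 *
        Gm e (a k₀) (fun z => κ z * h z) (fun z => κ z * h z) z) μ :=
      S.int (s2.mul (S.Gm (ha k₀) sh' sh')) (cs_mul_right c2)
    have e1 : ∫ z in K₀, Gm e (a k₀) h h z ∂μ = ∫ z in K₀, χ z ^ 2 *
        Gm e (a k₀) (fun z => κ z * h z) (fun z => κ z * h z) z ∂μ := by
      refine setIntegral_congr_fun hK₀.measurableSet fun z hz => ?_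
      have h1 := (hin z (hK0K hz)).1.self_of_nhds
      have hz' : z ∈ tsupport χ := subset_tsupport _ (by
        rw [Function.mem_support, h1]
        norm_num)
      simp only [h1, one_pow, one_mul]
      rw [(Gm_congr (e := e) (a := a k₀) (evh z hz') (evh z hz')).self_of_nhds]
    rw [e1]
    refine setIntegral_le_integral i1 (Eventually.of_forall fun z => ?_)
    exact mul_nonneg (sq_nonneg _) (Gm_nonneg (hp k₀) _ z)
  have r1 : ∫ z, Gm e (a k₀) χ χ z * (κ z * h z) ^ 2 ∂μ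
      ≤ C * ∫ z in U \ K, (Real.exp (W z) * h z) ^ 2 ∂μ := by
    have hm : MeasurableSet (U \ K) := hU.measurableSet.diff hK.measurableSet
    have i2 : Integrable (fun z => Gm e (a k₀) χ χ z * (κ z * h z) ^ 2) μ :=
      S.int ((S.Gm (ha k₀) sχ sχ).mul (sh'.pow 2)) (cs_mul_right (cs_Gm_left cχ χ))
    have i3 : Integrable (fun z => C * (U \ K).indicator
        (fun z => (Real.exp (W z) * h z) ^ 2) z) μ :=
      ((integrable_indicator_iff hm).2 (hgi.mono_set sdiff_subset)).const_mul C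
    rw [← integral_indicator hm, ← integral_const_mul]
    refine integral_mono i2 i3 fun z => ?_
    simp only
    by_cases hz : z ∈ tsupport χ
    · by_cases hzK : z ∈ K
      · have h1 := (hin z hzK).1
        have h2 : Gm e (a k₀) χ χ z = 0 := by
          rw [(Gm_congr (e := e) (a := a k₀) h1 h1).self_of_nhds]
          unfold H269.Gm
          simp [db_const]
        rw [h2, zero_mul]
        exact mul_nonneg hC (indicator_nonneg (fun z _ => sq_nonneg _) z)
      · rw [indicator_of_mem (show z ∈ U \ K from ⟨tχ hz, hzK⟩), (k4 z hz).self_of_nhds, one_mul]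
        have h1 := (hbd z hz hzK k₀).c1
        have h2 := hexp z hz
        have e1 : Real.exp (-(2 * W z)) * Real.exp (W z) ^ 2 = 1 := by
          rw [← Real.exp_nat_mul, ← Real.exp_add]
          norm_num
        calc Gm e (a k₀) χ χ z * h z ^ 2 ≤ m * h z ^ 2 :=
              mul_le_mul_of_nonneg_right h1 (sq_nonneg _)
          _ = m * (Real.exp (-(2 * W z)) * Real.exp (W z) ^ 2) * h z ^ 2 := by rw [e1]; ring
          _ = (m * Real.exp (-(2 * W z))) * (Real.exp (W z) * h z) ^ 2 := by ring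
          _ ≤ C * (Real.exp (W z) * h z) ^ 2 := mul_le_mul_of_nonneg_right h2 (sq_nonneg _)
    · have h2 : Gm e (a k₀) χ χ z = 0 :=
        image_eq_zero_of_notMem_tsupport fun h => hz (ts_Gm_left χ χ h)
      rw [h2, zero_mul]
      exact mul_nonneg hC (indicator_nonneg (fun z _ => sq_nonneg _) z)
  have r2 : 4 * (C * (ε / (4 * C + 1))) ≤ ε := by
    have : 4 * (C * (ε / (4 * C + 1))) = 4 * C * ε / (4 * C + 1) := by ring
    rw [this, div_le_iff₀ (by positivity)]
    nlinarith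
  have r3 := mul_le_mul_of_nonneg_left hKε hC
  linarith

/-- The family of operators is elliptic together. -/
def Ell (U : Set E) (e : J → E) (a : ι → J → J → E → ℝ) : Prop :=
  ∀ (f : E → ℝ), ∀ z ∈ U, (∀ k, Gm e (a k) f f z = 0) → fderiv ℝ f z = 0

/-- Vanishing in the top degree. -/
theorem top3 {U : Set E} (hU : IsOpen U) (hUc : IsPreconnected U) {a : ι → J → J → E → ℝ}
    (ha : ∀ k i j, S (a k i j)) (hs : ∀ k i j z, a k i j z = a k j i z) (hp : ∀ k, Pos (a k))
    (hell : Ell U e a) (hW : ContDiffOn ℝ ∞ W U) {C : ℝ} (hex : Ex U e a W C)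
    (hinf : ¬ IntegrableOn (fun z => Real.exp (2 * W z)) U μ) (hg : ContDiffOn ℝ ∞ g U)
    (hgi : IntegrableOn (fun z => g z ^ 2) U μ)
    (heq : ∀ z ∈ U, ∑ k, Qd e (a k) (fun z => -W z) (Qd e (a k) W g) z = 0) :
    ∀ z ∈ U, g z = 0 := by
  have h1 := top_half (μ := μ) hU ha hs hp hW hex hg hgi heq
  set h : E → ℝ := fun z => Real.exp (-W z) * g z with hh
  have sh : ContDiffOn ℝ ∞ h U := (hW.neg.exp).mul hg
  have hg' : ∀ z, g z = Real.exp (W z) * h z := by
    intro z
    rw [hh]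
    simp only
    rw [← mul_assoc, ← Real.exp_add]
    simp
  have eqL : ∀ z ∈ U, ∀ k, Ld e (a k) h z = 0 := by
    intro z hz k
    obtain ⟨κ, k1, k2, k3, k4⟩ := exists_cut hU (isCompact_singleton (x := z))
      (singleton_subset_iff.2 hz)
    have ev := k4 z rfl
    have sW' := S.cut hU k1 k3 hW
    have sg' := S.cut hU k1 k3 hg
    have e1 := Qd_eq (e := e) (ha k) (hs k) sW' sg' z
    rw [(Qd_congr (e := e) (a := a k) (cut_ev (f := W) ev) (cut_ev (f := g) ev)).self_of_nhds,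
      h1 z hz k] at e1
    have e2 : (fun w => Real.exp (-(κ w * W w)) * (κ w * g w)) =ᶠ[𝓝 z] h := by
      filter_upwards [ev] with w hw
      rw [hw, hh]
      simp
    rw [(Ld_congr (e := e) (a := a k) e2).self_of_nhds] at e1
    exact (mul_eq_zero.1 e1.symm).resolve_left (Real.exp_pos _).ne'
  have hgi' : IntegrableOn (fun z => (Real.exp (W z) * h z) ^ 2) U μ := by
    refine hgi.congr_fun (fun z _ => ?_) hU.measurableSet
    simp only
    rw [← hg' z]
  have en := energy_zero (μ := μ) hU ha hs hp hex sh hgi' eqL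
  have fd : ∀ z ∈ U, fderiv ℝ h z = 0 := fun z hz => hell h z hz (en z hz)
  intro z hz
  have hc : ∀ w ∈ U, h w = h z := by
    intro w hw
    exact hU.is_const_of_fderiv_eq_zero hUc (sh.differentiableOn (by simp)) fd hw hz
  by_contra hne
  have hz0 : h z ≠ 0 := by
    intro h0
    rw [hg' z, h0, mul_zero] at hne
    exact hne rfl
  apply hinf
  have h5 : IntegrableOn (fun w => (h z ^ 2)⁻¹ * (Real.exp (W w) * h w) ^ 2) U μ :=
    hgi'.const_mul _
  refine h5.congr_fun (fun w hw => ?_) hU.measurableSet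
  have key : ∀ c : ℝ, c ≠ 0 → ∀ x : ℝ, (c ^ 2)⁻¹ * (x * c) ^ 2 = x ^ 2 := by
    intro c hc x
    field_simp
  have k2 := key (h z) hz0 (Real.exp (W w))
  rw [← Real.exp_nat_mul] at k2
  simp only [hc w hw]
  rw [k2]
  norm_num

end Vale.Agent.P088.R2.H269
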