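import Vale.Agent.P088.R2.H269.W.W6

/-!
# P088, stage 3: weak solutions by the Riesz theorem
-/

open MeasureTheory Set Filter
open scoped ContDiff Matrix Topology InnerProductSpace

noncomputable section

set_option linter.unusedSectionVars false

namespace Vale.Agent.P088.R2.H269

section Riesz

variable {D H₁ H₂ : Type*} [AddCommGroup D] [Module ℝ D]
  [NormedAddCommGroup H₁] [InnerProductSpace ℝ H₁] [CompleteSpace H₁]
  [NormedAddCommGroup H₂] [InnerProductSpace ℝ H₂] [CompleteSpace H₂]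

/-- One operator. -/
theorem riesz_one (A : D →ₗ[ℝ] H₁) (l : D →ₗ[ℝ] ℝ) (M : ℝ) (hM : 0 ≤ M)
    (h : ∀ a, |l a| ≤ M * ‖A a‖) :
    ∃ v : H₁, ‖v‖ ≤ M ∧ ∀ a, ⟪v, A a⟫_ℝ = l a := by
  classical
  let R : Submodule ℝ H₁ := LinearMap.range A
  have hk : LinearMap.ker A ≤ LinearMap.ker l := by
    intro a ha
    rw [LinearMap.mem_ker] at ha ⊢
    have := h a
    rw [ha, norm_zero, mul_zero] at this
    exact abs_nonpos_iff.mp this
  obtain ⟨f, hf⟩ : ∃ f : R →ₗ[ℝ] ℝ, ∀ a, f ⟨A a, LinearMap.mem_range_self A a⟩ = l a := by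
    let e := A.quotKerEquivRange
    let f₀ : (D ⧸ LinearMap.ker A) →ₗ[ℝ] ℝ := (LinearMap.ker A).liftQ l hk
    refine ⟨f₀ ∘ₗ e.symm.toLinearMap, fun a => ?_⟩
    have : e.symm ⟨A a, LinearMap.mem_range_self A a⟩ = (LinearMap.ker A).mkQ a := by
      rw [LinearEquiv.symm_apply_eq]
      rfl
    simp only [LinearMap.comp_apply, LinearEquiv.coe_coe, this]
    simp [f₀]
  have hfb : ∀ x : R, ‖f x‖ ≤ M * ‖x‖ := by
    rintro ⟨x, a, rfl⟩
    rw [hf]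
    exact h a
  let F : StrongDual ℝ R := f.mkContinuous M hfb
  obtain ⟨G, hG, hGn⟩ := exists_extension_norm_eq R F
  refine ⟨(InnerProductSpace.toDual ℝ H₁).symm G, ?_, fun a => ?_⟩
  · rw [LinearIsometryEquiv.norm_map, hGn]
    exact f.mkContinuous_norm_le hM _
  · rw [InnerProductSpace.toDual_symm_apply]
    have := hG ⟨A a, LinearMap.mem_range_self A a⟩
    rw [← hf a]
    exact this

/-- Two operators. -/
theorem riesz_two (A : D →ₗ[ℝ] H₁) (B : D →ₗ[ℝ] H₂) (l : D →ₗ[ℝ] ℝ) (M : ℝ) (hM : 0 ≤ M)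
    (h : ∀ a, (l a) ^ 2 ≤ M ^ 2 * (‖A a‖ ^ 2 + ‖B a‖ ^ 2)) :
    ∃ (v : H₁) (g : H₂), ‖v‖ ^ 2 + ‖g‖ ^ 2 ≤ M ^ 2 ∧
      ∀ a, ⟪v, A a⟫_ℝ + ⟪g, B a⟫_ℝ = l a := by
  let AB : D →ₗ[ℝ] WithLp 2 (H₁ × H₂) :=
    (WithLp.linearEquiv 2 ℝ (H₁ × H₂)).symm.toLinearMap ∘ₗ (A.prod B)
  have hn : ∀ a, ‖AB a‖ ^ 2 = ‖A a‖ ^ 2 + ‖B a‖ ^ 2 := by
    intro a
    rw [WithLp.prod_norm_sq_eq_of_L2]
    rfl
  obtain ⟨w, hw, hwa⟩ := riesz_one AB l M hM (by
    intro a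
    rw [← abs_of_nonneg (mul_nonneg hM (norm_nonneg (AB a)))]
    apply sq_le_sq.mp
    rw [mul_pow, hn]
    exact h a)
  refine ⟨w.fst, w.snd, ?_, fun a => ?_⟩
  · rw [← WithLp.prod_norm_sq_eq_of_L2]
    exact pow_le_pow_left₀ (norm_nonneg _) hw 2
  · rw [← hwa a, WithLp.prod_inner_apply]
    rfl

end Riesz

variable {E : Type} [NormedAddCommGroup E] [NormedSpace ℝ E]
  [FiniteDimensional ℝ E] [MeasurableSpace E] [BorelSpace E] {μ : Measure E}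
  [μ.IsAddHaarMeasure]

section L2

variable {ν : Measure E}

lemma L2sq {f : E → ℝ} (hf : MemLp f 2 ν) : ‖hf.toLp f‖ ^ 2 = ∫ z, f z ^ 2 ∂ν := by
  rw [← real_inner_self_eq_norm_sq, L2.inner_def]
  refine integral_congr_ae ?_
  filter_upwards [hf.coeFn_toLp] with z hz
  rw [hz, real_inner_self_eq_norm_sq, Real.norm_eq_abs, sq_abs]

lemma L2in (h : Lp ℝ 2 ν) {f : E → ℝ} (hf : MemLp f 2 ν) :
    ⟪h, hf.toLp f⟫_ℝ = ∫ z, h z * f z ∂ν := by
  rw [L2.inner_def]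
  refine integral_congr_ae ?_
  filter_upwards [hf.coeFn_toLp] with z hz
  rw [hz]
  simp [mul_comm]

lemma L2nn (h : Lp ℝ 2 ν) : ‖h‖ ^ 2 = ∫ z, h z ^ 2 ∂ν := by
  rw [← real_inner_self_eq_norm_sq, L2.inner_def]
  refine integral_congr_ae (Eventually.of_forall fun z => ?_)
  simp only
  rw [real_inner_self_eq_norm_sq, Real.norm_eq_abs, sq_abs]

lemma L2int (h : Lp ℝ 2 ν) : Integrable (fun z => h z ^ 2) ν := (Lp.memLp h).integrable_sq

end L2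

lemma sqrt_mem {U : Set E} (hU : IsOpen U) {o : E → ℝ} (ho : ContinuousOn o U) {f : E → ℝ}
    (hf : Tt U f) : MemLp (fun z => √(o z) * f z) 2 (μ.restrict U) := by
  have h1 : Continuous (fun z => √(o z) * f z) := by
    refine continuous_iff_continuousAt.2 fun z => ?_
    by_cases hz : z ∈ tsupport f
    · exact ((ho.continuousAt (hU.mem_nhds (hf.t hz))).sqrt).mul hf.s.continuous.continuousAt
    · have h2 : (fun z => √(o z) * f z) =ᶠ[𝓝 z] fun _ => (0 : ℝ) := by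
        filter_upwards [notMem_tsupport_iff_eventuallyEq.1 hz] with w hw
        rw [hw]
        simp
      exact continuousAt_const.congr h2.symm
  exact (h1.memLp_of_hasCompactSupport hf.c.mul_left).restrict _

/-- linear maps to `L²` -/
def mkL {D : Type*} [AddCommGroup D] [Module ℝ D] {ν : Measure E} (A : D →ₗ[ℝ] (E → ℝ))
    (o : E → ℝ) (h : ∀ d, MemLp (fun z => √(o z) * A d z) 2 ν) : D →ₗ[ℝ] Lp ℝ 2 ν where
  toFun d := (h d).toLp _
  map_add' a b := by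
    rw [← MemLp.toLp_add]
    refine MemLp.toLp_congr _ _ (Eventually.of_forall fun z => ?_)
    simp only [map_add, Pi.add_apply]
    ring
  map_smul' c a := by
    rw [RingHom.id_apply, ← MemLp.toLp_const_smul]
    refine MemLp.toLp_congr _ _ (Eventually.of_forall fun z => ?_)
    simp only [map_smul, Pi.smul_apply, smul_eq_mul]
    ring

/-- The weak solution. -/
theorem weak {D : Type*} [AddCommGroup D] [Module ℝ D] {U : Set E} (hU : IsOpen U)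
    {o₁ o₂ : E → ℝ} (ho₁ : ContinuousOn o₁ U) (ho₂ : ContinuousOn o₂ U)
    (p₁ : ∀ z ∈ U, 0 < o₁ z) (p₂ : ∀ z ∈ U, 0 < o₂ z) (A B : D →ₗ[ℝ] (E → ℝ))
    (hA : ∀ d, Tt U (A d)) (hB : ∀ d, Tt U (B d)) (l : D →ₗ[ℝ] ℝ) {M : ℝ} (hM : 0 ≤ M)
    (h : ∀ d, (l d) ^ 2 ≤ M ^ 2 * ∫ z in U, (o₁ z * A d z ^ 2 + o₂ z * B d z ^ 2) ∂μ) :
    ∃ w g : E → ℝ, AEStronglyMeasurable w μ ∧ AEStronglyMeasurable g μ ∧
      IntegrableOn (fun z => w z ^ 2 / o₁ z) U μ ∧ IntegrableOn (fun z => g z ^ 2 / o₂ z) U μ ∧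
      (∫ z in U, w z ^ 2 / o₁ z ∂μ) + (∫ z in U, g z ^ 2 / o₂ z ∂μ) ≤ M ^ 2 ∧
      ∀ d, l d = ∫ z in U, (w z * A d z + g z * B d z) ∂μ := by
  have m1 : ∀ d, MemLp (fun z => √(o₁ z) * A d z) 2 (μ.restrict U) :=
    fun d => sqrt_mem hU ho₁ (hA d)
  have m2 : ∀ d, MemLp (fun z => √(o₂ z) * B d z) 2 (μ.restrict U) :=
    fun d => sqrt_mem hU ho₂ (hB d)
  have bound : ∀ d, (l d) ^ 2 ≤ M ^ 2 * (‖mkL A o₁ m1 d‖ ^ 2 + ‖mkL B o₂ m2 d‖ ^ 2) := by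
    intro d
    have e1 : ‖mkL A o₁ m1 d‖ ^ 2 = ∫ z in U, (√(o₁ z) * A d z) ^ 2 ∂μ := L2sq (m1 d)
    have e2 : ‖mkL B o₂ m2 d‖ ^ 2 = ∫ z in U, (√(o₂ z) * B d z) ^ 2 ∂μ := L2sq (m2 d)
    rw [e1, e2, ← integral_add (m1 d).integrable_sq (m2 d).integrable_sq]
    refine (h d).trans (le_of_eq ?_)
    congr 1
    refine setIntegral_congr_fun hU.measurableSet fun z hz => ?_
    rw [mul_pow, mul_pow, Real.sq_sqrt (p₁ z hz).le, Real.sq_sqrt (p₂ z hz).le]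
  obtain ⟨v, k, hvk, heq⟩ := riesz_two (mkL A o₁ m1) (mkL B o₂ m2) l M hM bound
  have key : ∀ (o : E → ℝ), ContinuousOn o U → ∀ (v : Lp ℝ 2 (μ.restrict U)),
      ∃ w : E → ℝ, AEStronglyMeasurable w μ ∧ ∀ z ∈ U, w z = √(o z) * v z := by
    intro o ho v
    refine ⟨U.indicator fun z => √(o z) * v z, ?_, fun z hz => indicator_of_mem hz _⟩
    rw [aestronglyMeasurable_indicator_iff hU.measurableSet]
    exact ((ho.sqrt).aestronglyMeasurable hU.measurableSet).mul (Lp.aestronglyMeasurable v)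
  obtain ⟨w, w1, w2⟩ := key o₁ ho₁ v
  obtain ⟨g, g1, g2⟩ := key o₂ ho₂ k
  have sw : ∀ z ∈ U, w z ^ 2 / o₁ z = v z ^ 2 := by
    intro z hz
    rw [w2 z hz, mul_pow, Real.sq_sqrt (p₁ z hz).le]
    exact mul_div_cancel_left₀ _ (p₁ z hz).ne'
  have sg : ∀ z ∈ U, g z ^ 2 / o₂ z = k z ^ 2 := by
    intro z hz
    rw [g2 z hz, mul_pow, Real.sq_sqrt (p₂ z hz).le]
    exact mul_div_cancel_left₀ _ (p₂ z hz).ne'
  have iv : IntegrableOn (fun z => v z ^ 2) U μ := L2int v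
  have ik : IntegrableOn (fun z => k z ^ 2) U μ := L2int k
  refine ⟨w, g, w1, g1, iv.congr_fun (fun z hz => (sw z hz).symm) hU.measurableSet,
    ik.congr_fun (fun z hz => (sg z hz).symm) hU.measurableSet, ?_, fun d => ?_⟩
  · rw [setIntegral_congr_fun hU.measurableSet sw, setIntegral_congr_fun hU.measurableSet sg,
      ← L2nn, ← L2nn]
    exact hvk
  · have e1 : ⟪v, mkL A o₁ m1 d⟫_ℝ = ∫ z in U, v z * (√(o₁ z) * A d z) ∂μ := L2in v (m1 d)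
    have e2 : ⟪k, mkL B o₂ m2 d⟫_ℝ = ∫ z in U, k z * (√(o₂ z) * B d z) ∂μ := L2in k (m2 d)
    have j1 : Integrable (fun z => v z * (√(o₁ z) * A d z)) (μ.restrict U) :=
      (Lp.memLp v).integrable_mul (m1 d)
    have j2 : Integrable (fun z => k z * (√(o₂ z) * B d z)) (μ.restrict U) :=
      (Lp.memLp k).integrable_mul (m2 d)
    rw [← heq d, e1, e2, ← integral_add j1 j2]
    refine setIntegral_congr_fun hU.measurableSet fun z hz => ?_
    rw [w2 z hz, g2 z hz]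
    ring

end Vale.Agent.P088.R2.H269
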