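import Vale.Agent.P088.R2.H269.W.W7

/-!
# P088, stage 3: localised identities and regularity
-/

open MeasureTheory Set Filter
open scoped ContDiff Matrix Topology

noncomputable section

set_option linter.unusedSectionVars false

namespace Vale.Agent.P088.R2.H269

open Vale.Agent.P088.LR Vale.Agent.P088.HY

variable {J E : Type} [Fintype J] [NormedAddCommGroup E] [NormedSpace ℝ E]
  [FiniteDimensional ℝ E] {e : J → E} {a a₀ a₁ : J → J → E → ℝ} {f g h W : E → ℝ} {U : Set E}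

/-- global smooth representatives near a point -/
lemma ext_at (hU : IsOpen U) {z : E} (hz : z ∈ U) (hf : ContDiffOn ℝ ∞ f U) :
    ∃ f', S f' ∧ f' =ᶠ[𝓝 z] f := by
  obtain ⟨κ, k1, k2, k3, k4⟩ := exists_cut hU (isCompact_singleton (x := z))
    (singleton_subset_iff.2 hz)
  exact ⟨fun z => κ z * f z, S.cut hU k1 k3 hf, cut_ev (k4 z rfl)⟩

/-- global smooth representatives near a compact set -/
lemma ext_on (hU : IsOpen U) {K : Set E} (hK : IsCompact K) (hKU : K ⊆ U)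
    (hf : ContDiffOn ℝ ∞ f U) (hg : ContDiffOn ℝ ∞ g U) :
    ∃ f' g' : E → ℝ, S f' ∧ S g' ∧ ∀ z ∈ K, f' =ᶠ[𝓝 z] f ∧ g' =ᶠ[𝓝 z] g := by
  obtain ⟨κ, k1, k2, k3, k4⟩ := exists_cut hU hK hKU
  exact ⟨fun z => κ z * f z, fun z => κ z * g z, S.cut hU k1 k3 hf, S.cut hU k1 k3 hg,
    fun z hz => ⟨cut_ev (k4 z hz), cut_ev (k4 z hz)⟩⟩

lemma cdo_Qd (hU : IsOpen U) (ha : ∀ i j, S (a i j)) (hW : ContDiffOn ℝ ∞ W U)
    (hf : ContDiffOn ℝ ∞ f U) : ContDiffOn ℝ ∞ (Qd e a W f) U := by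
  intro z hz
  obtain ⟨W', w1, w2⟩ := ext_at hU hz hW
  obtain ⟨f', f1, f2⟩ := ext_at hU hz hf
  have h := Qd_congr (e := e) (a := a) w2 f2
  exact ((S.Qd (e := e) ha w1 f1).contDiffAt.congr_of_eventuallyEq h.symm).contDiffWithinAt

lemma cdo_Ld (hU : IsOpen U) (ha : ∀ i j, S (a i j))
    (hf : ContDiffOn ℝ ∞ f U) : ContDiffOn ℝ ∞ (Ld e a f) U := by
  intro z hz
  obtain ⟨f', f1, f2⟩ := ext_at hU hz hf
  have h := Ld_congr (e := e) (a := a) f2
  exact ((S.Ld (e := e) ha f1).contDiffAt.congr_of_eventuallyEq h.symm).contDiffWithinAt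

lemma cdo_db (hU : IsOpen U) (hf : ContDiffOn ℝ ∞ f U) (i : J) :
    ContDiffOn ℝ ∞ (db e i f) U := by
  intro z hz
  obtain ⟨f', f1, f2⟩ := ext_at hU hz hf
  have h := db_congr (e := e) f2 i
  exact ((S.db (e := e) f1 i).contDiffAt.congr_of_eventuallyEq h.symm).contDiffWithinAt

lemma cdo_Gm (hU : IsOpen U) (ha : ∀ i j, S (a i j)) (hf : ContDiffOn ℝ ∞ f U)
    (hg : ContDiffOn ℝ ∞ g U) : ContDiffOn ℝ ∞ (Gm e a f g) U := by
  intro z hz
  obtain ⟨f', f1, f2⟩ := ext_at hU hz hf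
  obtain ⟨g', g1, g2⟩ := ext_at hU hz hg
  have h := Gm_congr (e := e) (a := a) f2 g2
  exact ((S.Gm (e := e) ha f1 g1).contDiffAt.congr_of_eventuallyEq h.symm).contDiffWithinAt

/-- equality on an open set gives equality of germs -/
lemma ev_of_on (hU : IsOpen U) {z : E} (hz : z ∈ U) (h : ∀ z ∈ U, f z = g z) : f =ᶠ[𝓝 z] g := by
  filter_upwards [hU.mem_nhds hz] with w hw
  exact h w hw

/-- `e^{-W} Ld (e^W f) = Qd (-W) f` on `U` -/
lemma Pd_eq (hU : IsOpen U) (ha : ∀ i j, S (a i j)) (hs : ∀ i j z, a i j z = a j i z)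
    (hW : ContDiffOn ℝ ∞ W U) (hf : ContDiffOn ℝ ∞ f U) {z : E} (hz : z ∈ U) :
    Qd e a (fun z => -W z) f z = Real.exp (-W z) * Ld e a (fun w => Real.exp (W w) * f w) z := by
  obtain ⟨W', w1, w2⟩ := ext_at hU hz hW
  obtain ⟨f', f1, f2⟩ := ext_at hU hz hf
  have h1 := Qd_eq (e := e) ha hs w1.neg f1 z
  have h2 := (Qd_congr (e := e) (a := a) (EventuallyEq.neg w2) f2).self_of_nhds
  have h3 : (fun w => Real.exp (-(-W' w)) * f' w) =ᶠ[𝓝 z] fun w => Real.exp (W w) * f w := by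
    filter_upwards [w2, f2] with w k1 k2
    rw [k1, k2, neg_neg]
  have h4 := (Ld_congr (e := e) (a := a) h3).self_of_nhds
  have h2' : Qd e a (fun z => -W' z) f' z = Qd e a (fun z => -W z) f z := h2
  rw [← h2', h1, h4, w2.self_of_nhds]

/-- `Qd (-W) (e^{-W} F) = e^{-W} Ld F` on `U` -/
lemma Pd_exp (hU : IsOpen U) (ha : ∀ i j, S (a i j)) (hs : ∀ i j z, a i j z = a j i z)
    (hW : ContDiffOn ℝ ∞ W U) (hf : ContDiffOn ℝ ∞ f U) {z : E} (hz : z ∈ U) :
    Qd e a (fun z => -W z) (fun w => Real.exp (-W w) * f w) z = Real.exp (-W z) * Ld e a f z := by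
  rw [Pd_eq hU ha hs hW ((hW.neg.exp).mul hf) hz]
  congr 2
  ext w
  rw [← mul_assoc, ← Real.exp_add]
  simp

/-- commutation of the conjugated operators -/
lemma Pd_comm (hU : IsOpen U) (h₀ : ∀ i j, S (a₀ i j)) (s₀ : ∀ i j z, a₀ i j z = a₀ j i z)
    (h₁ : ∀ i j, S (a₁ i j)) (s₁ : ∀ i j z, a₁ i j z = a₁ j i z)
    (hc : ∀ f, S f → ∀ z, Ld e a₀ (Ld e a₁ f) z = Ld e a₁ (Ld e a₀ f) z)
    (hW : ContDiffOn ℝ ∞ W U) (hf : ContDiffOn ℝ ∞ f U) {z : E} (hz : z ∈ U) :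
    Qd e a₀ (fun z => -W z) (Qd e a₁ (fun z => -W z) f) z
      = Qd e a₁ (fun z => -W z) (Qd e a₀ (fun z => -W z) f) z := by
  have sF : ContDiffOn ℝ ∞ (fun w => Real.exp (W w) * f w) U := hW.exp.mul hf
  have key : ∀ (b c : J → J → E → ℝ), (∀ i j, S (b i j)) → (∀ i j z, b i j z = b j i z) →
      (∀ i j, S (c i j)) → (∀ i j z, c i j z = c j i z) →
      Qd e b (fun z => -W z) (Qd e c (fun z => -W z) f) z
        = Real.exp (-W z) * Ld e b (Ld e c (fun w => Real.exp (W w) * f w)) z := by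
    intro b c hb sb hc sc
    have h1 : Qd e c (fun z => -W z) f =ᶠ[𝓝 z]
        fun z => Real.exp (-W z) * Ld e c (fun w => Real.exp (W w) * f w) z :=
      ev_of_on hU hz fun w hw => Pd_eq hU hc sc hW hf hw
    rw [(Qd_congr (e := e) (a := b) (EventuallyEq.refl _ _) h1).self_of_nhds]
    exact Pd_exp hU hb sb hW (cdo_Ld hU hc sF) hz
  rw [key a₀ a₁ h₀ s₀ h₁ s₁, key a₁ a₀ h₁ s₁ h₀ s₀]
  congr 1
  obtain ⟨F, F1, F2⟩ := ext_at hU hz sF
  have k1 := (Ld_congr (e := e) (a := a₀) (Ld_congr (e := e) (a := a₁) F2)).self_of_nhds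
  have k2 := (Ld_congr (e := e) (a := a₁) (Ld_congr (e := e) (a := a₀) F2)).self_of_nhds
  rw [← k1, ← k2]
  exact hc F F1 z

/-- the germ of a conjugated operator at the points of the support -/
lemma Qd_ext {K : Set E} {W' f : E → ℝ} (hK : tsupport f ⊆ K)
    (h : ∀ z ∈ K, W' =ᶠ[𝓝 z] W) : Qd e a W f = Qd e a W' f := by
  ext z
  by_cases hz : z ∈ tsupport f
  · exact (Qd_congr (e := e) (a := a) (h z (hK hz)) (EventuallyEq.refl _ f)).self_of_nhds.symm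
  · have h1 : Qd e a W f z = 0 := image_eq_zero_of_notMem_tsupport fun k => hz (ts_Qd f k)
    have h2 : Qd e a W' f z = 0 := image_eq_zero_of_notMem_tsupport fun k => hz (ts_Qd f k)
    rw [h1, h2]

lemma Tt.Qd (hU : IsOpen U) (ha : ∀ i j, S (a i j)) (hW : ContDiffOn ℝ ∞ W U) (hf : Tt U f) :
    Tt U (Qd e a W f) := by
  obtain ⟨W', f', w1, f1, w2⟩ := ext_on hU hf.c hf.t hW hW
  have h1 := Qd_ext (e := e) (a := a) (W' := W') (W := W) (f := f) (K := tsupport f) le_rfl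
    fun z hz => (w2 z hz).1
  refine ⟨?_, cs_Qd hf.c, (ts_Qd f).trans hf.t⟩
  rw [h1]
  exact S.Qd ha w1 hf.s

lemma Tt.add (hf : Tt U f) (hg : Tt U g) : Tt U (fun z => f z + g z) :=
  ⟨hf.s.add hg.s, hf.c.add hg.c, (tsupport_add f g).trans (union_subset hf.t hg.t)⟩

lemma Tt.smul (c : ℝ) (hf : Tt U f) : Tt U (fun z => c * f z) :=
  ⟨contDiff_const.mul hf.s, cs_mul_left hf.c, (ts_mul_right _ _).trans hf.t⟩

lemma Tt.mul (hU : IsOpen U) (hf : ContDiffOn ℝ ∞ f U) (hg : Tt U g) : Tt U (fun z => f z * g z) := by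
  refine ⟨?_, cs_mul_left hg.c, (ts_mul_right _ _).trans hg.t⟩
  refine contDiff_iff_contDiffAt.2 fun z => ?_
  by_cases hz : z ∈ tsupport g
  · exact (hf.contDiffAt (hU.mem_nhds (hg.t hz))).mul hg.s.contDiffAt
  · have h1 : (fun z => f z * g z) =ᶠ[𝓝 z] fun _ => (0 : ℝ) := by
      filter_upwards [notMem_tsupport_iff_eventuallyEq.1 hz] with w hw
      rw [hw]
      simp
    exact contDiffAt_const.congr_of_eventuallyEq h1

lemma Tt.zero : Tt U (fun _ : E => (0 : ℝ)) := by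
  refine ⟨contDiff_const, HasCompactSupport.zero, ?_⟩
  simp

variable [MeasurableSpace E] [BorelSpace E] {μ : Measure E} [μ.IsAddHaarMeasure]

lemma Tt.int (hf : Tt U f) : Integrable f μ := S.int hf.s hf.c

/-- the adjoint on `U` -/
lemma adj_on (hU : IsOpen U) (ha : ∀ i j, S (a i j)) (hs : ∀ i j z, a i j z = a j i z)
    (hW : ContDiffOn ℝ ∞ W U) (hf : ContDiffOn ℝ ∞ f U) (hg : Tt U g) :
    ∫ z, f z * Qd e a W g z ∂μ = ∫ z, Qd e a (fun z => -W z) f z * g z ∂μ := by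
  obtain ⟨W', f', w1, f1, h1⟩ := ext_on hU hg.c hg.t hW hf
  have e1 := int_Qd (μ := μ) (e := e) ha hs w1.neg f1 hg.s (Or.inr hg.c)
  have e2 : ∫ z, f z * Qd e a W g z ∂μ = ∫ z, f' z * Qd e a (fun w => -(fun w => -W' w) w) g z ∂μ := by
    congr 1
    ext z
    by_cases hz : z ∈ tsupport g
    · have k1 := h1 z hz
      have k2 : (fun w => -(fun w => -W' w) w) =ᶠ[𝓝 z] W := by
        filter_upwards [k1.1] with w hw
        simp [hw]
      rw [(Qd_congr (e := e) (a := a) k2 (EventuallyEq.refl _ g)).self_of_nhds,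
        k1.2.self_of_nhds]
    · have k1 : ∀ V : E → ℝ, Qd e a V g z = 0 := fun V =>
        image_eq_zero_of_notMem_tsupport fun k => hz (ts_Qd g k)
      rw [k1, k1]
      ring
  rw [e2, e1]
  congr 1
  ext z
  by_cases hz : z ∈ tsupport g
  · have k1 := h1 z hz
    have k3 : Qd e a (fun w => -W' w) f' z = Qd e a (fun z => -W z) f z :=
      (Qd_congr (e := e) (a := a) (EventuallyEq.neg k1.1) k1.2).self_of_nhds
    rw [← k3]
  · rw [image_eq_zero_of_notMem_tsupport hz]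
    ring

/-- the adjoint on `U` -/
lemma adj_on' (hU : IsOpen U) (ha : ∀ i j, S (a i j)) (hs : ∀ i j z, a i j z = a j i z)
    (hW : ContDiffOn ℝ ∞ W U) (hf : ContDiffOn ℝ ∞ f U) (hg : Tt U g) :
    ∫ z, f z * Qd e a (fun z => -W z) g z ∂μ = ∫ z, Qd e a W f z * g z ∂μ := by
  have := adj_on (μ := μ) (e := e) hU ha hs hW.neg hf hg
  simpa only [neg_neg] using this

/-- a smooth function orthogonal to all test functions vanishes -/
theorem zero_of_weak (hU : IsOpen U) {R : E → ℝ} (hR : ContDiffOn ℝ ∞ R U)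
    (h : ∀ a, Tt U a → ∫ z, R z * a z ∂μ = 0) : ∀ z ∈ U, R z = 0 := by
  intro z₀ hz₀
  obtain ⟨χ, hχs, hχc, hχd, hχr, hχ1⟩ :=
    exists_contDiff_tsupport_subset (n := (⊤ : ℕ∞)) (hU.mem_nhds hz₀)
  have tχ : Tt U χ := ⟨hχd, hχc, hχs⟩
  have h1 := h (fun z => R z * χ z) (Tt.mul hU hR tχ)
  have tt : Tt U (fun z => R z * (R z * χ z)) := Tt.mul hU hR (Tt.mul hU hR tχ)
  by_contra hne
  have h2 : 0 < ∫ z, R z * (R z * χ z) ∂μ := by
    refine tt.s.continuous.integral_pos_of_hasCompactSupport_nonneg_nonzero tt.c (fun z => ?_)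
      (x := z₀) ?_
    · have := (hχr ⟨z, rfl⟩).1
      have h3 : R z * (R z * χ z) = R z ^ 2 * χ z := by ring
      rw [h3]
      positivity
    · have h3 : R z₀ * (R z₀ * χ z₀) = R z₀ ^ 2 * χ z₀ := by ring
      rw [h3, hχ1]
      positivity
  linarith

end Vale.Agent.P088.R2.H269
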